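import Mathlib

namespace Vale.Agent.P371

open Set Metric in
/-- Solutions on a whole interval for a field that is globally Lipschitz and vanishes at zero. -/
theorem linODE_aux {X : Type} [NormedAddCommGroup X] [NormedSpace ℝ X] [CompleteSpace X]
    (G : ℝ → X → X) {a b M : ℝ} (hab : a < b) (hM : 0 ≤ M)
    (hL : ∀ t ∈ Icc (a - 1) (b + 1), ∀ y z, ‖G t y - G t z‖ ≤ M * ‖y - z‖)
    (hB : ∀ t ∈ Icc (a - 1) (b + 1), ∀ y, ‖G t y‖ ≤ M * ‖y‖)
    (hC : ∀ y, Continuous fun t => G t y) (x₀ : X) :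
    ∃ γ : ℝ → X, γ a = x₀ ∧ ∀ t ∈ Icc a b, HasDerivAt γ (G t (γ t)) t := by
  set R : ℝ := ‖x₀‖ * Real.exp (M * (b - a)) with hR
  have hR0 : 0 ≤ R := by positivity
  set χ : X → ℝ := fun y => max 0 (min 1 (R + 1 - ‖y‖)) with hχ
  have hχ0 : ∀ y, 0 ≤ χ y := fun y => le_max_left _ _
  have hχ1 : ∀ y, χ y ≤ 1 := fun y => max_le zero_le_one (min_le_left _ _)
  have hχL : ∀ y z, |χ y - χ z| ≤ ‖y - z‖ := by
    intro y z
    have h1 : |(R + 1 - ‖y‖) - (R + 1 - ‖z‖)| ≤ ‖y - z‖ := by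
      rw [show (R + 1 - ‖y‖) - (R + 1 - ‖z‖) = -(‖y‖ - ‖z‖) by ring, abs_neg]
      exact abs_norm_sub_norm_le y z
    have h2 := abs_min_sub_min_le_max 1 (R + 1 - ‖y‖) 1 (R + 1 - ‖z‖)
    have h3 := abs_max_sub_max_le_max 0 (min 1 (R + 1 - ‖y‖)) 0 (min 1 (R + 1 - ‖z‖))
    simp only [sub_self, abs_zero] at h2 h3
    exact h3.trans (max_le (norm_nonneg _) (h2.trans (max_le (norm_nonneg _) h1)))
  have hχle : ∀ y, ‖χ y • y‖ ≤ ‖y‖ := fun y => by
    rw [norm_smul, Real.norm_eq_abs, abs_of_nonneg (hχ0 y)]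
    exact mul_le_of_le_one_left (norm_nonneg _) (hχ1 y)
  have hχb : ∀ y, ‖χ y • y‖ ≤ R + 1 := fun y => by
    by_cases h : ‖y‖ ≤ R + 1
    · exact (hχle y).trans h
    · have : χ y = 0 := max_eq_left ((min_le_right _ _).trans (by linarith))
      rw [this, zero_smul, norm_zero]; linarith
  have hχe : ∀ y, ‖y‖ ≤ R → χ y • y = y := fun y hy => by
    have : χ y = 1 := by
      simp only [hχ]
      rw [min_eq_left (by linarith), max_eq_right zero_le_one]
    rw [this, one_smul]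
  have ha : a ∈ Icc (a - 1) (b + 1) := ⟨by linarith, by linarith⟩
  set ρ : ℝ := M * (R + 1) * (b + 1 - a) with hρ
  have hρ0 : 0 ≤ ρ := mul_nonneg (by positivity) (by linarith)
  have hPL : IsPicardLindelof (fun t y => G t (χ y • y)) (⟨a, ha⟩ : Icc (a - 1) (b + 1)) x₀
      ⟨ρ, hρ0⟩ 0 ⟨M * (R + 1), by positivity⟩ ⟨M * (1 + (‖x₀‖ + ρ)), by positivity⟩ := by
    refine ⟨fun t ht => ?_, fun y _ => (hC _).continuousOn, fun t ht y _ => ?_, ?_⟩
    · refine LipschitzOnWith.of_dist_le_mul fun y _ z hz => ?_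
      rw [dist_eq_norm, dist_eq_norm]
      refine (hL t ht _ _).trans ?_
      have hz' : ‖z‖ ≤ ‖x₀‖ + ρ := norm_le_of_mem_closedBall hz
      have e : χ y • y - χ z • z = χ y • (y - z) + (χ y - χ z) • z := by
        rw [smul_sub, sub_smul]; abel
      have h1 : ‖χ y • y - χ z • z‖ ≤ (1 + (‖x₀‖ + ρ)) * ‖y - z‖ := by
        rw [e]
        refine (norm_add_le _ _).trans ?_
        rw [norm_smul, norm_smul, Real.norm_eq_abs, Real.norm_eq_abs, abs_of_nonneg (hχ0 y)]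
        have h2 : χ y * ‖y - z‖ ≤ ‖y - z‖ := mul_le_of_le_one_left (norm_nonneg _) (hχ1 y)
        have h3 : |χ y - χ z| * ‖z‖ ≤ ‖y - z‖ * (‖x₀‖ + ρ) :=
          mul_le_mul (hχL y z) hz' (norm_nonneg _) (norm_nonneg _)
        linarith
      calc M * ‖χ y • y - χ z • z‖ ≤ M * ((1 + (‖x₀‖ + ρ)) * ‖y - z‖) :=
            mul_le_mul_of_nonneg_left h1 hM
        _ = M * (1 + (‖x₀‖ + ρ)) * ‖y - z‖ := by ring
    · exact (hB t ht _).trans (mul_le_mul_of_nonneg_left (hχb y) hM)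
    · show M * (R + 1) * max (b + 1 - a) (a - (a - 1)) ≤ ρ - 0
      rw [max_eq_left (by linarith), sub_zero]
  obtain ⟨γ, h1, h2⟩ := hPL.exists_eq_forall_mem_Icc_hasDerivWithinAt₀
  have hsub : ∀ t ∈ Icc a b, t ∈ Icc (a - 1) (b + 1) := fun t ht =>
    ⟨by linarith [ht.1], by linarith [ht.2]⟩
  have hd : ∀ t ∈ Icc a b, HasDerivAt γ (G t (χ (γ t) • γ t)) t := fun t ht =>
    (h2 t (hsub t ht)).hasDerivAt (Icc_mem_nhds (by linarith [ht.1]) (by linarith [ht.2]))
  have h1' : γ a = x₀ := h1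
  have hbd : ∀ t ∈ Icc a b, ‖γ t‖ ≤ R := by
    intro t ht
    have := norm_le_gronwallBound_of_norm_deriv_right_le (K := M) (ε := 0) (δ := ‖x₀‖)
      (HasDerivAt.continuousOn hd) (fun u hu => (hd u (Ico_subset_Icc_self hu)).hasDerivWithinAt)
      (by rw [h1']) (fun u hu => by
        rw [add_zero]
        exact (hB u (hsub u (Ico_subset_Icc_self hu)) _).trans
          (mul_le_mul_of_nonneg_left (hχle _) hM)) t ht
    rw [gronwallBound_ε0] at this
    refine this.trans (mul_le_mul_of_nonneg_left (Real.exp_le_exp.2 ?_) (norm_nonneg _))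
    exact mul_le_mul_of_nonneg_left (by linarith [ht.2]) hM
  refine ⟨γ, h1', fun t ht => ?_⟩
  have := hd t ht
  rwa [hχe _ (hbd t ht)] at this

/-- Linear ODE with continuous dependence on a parameter in a compact space. -/
theorem exists_linODE {P E : Type} [TopologicalSpace P] [CompactSpace P]
    [NormedAddCommGroup E] [NormedSpace ℝ E] [CompleteSpace E]
    (A : P → ℝ → E →L[ℝ] E) (hA : Continuous fun q : P × ℝ => A q.1 q.2)
    (y₀ : P → E) (hy₀ : Continuous y₀) {a b : ℝ} (hab : a < b) :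
    ∃ Y : P → ℝ → E, ContinuousOn (fun q : P × ℝ => Y q.1 q.2) (Set.univ ×ˢ Set.Icc a b) ∧
      ∀ p, Y p a = y₀ p ∧ ∀ x ∈ Set.Icc a b, HasDerivAt (Y p) (A p x (Y p x)) x := by
  obtain ⟨M₀, hM₀⟩ := ((isCompact_univ (X := P)).prod
    (isCompact_Icc (a := a - 1) (b := b + 1))).exists_bound_of_continuousOn hA.continuousOn
  have hM : ∀ p, ∀ t ∈ Set.Icc (a - 1) (b + 1), ‖A p t‖ ≤ max M₀ 0 := fun p t ht =>
    (hM₀ (p, t) ⟨trivial, ht⟩).trans (le_max_left _ _)
  have hc : ∀ (t : ℝ) (Y : C(P, E)), Continuous fun p => A p t (Y p) := fun t Y =>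
    (hA.comp (continuous_id.prodMk continuous_const)).clm_apply Y.continuous
  let G : ℝ → C(P, E) → C(P, E) := fun t Y => ⟨fun p => A p t (Y p), hc t Y⟩
  have hB : ∀ t ∈ Set.Icc (a - 1) (b + 1), ∀ Y, ‖G t Y‖ ≤ max M₀ 0 * ‖Y‖ := by
    intro t ht Y
    rw [ContinuousMap.norm_le _ (mul_nonneg (le_max_right _ _) (norm_nonneg _))]
    intro p
    exact ((A p t).le_opNorm _).trans
      (mul_le_mul (hM p t ht) (Y.norm_coe_le_norm p) (norm_nonneg _) (le_max_right _ _))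
  obtain ⟨γ, h1, h2⟩ := linODE_aux G hab (le_max_right M₀ 0)
    (fun t ht Y Z => by
      have : G t Y - G t Z = G t (Y - Z) := by ext p; simp [G]
      rw [this]; exact hB t ht _) hB
    (fun Y => ContinuousMap.continuous_of_continuous_uncurry _
      ((hA.comp continuous_swap).clm_apply (Y.continuous.comp continuous_snd)))
    (⟨y₀, hy₀⟩ : C(P, E))
  refine ⟨fun p x => γ x p, ?_, fun p => ⟨by simp [h1], fun x hx => ?_⟩⟩
  · have h3 : ContinuousOn (fun q : P × ℝ => γ q.2) (Set.univ ×ˢ Set.Icc a b) :=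
      (HasDerivAt.continuousOn h2).comp continuous_snd.continuousOn fun q hq => hq.2
    exact continuous_eval.comp_continuousOn (h3.prodMk continuous_fst.continuousOn)
  · exact (ContinuousMap.evalCLM ℝ p).hasFDerivAt.comp_hasDerivAt x (h2 x hx)

end Vale.Agent.P371
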