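import Vale.Agent.P371.Basic

open MeasureTheory Matrix Set
open scoped Matrix.Norms.L2Operator ComplexOrder

namespace Vale.Agent.P371

variable {n : Type} [Fintype n] [DecidableEq n]

omit [DecidableEq n] in
theorem kfam_tr_nonneg {A : Matrix n n ℂ} (hA : A.PosSemidef) : 0 ≤ tr A :=
  (Complex.nonneg_iff.1 hA.trace_nonneg).1

omit [DecidableEq n] in
theorem kfam_tr_add (A B : Matrix n n ℂ) : tr (A + B) = tr A + tr B := by simp [tr]

omit [DecidableEq n] in
theorem kfam_tr_sub (A B : Matrix n n ℂ) : tr (A - B) = tr A - tr B := by simp [tr]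

omit [DecidableEq n] in
theorem kfam_tr_smul (c : ℝ) (A : Matrix n n ℂ) : tr (c • A) = c * tr A := by simp [tr]

omit [DecidableEq n] in
theorem kfam_tr_comm (A B : Matrix n n ℂ) : tr (A * B) = tr (B * A) := by
  simp only [tr, trace_mul_comm A B]

omit [DecidableEq n] in
theorem kfam_tr_le {A B : Matrix n n ℂ} (h : (B - A).PosSemidef) : tr A ≤ tr B := by
  have := kfam_tr_nonneg h
  rw [kfam_tr_sub] at this
  linarith

omit [DecidableEq n] in
theorem kfam_young (X Y : Matrix n n ℂ) {h : ℝ} (hh : 0 < h) :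
    tr ((X + Y)ᴴ * (X + Y)) ≤ (1 + h) * tr (Xᴴ * X) + (1 + h⁻¹) * tr (Yᴴ * Y) := by
  have h1 := kfam_tr_nonneg (posSemidef_conjTranspose_mul_self (h • X - Y))
  simp only [conjTranspose_sub, conjTranspose_smul, star_trivial, conjTranspose_add, sub_mul,
    mul_sub, add_mul, mul_add, smul_mul_assoc, mul_smul_comm, kfam_tr_add, kfam_tr_sub,
    kfam_tr_smul] at h1 ⊢
  have h2 := mul_nonneg (inv_pos.2 hh).le h1
  have e : h⁻¹ * (h * (h * tr (Xᴴ * X)) - h * tr (Yᴴ * X) - (h * tr (Xᴴ * Y) - tr (Yᴴ * Y)))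
      = h * tr (Xᴴ * X) - tr (Yᴴ * X) - tr (Xᴴ * Y) + h⁻¹ * tr (Yᴴ * Y) := by
    field_simp; ring
  rw [e] at h2
  linarith

theorem kfam_upper {K : Matrix n n ℂ} (hK : K.IsHermitian) :
    ∃ k : ℝ, 0 < k ∧ (k • (1 : Matrix n n ℂ) - K).PosSemidef := by
  refine ⟨∑ i, |hK.eigenvalues i| + 1, by positivity, ?_⟩
  set k := ∑ i, |hK.eigenvalues i| + 1 with hk
  have hle : ∀ i, hK.eigenvalues i ≤ k := fun i => by
    have := Finset.single_le_sum (f := fun i => |hK.eigenvalues i|) (fun i _ => abs_nonneg _)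
      (Finset.mem_univ i)
    linarith [le_abs_self (hK.eigenvalues i)]
  have hD : (diagonal fun i => ((k - hK.eigenvalues i : ℝ) : ℂ)).PosSemidef :=
    PosSemidef.diagonal fun i => Complex.zero_le_real.2 (by linarith [hle i])
  have h1 := hD.mul_mul_conjTranspose_same (hK.eigenvectorUnitary : Matrix n n ℂ)
  have e1 : (diagonal fun i => ((k - hK.eigenvalues i : ℝ) : ℂ))
      = k • (1 : Matrix n n ℂ) - Matrix.diagonal (RCLike.ofReal ∘ hK.eigenvalues) := by
    ext i j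
    by_cases hij : i = j
    · subst hij; simp
    · simp [hij]
  have e2 := hK.spectral_theorem
  rw [Unitary.conjStarAlgAut_apply] at e2
  have e3 : (hK.eigenvectorUnitary : Matrix n n ℂ) * star (hK.eigenvectorUnitary : Matrix n n ℂ)
      = 1 := Unitary.coe_mul_star_self _
  rw [e1, mul_sub, sub_mul, ← star_eq_conjTranspose, ← e2, mul_smul_comm, mul_one,
    smul_mul_assoc, e3] at h1
  exact h1

theorem exists_tr_lower {K : Matrix n n ℂ} (hK : K.PosDef) :
    ∃ c : ℝ, 0 < c ∧ ∀ B ∈ Dens n, c ≤ tr (B * (K * K) * B) := by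
  have hq : 0 ≤ tr (K⁻¹ * K⁻¹) := by
    have := kfam_tr_nonneg (posSemidef_conjTranspose_mul_self K⁻¹)
    rwa [hK.inv.1.eq] at this
  set q := tr (K⁻¹ * K⁻¹) with hqd
  refine ⟨1 / (q + 1), by positivity, fun B hB => ?_⟩
  set t := 1 / (q + 1) with ht
  have ht0 : 0 < t := by positivity
  have ht1 : t * q ≤ 1 := by
    rw [ht, div_mul_eq_mul_div, one_mul, div_le_one (by positivity)]; linarith
  have hu : IsUnit K.det := (isUnit_iff_isUnit_det K).1 hK.isUnit
  have h1 := kfam_tr_nonneg (posSemidef_conjTranspose_mul_self (t • K⁻¹ - K * B))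
  have e : (t • K⁻¹ - K * B)ᴴ * (t • K⁻¹ - K * B)
      = (t * t) • (K⁻¹ * K⁻¹) - t • B - t • B + B * (K * K) * B := by
    have e1 : K⁻¹ * (K * B) = B := by rw [← mul_assoc, nonsing_inv_mul _ hu, one_mul]
    have e2 : B * K * K⁻¹ = B := by rw [mul_assoc, mul_nonsing_inv _ hu, mul_one]
    simp only [conjTranspose_sub, conjTranspose_smul, star_trivial, conjTranspose_mul,
      hK.inv.1.eq, hK.1.eq, hB.1.1.eq, sub_mul, mul_sub, smul_mul_assoc, mul_smul_comm, e1, e2,
      smul_sub, smul_smul]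
    simp only [mul_assoc]
    abel
  have htr : tr B = 1 := by simp [tr, hB.2]
  rw [e, kfam_tr_add, kfam_tr_sub, kfam_tr_sub, kfam_tr_smul, kfam_tr_smul, htr, ← hqd] at h1
  nlinarith

theorem exists_Kfam {K : Matrix n n ℂ} (hK : K.PosDef) {ε : ℝ} (h0 : 0 < ε) (h1 : ε < 1) :
    ∃ Kf : Matrix n n ℂ → Matrix n n ℂ, ContinuousOn Kf (Dens n) ∧ ∀ B ∈ Dens n,
      (Kf B).PosDef ∧ (∀ ξ, B *ᵥ ξ = 0 → ∃ c : ℝ, 0 < c ∧ Kf B *ᵥ ξ = (c : ℂ) • ξ) ∧
      tr (B * (Kf B * Kf B) * B) ≤ tr (B * (K * K) * B) ∧ (Kf B - (1 - ε) • K).PosSemidef := by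
  obtain ⟨c, hc, hcB⟩ := exists_tr_lower hK
  obtain ⟨k, hk, hkK⟩ := kfam_upper hK.1
  obtain ⟨h, hh, hhε⟩ : ∃ h : ℝ, 0 < h ∧ (1 - ε) * (1 + h) ^ 2 ≤ 1 :=
    ⟨ε / 3, by positivity, by nlinarith [mul_pos h0 h0, mul_pos h0 (mul_pos h0 h0)]⟩
  obtain ⟨s, hs, hsh⟩ : ∃ s : ℝ, 0 < s ∧ s * h = k := ⟨k / h, by positivity, by field_simp⟩
  obtain ⟨d, hd, hdc⟩ : ∃ d : ℝ, 0 < d ∧
      (1 + h⁻¹) * ((s * d) ^ 2 * Fintype.card n) ≤ h * c := by
    have hC : 0 ≤ (1 + h⁻¹) * (s ^ 2 * Fintype.card n) := by positivity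
    refine ⟨Real.sqrt (h * c / ((1 + h⁻¹) * (s ^ 2 * Fintype.card n) + 1)), by positivity, ?_⟩
    rw [mul_pow, Real.sq_sqrt (by positivity)]
    generalize hC' : (1 + h⁻¹) * (s ^ 2 * Fintype.card n) = C at hC
    have : (1 + h⁻¹) * (s ^ 2 * (h * c / (C + 1)) * Fintype.card n) = h * c * (C / (C + 1)) := by
      rw [← hC']; field_simp
    rw [this]
    exact mul_le_of_le_one_right (by positivity) (by rw [div_le_one (by positivity)]; linarith)
  have hpd : ∀ B ∈ Dens n, (B + d • (1 : Matrix n n ℂ)).PosDef := fun B hB =>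
    PosDef.posSemidef_add hB.1 (PosDef.one.smul hd)
  refine ⟨fun B => (1 + h)⁻¹ • (B * (B + d • 1)⁻¹ * K * (B * (B + d • 1)⁻¹)
    + (s * d) • (B + d • 1)⁻¹), ?_, fun B hB => ?_⟩
  · have hR : ContinuousOn (fun B : Matrix n n ℂ => (B + d • (1 : Matrix n n ℂ))⁻¹) (Dens n) := by
      intro B hB
      have h2 : ContinuousAt (Inv.inv : Matrix n n ℂ → Matrix n n ℂ) (B + d • 1) := by
        refine continuousAt_matrix_inv _ ?_
        rw [Ring.inverse_eq_inv']
        exact continuousAt_inv₀ (hpd B hB).det_pos.ne'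
      exact (ContinuousAt.comp (f := fun B : Matrix n n ℂ => B + d • (1 : Matrix n n ℂ)) h2
        (continuous_id.add continuous_const).continuousAt).continuousWithinAt
    exact ((((continuousOn_id.mul hR).mul continuousOn_const).mul (continuousOn_id.mul hR)).add
      (hR.const_smul (s * d))).const_smul (1 + h)⁻¹
  have hP := hpd B hB
  have hu : IsUnit (B + d • (1 : Matrix n n ℂ)).det := (isUnit_iff_isUnit_det _).1 hP.isUnit
  have hRH : ((B + d • (1 : Matrix n n ℂ))⁻¹)ᴴ = (B + d • (1 : Matrix n n ℂ))⁻¹ := hP.inv.1.eq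
  have r1 := mul_nonsing_inv _ hu
  have r2 := nonsing_inv_mul _ hu
  simp only
  generalize (B + d • (1 : Matrix n n ℂ))⁻¹ = R at hRH r1 r2 ⊢
  have hBH : Bᴴ = B := hB.1.1.eq
  have hKH : Kᴴ = K := hK.1.eq
  rw [add_mul, smul_mul_assoc, one_mul] at r1
  rw [mul_add, mul_smul_comm, mul_one] at r2
  have hcomm : R * B = B * R := add_right_cancel (r2.trans r1.symm)
  obtain ⟨φ, hφ⟩ : ∃ φ, φ = B * R := ⟨_, rfl⟩
  obtain ⟨ψ, hψ⟩ : ∃ ψ, ψ = d • R := ⟨_, rfl⟩
  have hφH : φᴴ = φ := by rw [hφ, conjTranspose_mul, hRH, hBH, hcomm]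
  have hψH : ψᴴ = ψ := by rw [hψ, conjTranspose_smul, star_trivial, hRH]
  have hsum : φ + ψ = 1 := by rw [hφ, hψ, r1]
  have hψφ : (ψ * φ).PosSemidef := by
    have := (hB.1.conjTranspose_mul_mul_same R).smul hd.le
    rwa [hRH, mul_assoc, ← hφ, ← smul_mul_assoc, ← hψ] at this
  have hφe : φ = 1 - ψ := eq_sub_of_add_eq hsum
  have hψB : ψ * B = d • φ := by rw [hψ, hφ, smul_mul_assoc, hcomm]
  have hφB : φ * B = B * φ := by rw [hφ, mul_assoc, hcomm]
  have hsq : (1 - φ * φ).PosSemidef := by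
    have := ((posSemidef_conjTranspose_mul_self ψ).add hψφ).add hψφ
    have e : ψᴴ * ψ + ψ * φ + ψ * φ = 1 - φ * φ := by
      rw [hψH, hφe]; noncomm_ring
    rwa [e] at this
  rw [← hφ, ← smul_smul s d R, ← hψ]
  have hh1 : 0 < 1 + h := by linarith
  have h4 : ((1 + h)⁻¹ • (φ * K * φ + s • ψ) - (1 - ε) • K).PosSemidef := by
    have a1 := (hK.posSemidef.conjTranspose_mul_mul_same (h • φ - ψ)).smul
      (show 0 ≤ ((1 + h) ^ 2 * h)⁻¹ by positivity)
    have a2 := (hkK.conjTranspose_mul_mul_same ψ).smul (show 0 ≤ ((1 + h) * h)⁻¹ by positivity)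
    have a3 := hψφ.smul (show 0 ≤ (1 + h)⁻¹ * s by positivity)
    have a4 := hK.posSemidef.smul (show 0 ≤ ((1 + h) ^ 2)⁻¹ - (1 - ε) by
      rw [sub_nonneg, le_inv_comm₀ (by linarith) (by positivity), ← one_div,
        le_div_iff₀ (by linarith)]
      linarith)
    have := ((a1.add a2).add a3).add a4
    have e : ((1 + h) ^ 2 * h)⁻¹ • ((h • φ - ψ)ᴴ * K * (h • φ - ψ))
        + ((1 + h) * h)⁻¹ • (ψᴴ * (k • 1 - K) * ψ) + ((1 + h)⁻¹ * s) • (ψ * φ)
        + (((1 + h) ^ 2)⁻¹ - (1 - ε)) • K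
        = (1 + h)⁻¹ • (φ * K * φ + s • ψ) - (1 - ε) • K := by
      rw [conjTranspose_sub, conjTranspose_smul, star_trivial, hφH, hψH, hφe, ← hsh]
      simp only [sub_mul, mul_sub, smul_mul_assoc, mul_smul_comm, one_mul, mul_one, smul_sub]
      match_scalars <;> field_simp <;> ring
    rwa [e] at this
  refine ⟨?_, fun ξ hξ => ⟨(1 + h)⁻¹ * s, by positivity, ?_⟩, ?_, h4⟩
  · have := PosDef.posSemidef_add h4 (hK.smul (show 0 < 1 - ε by linarith))
    rwa [sub_add_cancel] at this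
  · have e1 : φ *ᵥ ξ = 0 := by rw [hφ, ← hcomm, ← mulVec_mulVec, hξ, mulVec_zero]
    have e2 : ψ *ᵥ ξ = ξ := by
      have := congrArg (· *ᵥ ξ) hsum
      simpa [add_mulVec, e1] using this
    rw [smul_mulVec, add_mulVec, ← mulVec_mulVec, e1, mulVec_zero, zero_add, smul_mulVec, e2,
      smul_smul, Complex.coe_smul]
  · have hT := hcB B hB
    have e1 : B * ((1 + h)⁻¹ • (φ * K * φ + s • ψ) * (1 + h)⁻¹ • (φ * K * φ + s • ψ)) * B
        = ((1 + h)⁻¹ * (1 + h)⁻¹) • ((φ * K * φ * B + (s * d) • φ)ᴴ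
          * (φ * K * φ * B + (s * d) • φ)) := by
      have e0 : φ * K * φ * B + (s * d) • φ = (φ * K * φ + s • ψ) * B := by
        rw [add_mul, smul_mul_assoc, hψB, smul_smul]
      rw [e0]
      simp only [conjTranspose_mul, conjTranspose_add, conjTranspose_smul, star_trivial, hφH, hψH,
        hKH, hBH, smul_mul_assoc, mul_smul_comm, smul_smul, mul_assoc]
    have b1 : tr ((φ * K * φ * B)ᴴ * (φ * K * φ * B)) ≤ tr (B * (K * K) * B) := by
      have c1 : tr ((φ * K * φ * B)ᴴ * (φ * K * φ * B)) ≤ tr ((K * φ * B)ᴴ * (K * φ * B)) := by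
        refine kfam_tr_le ?_
        have := hsq.conjTranspose_mul_mul_same (K * φ * B)
        have e : (K * φ * B)ᴴ * (1 - φ * φ) * (K * φ * B)
            = (K * φ * B)ᴴ * (K * φ * B) - (φ * K * φ * B)ᴴ * (φ * K * φ * B) := by
          simp only [conjTranspose_mul, hφH, mul_sub, sub_mul, mul_one, mul_assoc]
        rwa [e] at this
      have c2 : tr ((K * φ * B) * (K * φ * B)ᴴ) ≤ tr ((K * B) * (K * B)ᴴ) := by
        refine kfam_tr_le ?_
        have := hsq.mul_mul_conjTranspose_same (K * B)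
        have e : (K * B) * (1 - φ * φ) * (K * B)ᴴ
            = (K * B) * (K * B)ᴴ - (K * φ * B) * (K * φ * B)ᴴ := by
          rw [mul_assoc K φ B, hφB]
          simp only [conjTranspose_mul, hφH, mul_sub, sub_mul, mul_one, mul_assoc]
        rwa [e] at this
      rw [kfam_tr_comm (K * φ * B), kfam_tr_comm (K * B)] at c2
      refine c1.trans (c2.trans (le_of_eq ?_))
      simp only [conjTranspose_mul, hKH, hBH, mul_assoc]
    have b2 : tr (((s * d) • φ)ᴴ * ((s * d) • φ)) ≤ (s * d) ^ 2 * Fintype.card n := by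
      have c1 := kfam_tr_le hsq
      have c2 : tr (1 : Matrix n n ℂ) = Fintype.card n := by simp [tr]
      rw [conjTranspose_smul, star_trivial, hφH, smul_mul_assoc, mul_smul_comm, smul_smul,
        kfam_tr_smul, ← sq, ← c2]
      exact mul_le_mul_of_nonneg_left c1 (sq_nonneg _)
    have b3 := kfam_young (φ * K * φ * B) ((s * d) • φ) hh
    rw [e1, kfam_tr_smul, ← mul_inv, inv_mul_le_iff₀ (by positivity)]
    have b4 := mul_le_mul_of_nonneg_left b1 hh1.le
    have b5 := mul_le_mul_of_nonneg_left b2 (show 0 ≤ 1 + h⁻¹ by positivity)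
    have b6 := mul_le_mul_of_nonneg_left hT hh.le
    have b7 : 0 ≤ h * h * tr (B * (K * K) * B) := mul_nonneg (by positivity) (by linarith)
    linarith

theorem kfam_trf_eq (f : ℝ → ℝ) {A : Matrix n n ℂ} (hA : A.IsHermitian) :
    trf f A = ∑ i, f (hA.eigenvalues i) := by
  have e3 : star (hA.eigenvectorUnitary : Matrix n n ℂ) * (hA.eigenvectorUnitary : Matrix n n ℂ)
      = 1 := Unitary.coe_star_mul_self _
  rw [trf, hA.cfc_eq, IsHermitian.cfc, Unitary.conjStarAlgAut_apply, tr, trace_mul_cycle, e3,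
    one_mul, trace_diagonal]
  simp

/-- monotonicity of the trace of a monotone convex function -/
theorem trf_mono {f : ℝ → ℝ} (hf : MonotoneOn f (Ici 0)) (hc : ConvexOn ℝ (Ici 0) f)
    {A B : Matrix n n ℂ}
    (hA : A.PosSemidef) (hAB : (B - A).PosSemidef) : trf f A ≤ trf f B := by
  have hB : B.PosSemidef := by simpa using hAB.add hA
  rw [kfam_trf_eq f hA.1, kfam_trf_eq f hB.1]
  obtain ⟨U, hU⟩ : ∃ U : Matrix n n ℂ, U = hA.1.eigenvectorUnitary := ⟨_, rfl⟩
  obtain ⟨V, hV⟩ : ∃ V : Matrix n n ℂ, V = hB.1.eigenvectorUnitary := ⟨_, rfl⟩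
  have u1 : Uᴴ * U = 1 := by rw [hU]; exact Unitary.coe_star_mul_self _
  have u2 : U * Uᴴ = 1 := by rw [hU]; exact Unitary.coe_mul_star_self _
  have v1 : Vᴴ * V = 1 := by rw [hV]; exact Unitary.coe_star_mul_self _
  have v2 : V * Vᴴ = 1 := by rw [hV]; exact Unitary.coe_mul_star_self _
  have eA : A = U * Matrix.diagonal (RCLike.ofReal ∘ hA.1.eigenvalues) * Uᴴ := by
    rw [hU]; exact hA.1.spectral_theorem
  have eB : B = V * Matrix.diagonal (RCLike.ofReal ∘ hB.1.eigenvalues) * Vᴴ := by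
    rw [hV]; exact hB.1.spectral_theorem
  have ha := hA.eigenvalues_nonneg
  have hb := hB.eigenvalues_nonneg
  generalize hA.1.eigenvalues = a at *
  generalize hB.1.eigenvalues = b at *
  obtain ⟨W, hW⟩ : ∃ W, W = Uᴴ * V := ⟨_, rfl⟩
  have w1 : W * Wᴴ = 1 := by
    rw [hW, conjTranspose_mul, conjTranspose_conjTranspose, mul_assoc, ← mul_assoc V, v2, one_mul,
      u1]
  have w2 : Wᴴ * W = 1 := by
    rw [hW, conjTranspose_mul, conjTranspose_conjTranspose, mul_assoc, ← mul_assoc U, u2, one_mul,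
      v1]
  have hrow : ∀ i, ∑ j, Complex.normSq (W i j) = 1 := fun i => by
    have := congrArg (fun M : Matrix n n ℂ => (M i i).re) w1
    simpa [mul_apply, Complex.normSq_apply] using this
  have hcol : ∀ j, ∑ i, Complex.normSq (W i j) = 1 := fun j => by
    have := congrArg (fun M : Matrix n n ℂ => (M j j).re) w2
    simpa [mul_apply, Complex.normSq_apply] using this
  have hle : ∀ i, a i ≤ ∑ j, Complex.normSq (W i j) * b j := fun i => by
    have h1 := (hAB.conjTranspose_mul_mul_same U).diag_nonneg (i := i)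
    have e : Uᴴ * (B - A) * U = W * Matrix.diagonal (RCLike.ofReal ∘ b) * Wᴴ
        - Matrix.diagonal (RCLike.ofReal ∘ a) := by
      rw [mul_sub, sub_mul, eA, eB, hW, conjTranspose_mul, conjTranspose_conjTranspose]
      simp only [← mul_assoc, u1, one_mul]
      rw [mul_assoc _ Uᴴ U, u1, mul_one]
    rw [e] at h1
    have h2 := (Complex.nonneg_iff.1 h1).1
    rw [Matrix.sub_apply, mul_apply] at h2
    simp only [mul_diagonal, diagonal_apply_eq, Function.comp_apply, conjTranspose_apply,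
      Complex.sub_re, Complex.re_sum, sub_nonneg] at h2
    refine le_trans (le_of_eq ?_) (h2.trans (le_of_eq (Finset.sum_congr rfl fun j _ => ?_)))
    · simp
    · simp [Complex.normSq_apply]; ring
  calc ∑ i, f (a i) ≤ ∑ i, ∑ j, Complex.normSq (W i j) * f (b j) := by
        refine Finset.sum_le_sum fun i _ => ?_
        refine (hf (ha i) ((ha i).trans (hle i)) (hle i)).trans ?_
        exact hc.map_sum_le (fun j _ => Complex.normSq_nonneg _) (hrow i) fun j _ => hb j
    _ = ∑ j, f (b j) := by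
        rw [Finset.sum_comm]
        exact Finset.sum_congr rfl fun j _ => by rw [← Finset.sum_mul, hcol, one_mul]

theorem trf_diagonal (f : ℝ → ℝ) (d : n → ℝ) :
    trf f (diagonal fun i => (d i : ℂ)) = ∑ i, f (d i) := by
  have hA : (diagonal fun i => (d i : ℂ)).IsHermitian :=
    isHermitian_diagonal_of_self_adjoint _ (by ext i; simp)
  rw [kfam_trf_eq f hA]
  have h1 := hA.roots_charpoly_eq_eigenvalues
  have h2 : (diagonal fun i => (d i : ℂ)).charpoly.roots
      = Multiset.map (fun i => (d i : ℂ)) Finset.univ.val := by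
    rw [charpoly_diagonal, Finset.prod_eq_multiset_prod, ← Function.comp_def
      (fun z : ℂ => Polynomial.X - Polynomial.C z), ← Multiset.map_map,
      Polynomial.roots_multiset_prod_X_sub_C]
  have h3 := congrArg (fun m : Multiset ℂ => (m.map fun z => f z.re).sum) (h1.symm.trans h2)
  simp only [Multiset.map_map] at h3
  exact h3

theorem trf_unitary_conj (f : ℝ → ℝ) {A U : Matrix n n ℂ} (hA : A.IsHermitian)
    (hU : U ∈ Matrix.unitaryGroup n ℂ) : trf f (Uᴴ * A * U) = trf f A := by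
  have hB : (Uᴴ * A * U).IsHermitian := isHermitian_conjTranspose_mul_mul U hA
  have u2 : U * Uᴴ = 1 := (Matrix.mem_unitaryGroup_iff).1 hU
  have : hB.eigenvalues = hA.eigenvalues := by
    rw [IsHermitian.eigenvalues_eq_eigenvalues_iff, charpoly_mul_comm, ← mul_assoc, u2, one_mul]
  rw [kfam_trf_eq f hA, kfam_trf_eq f hB, this]

end Vale.Agent.P371
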