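import Vale.Agent.P371.Basic

open MeasureTheory Matrix
open scoped Matrix.Norms.L2Operator ComplexOrder

namespace Vale.Agent.P371

variable {n : Type} [Fintype n] [DecidableEq n]

/-- the derivative of the matrix logarithm at `P` in the direction `H` -/
noncomputable def dlog (P H : Matrix n n ℂ) : Matrix n n ℂ :=
  ∫ l in Set.Ioi (0 : ℝ), (P + (l : ℂ) • 1)⁻¹ * H * (P + (l : ℂ) • 1)⁻¹

namespace LogD

set_option linter.unusedSectionVars false

open Set Filter Topology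

/-- the resolvent -/
noncomputable def res (P : Matrix n n ℂ) (l : ℝ) : Matrix n n ℂ := (P + (l : ℂ) • 1)⁻¹

/-- Hermitian with spectrum bounded below by `c` -/
def Low (c : ℝ) (P : Matrix n n ℂ) : Prop := IsSelfAdjoint P ∧ ∀ x ∈ spectrum ℝ P, c ≤ x

theorem cont_spec (P : Matrix n n ℂ) (f : ℝ → ℝ) : ContinuousOn f (spectrum ℝ P) :=
  (Matrix.finite_real_spectrum (A := P)).continuousOn f

theorem exists_low {P : Matrix n n ℂ} (hP : P.PosDef) : ∃ c, 0 < c ∧ Low c P := by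
  have h : ∀ x ∈ spectrum ℝ P, 0 < x := by
    intro x hx
    rw [hP.1.spectrum_real_eq_range_eigenvalues] at hx
    obtain ⟨i, rfl⟩ := hx
    exact hP.eigenvalues_pos i
  rcases (spectrum ℝ P).eq_empty_or_nonempty with he | he
  · exact ⟨1, one_pos, hP.1.isSelfAdjoint, by simp [he]⟩
  · obtain ⟨c, hc, hc'⟩ := Set.exists_min_image _ id (Matrix.finite_real_spectrum (A := P)) he
    exact ⟨c, h c hc, hP.1.isSelfAdjoint, hc'⟩

theorem cfc_add_const {P : Matrix n n ℂ} (hP : IsSelfAdjoint P) (l : ℝ) :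
    cfc (fun x : ℝ => x + l) P = P + (l : ℂ) • 1 := by
  rw [cfc_add _ _ _ (cont_spec P _) (cont_spec P _), cfc_id' ℝ P, cfc_const l P,
    Algebra.algebraMap_eq_smul_one]
  rfl

theorem mul_cfc_inv {c : ℝ} {P : Matrix n n ℂ} (hc : 0 < c) (hP : Low c P) {l : ℝ} (hl : 0 ≤ l) :
    (P + (l : ℂ) • 1) * cfc (fun x : ℝ => (x + l)⁻¹) P = 1 := by
  rw [← cfc_add_const hP.1, ← cfc_mul _ _ P (cont_spec P _) (cont_spec P _), ← cfc_const_one ℝ P hP.1]
  refine cfc_congr fun x hx => ?_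
  have := hP.2 x hx
  exact mul_inv_cancel₀ (by linarith)

theorem res_eq {c : ℝ} {P : Matrix n n ℂ} (hc : 0 < c) (hP : Low c P) {l : ℝ} (hl : 0 ≤ l) :
    res P l = cfc (fun x : ℝ => (x + l)⁻¹) P :=
  Matrix.inv_eq_right_inv (mul_cfc_inv hc hP hl)

theorem mul_res {c : ℝ} {P : Matrix n n ℂ} (hc : 0 < c) (hP : Low c P) {l : ℝ} (hl : 0 ≤ l) :
    (P + (l : ℂ) • 1) * res P l = 1 := by
  rw [res_eq hc hP hl, mul_cfc_inv hc hP hl]

theorem res_mul {c : ℝ} {P : Matrix n n ℂ} (hc : 0 < c) (hP : Low c P) {l : ℝ} (hl : 0 ≤ l) :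
    res P l * (P + (l : ℂ) • 1) = 1 :=
  mul_eq_one_comm.1 (mul_res hc hP hl)

theorem res_sa {c : ℝ} {P : Matrix n n ℂ} (hc : 0 < c) (hP : Low c P) {l : ℝ} (hl : 0 ≤ l) :
    (res P l)ᴴ = res P l := by
  rw [res_eq hc hP hl]
  exact (cfc_predicate (R := ℝ) _ P : IsSelfAdjoint _)

theorem norm_res_le {c : ℝ} {P : Matrix n n ℂ} (hc : 0 < c) (hP : Low c P) {l : ℝ} (hl : 0 ≤ l) :
    ‖res P l‖ ≤ (l + c)⁻¹ := by
  rw [res_eq hc hP hl]
  refine norm_cfc_le (by positivity) fun x hx => ?_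
  have := hP.2 x hx
  rw [Real.norm_eq_abs, abs_of_pos (inv_pos.2 (by linarith))]
  exact inv_anti₀ (by linarith) (by linarith)

theorem continuousOn_res {c : ℝ} {P : Matrix n n ℂ} (hc : 0 < c) (hP : Low c P) :
    ContinuousOn (res P) (Ioi 0) := by
  intro l hl
  have hu : IsUnit (P + (l : ℂ) • 1) :=
    ⟨⟨_, _, mul_res hc hP (le_of_lt hl), res_mul hc hP (le_of_lt hl)⟩, rfl⟩
  have h1 : ContinuousAt (fun l : ℝ => P + (l : ℂ) • (1 : Matrix n n ℂ)) l := by fun_prop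
  have h2 := NormedRing.inverse_continuousAt hu.unit
  have h3 := ContinuousAt.comp (f := fun l : ℝ => P + (l : ℂ) • (1 : Matrix n n ℂ)) h2 h1
  refine (h3.congr (Eventually.of_forall fun s => ?_)).continuousWithinAt
  simp [res, Matrix.nonsing_inv_eq_ringInverse]

theorem hasDeriv_inv (c : ℝ) (hc : 0 < c) (l : ℝ) (hl : l ∈ Ici (0 : ℝ)) :
    HasDerivAt (fun l : ℝ => -(l + c)⁻¹) ((l + c)⁻¹ ^ 2) l := by
  have hl' : 0 ≤ l := hl
  have h := (((hasDerivAt_id l).add_const c).inv (by simp only [id]; linarith)).neg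
  refine h.congr_deriv ?_
  simp only [id]
  rw [inv_pow]
  ring

theorem tendsto_neg_inv (c : ℝ) : Tendsto (fun l : ℝ => -(l + c)⁻¹) atTop (𝓝 0) := by
  have := (tendsto_inv_atTop_zero.comp (tendsto_atTop_add_const_right atTop c tendsto_id)).neg
  simpa [Function.comp_def] using this

theorem integrableOn_sq (c : ℝ) (hc : 0 < c) :
    IntegrableOn (fun l : ℝ => (l + c)⁻¹ ^ 2) (Ioi 0) :=
  integrableOn_Ioi_deriv_of_nonneg' (hasDeriv_inv c hc) (fun _ _ => by positivity)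
    (tendsto_neg_inv c)

theorem integral_sq (c : ℝ) (hc : 0 < c) : ∫ l in Ioi (0 : ℝ), (l + c)⁻¹ ^ 2 = c⁻¹ := by
  rw [integral_Ioi_of_hasDerivAt_of_nonneg' (hasDeriv_inv c hc) (fun _ _ => by positivity)
    (tendsto_neg_inv c)]
  simp

theorem integrable_RHR {c : ℝ} {P Q : Matrix n n ℂ} (hc : 0 < c) (hP : Low c P) (hQ : Low c Q)
    (H : Matrix n n ℂ) : IntegrableOn (fun l => res P l * H * res Q l) (Ioi 0) := by
  refine Integrable.mono' ((integrableOn_sq c hc).const_mul ‖H‖)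
    (ContinuousOn.aestronglyMeasurable
      (((continuousOn_res hc hP).mul continuousOn_const).mul (continuousOn_res hc hQ))
      measurableSet_Ioi) (ae_restrict_of_forall_mem measurableSet_Ioi fun l hl => ?_)
  have hl' : 0 < l := hl
  have h1 := norm_res_le hc hP hl'.le
  have h2 := norm_res_le hc hQ hl'.le
  calc _ ≤ ‖res P l‖ * ‖H‖ * ‖res Q l‖ :=
        (norm_mul_le _ _).trans (mul_le_mul_of_nonneg_right (norm_mul_le _ _) (norm_nonneg _))
    _ ≤ (l + c)⁻¹ * ‖H‖ * (l + c)⁻¹ := by gcongr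
    _ = _ := by ring

theorem log_eq_integral {x : ℝ} (hx : 0 < x) :
    ∫ l in Ioi (0 : ℝ), ((l + 1)⁻¹ - (x + l)⁻¹) = Real.log x := by
  have hd : ∀ l ∈ Ici (0 : ℝ), HasDerivAt (fun l : ℝ => Real.log (l + 1) - Real.log (x + l))
      ((l + 1)⁻¹ - (x + l)⁻¹) l := by
    intro l hl
    have hl' : 0 ≤ l := hl
    have h1 := ((hasDerivAt_id l).add_const 1).log (by simp only [id]; linarith)
    have h2 := ((hasDerivAt_id l).const_add x).log (by simp only [id]; linarith)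
    refine (h1.sub h2).congr_deriv ?_
    simp
  have ht : Tendsto (fun l : ℝ => Real.log (l + 1) - Real.log (x + l)) atTop (𝓝 0) := by
    have h0 : Tendsto (fun l : ℝ => 1 + (1 - x) * (l + x)⁻¹) atTop (𝓝 1) := by
      have := ((tendsto_inv_atTop_zero.comp
        (tendsto_atTop_add_const_right atTop x tendsto_id)).const_mul (1 - x)).const_add 1
      simpa [Function.comp_def] using this
    have h1 := (Real.continuousAt_log one_ne_zero).tendsto.comp h0
    rw [Real.log_one] at h1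
    refine h1.congr' ((eventually_gt_atTop 0).mono fun l hl => ?_)
    simp only [Function.comp]
    rw [← Real.log_div (by linarith) (by linarith)]
    congr 1
    field_simp
    ring
  have hi : IntegrableOn (fun l : ℝ => (l + 1)⁻¹ - (x + l)⁻¹) (Ioi 0) := by
    rcases le_total 1 x with h | h
    · refine integrableOn_Ioi_deriv_of_nonneg' hd (fun l hl => ?_) ht
      have hl' : 0 < l := hl
      exact sub_nonneg.2 (inv_anti₀ (by linarith) (by linarith))
    · refine integrableOn_Ioi_deriv_of_nonpos' hd (fun l hl => ?_) ht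
      have hl' : 0 < l := hl
      exact sub_nonpos.2 (inv_anti₀ (by linarith) (by linarith))
  rw [integral_Ioi_of_hasDerivAt_of_tendsto' hd hi ht]
  simp

theorem exists_bound (P : Matrix n n ℂ) (g : ℝ → ℝ) : ∃ B, ∀ x ∈ spectrum ℝ P, |g x| ≤ B := by
  obtain ⟨B, hB⟩ := ((Matrix.finite_real_spectrum (A := P)).image fun x => |g x|).bddAbove
  exact ⟨B, fun x hx => hB ⟨x, hx, rfl⟩⟩

theorem contOn_inv {c : ℝ} {P : Matrix n n ℂ} (hc : 0 < c) (hP : Low c P) :
    ContinuousOn (fun q : ℝ × ℝ => (q.2 + q.1)⁻¹) (Ioi 0 ×ˢ spectrum ℝ P) := by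
  refine ContinuousOn.inv₀ (by fun_prop) fun q hq => ?_
  have h1 : 0 < q.1 := hq.1
  have h2 := hP.2 _ hq.2
  linarith

theorem mlog_eq {c : ℝ} {P : Matrix n n ℂ} (hc : 0 < c) (hP : Low c P) :
    IntegrableOn (fun l : ℝ => (l + 1)⁻¹ • (1 : Matrix n n ℂ) - res P l) (Ioi 0) ∧
    mlog P = ∫ l in Ioi (0 : ℝ), ((l + 1)⁻¹ • (1 : Matrix n n ℂ) - res P l) := by
  obtain ⟨B, hB⟩ := exists_bound P fun x => x - 1
  have hc' : 0 < min c 1 := lt_min hc one_pos
  have hf : ContinuousOn (Function.uncurry fun l x : ℝ => (l + 1)⁻¹ - (x + l)⁻¹)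
      (Ioi 0 ×ˢ spectrum ℝ P) := by
    refine ContinuousOn.sub (ContinuousOn.inv₀ (by fun_prop) fun q hq => ?_) (contOn_inv hc hP)
    have h1 : 0 < q.1 := hq.1
    linarith
  have hb : ∀ᵐ l ∂(volume.restrict (Ioi (0 : ℝ))), ∀ x ∈ spectrum ℝ P,
      ‖(l + 1)⁻¹ - (x + l)⁻¹‖ ≤ B * (l + min c 1)⁻¹ ^ 2 := by
    refine ae_restrict_of_forall_mem measurableSet_Ioi fun l hl x hx => ?_
    have hl' : 0 < l := hl
    have h1 := hP.2 x hx
    have h2 := hB x hx
    have h3 := min_le_left c 1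
    have h4 := min_le_right c 1
    have e : (l + 1)⁻¹ - (x + l)⁻¹ = (x - 1) * ((l + 1)⁻¹ * (x + l)⁻¹) := by
      have : x + l ≠ 0 := by linarith
      field_simp
      ring
    have a1 : (l + 1)⁻¹ ≤ (l + min c 1)⁻¹ := inv_anti₀ (by linarith) (by linarith)
    have a2 : (x + l)⁻¹ ≤ (l + min c 1)⁻¹ := inv_anti₀ (by linarith) (by linarith)
    have a3 : 0 < (x + l)⁻¹ := inv_pos.2 (by linarith)
    rw [e, Real.norm_eq_abs, abs_mul, abs_of_pos (by positivity : 0 < (l + 1)⁻¹ * (x + l)⁻¹), sq]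
    exact mul_le_mul h2 (mul_le_mul a1 a2 a3.le (by positivity)) (by positivity)
      ((abs_nonneg _).trans h2)
  have hi := ((integrableOn_sq _ hc').const_mul B).2
  have e : ∀ l ∈ Ioi (0 : ℝ), cfc (fun x : ℝ => (l + 1)⁻¹ - (x + l)⁻¹) P =
      (l + 1)⁻¹ • (1 : Matrix n n ℂ) - res P l := by
    intro l hl
    rw [cfc_sub _ _ _ (cont_spec P _) (cont_spec P _), cfc_const _ P hP.1,
      Algebra.algebraMap_eq_smul_one, res_eq hc hP (le_of_lt hl)]
  constructor
  · exact (integrableOn_cfc measurableSet_Ioi _ _ P hf hb hi hP.1).congr_fun e measurableSet_Ioi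
  · rw [← setIntegral_congr_fun measurableSet_Ioi e,
      ← cfc_setIntegral measurableSet_Ioi _ _ P hf hb hi hP.1]
    exact cfc_congr fun x hx => (log_eq_integral (by linarith [hP.2 x hx])).symm

theorem integral_gRR {c : ℝ} {P : Matrix n n ℂ} (hc : 0 < c) (hP : Low c P) (g : ℝ → ℝ) :
    IntegrableOn (fun l : ℝ => cfc g P * (res P l * res P l)) (Ioi 0) ∧
    ∫ l in Ioi (0 : ℝ), cfc g P * (res P l * res P l) = cfc (fun x => g x * x⁻¹) P := by
  obtain ⟨B, hB⟩ := exists_bound P g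
  have hf : ContinuousOn (Function.uncurry fun l x : ℝ => g x * ((x + l)⁻¹ * (x + l)⁻¹))
      (Ioi 0 ×ˢ spectrum ℝ P) :=
    ContinuousOn.mul ((cont_spec P g).comp continuousOn_snd fun q hq => hq.2)
      ((contOn_inv hc hP).mul (contOn_inv hc hP))
  have hb : ∀ᵐ l ∂(volume.restrict (Ioi (0 : ℝ))), ∀ x ∈ spectrum ℝ P,
      ‖g x * ((x + l)⁻¹ * (x + l)⁻¹)‖ ≤ B * (l + c)⁻¹ ^ 2 := by
    refine ae_restrict_of_forall_mem measurableSet_Ioi fun l hl x hx => ?_
    have hl' : 0 < l := hl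
    have h1 := hP.2 x hx
    have h2 := hB x hx
    have a2 : (x + l)⁻¹ ≤ (l + c)⁻¹ := inv_anti₀ (by linarith) (by linarith)
    have a3 : 0 < (x + l)⁻¹ := inv_pos.2 (by linarith)
    rw [Real.norm_eq_abs, abs_mul, abs_of_pos (by positivity : 0 < (x + l)⁻¹ * (x + l)⁻¹), sq]
    exact mul_le_mul h2 (mul_le_mul a2 a2 a3.le (by positivity)) (by positivity)
      ((abs_nonneg _).trans h2)
  have hi := ((integrableOn_sq _ hc).const_mul B).2
  have e : ∀ l ∈ Ioi (0 : ℝ), cfc (fun x : ℝ => g x * ((x + l)⁻¹ * (x + l)⁻¹)) P =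
      cfc g P * (res P l * res P l) := by
    intro l hl
    rw [cfc_mul _ _ _ (cont_spec P _) (cont_spec P _), cfc_mul _ _ _ (cont_spec P _) (cont_spec P _),
      res_eq hc hP (le_of_lt hl)]
  constructor
  · exact (integrableOn_cfc measurableSet_Ioi _ _ P hf hb hi hP.1).congr_fun e measurableSet_Ioi
  · rw [← setIntegral_congr_fun measurableSet_Ioi e,
      ← cfc_setIntegral measurableSet_Ioi _ _ P hf hb hi hP.1]
    refine cfc_congr fun x hx => ?_
    have hx0 : 0 < x := by linarith [hP.2 x hx]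
    rw [integral_const_mul, ← integral_sq x hx0]
    congr 1
    refine setIntegral_congr_fun measurableSet_Ioi fun l _ => ?_
    rw [add_comm, sq]

theorem integral_PRR {c : ℝ} {P : Matrix n n ℂ} (hc : 0 < c) (hP : Low c P) :
    IntegrableOn (fun l : ℝ => P * (res P l * res P l)) (Ioi 0) ∧
    ∫ l in Ioi (0 : ℝ), P * (res P l * res P l) = 1 := by
  have h := integral_gRR hc hP (fun x => x)
  rw [cfc_id' ℝ P hP.1] at h
  refine ⟨h.1, h.2.trans ?_⟩
  rw [← cfc_const_one ℝ P hP.1]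
  exact cfc_congr fun x hx => mul_inv_cancel₀ (by linarith [hP.2 x hx])

theorem integral_PPRR {c : ℝ} {P : Matrix n n ℂ} (hc : 0 < c) (hP : Low c P) :
    IntegrableOn (fun l : ℝ => P * P * (res P l * res P l)) (Ioi 0) ∧
    ∫ l in Ioi (0 : ℝ), P * P * (res P l * res P l) = P := by
  have h := integral_gRR hc hP (fun x => x * x)
  rw [cfc_mul _ _ _ (cont_spec P _) (cont_spec P _), cfc_id' ℝ P hP.1] at h
  refine ⟨h.1, h.2.trans ?_⟩
  conv_rhs => rw [← cfc_id' ℝ P hP.1]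
  exact cfc_congr fun x hx => mul_inv_cancel_right₀ (by linarith [hP.2 x hx]) x

/-- `X ↦ tr (A * X)` as a continuous linear map -/
noncomputable def trL (A : Matrix n n ℂ) : Matrix n n ℂ →L[ℝ] ℝ :=
  LinearMap.toContinuousLinearMap
    { toFun := fun X => tr (A * X)
      map_add' := fun X Y => by simp [tr, mul_add]
      map_smul' := fun r X => by simp [tr] }

theorem trL_apply (A X : Matrix n n ℂ) : trL A X = tr (A * X) := rfl

theorem tr_integral (A : Matrix n n ℂ) {f : ℝ → Matrix n n ℂ} (hf : IntegrableOn f (Ioi 0)) :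
    IntegrableOn (fun l => tr (A * f l)) (Ioi 0) ∧
    tr (A * ∫ l in Ioi (0 : ℝ), f l) = ∫ l in Ioi (0 : ℝ), tr (A * f l) :=
  ⟨(trL A).integrable_comp hf, ((trL A).integral_comp_comm hf).symm⟩

theorem res_comm {c : ℝ} {P : Matrix n n ℂ} (hc : 0 < c) (hP : Low c P) {l : ℝ} (hl : 0 ≤ l) :
    P * res P l = 1 - (l : ℂ) • res P l ∧ res P l * P = 1 - (l : ℂ) • res P l := by
  have h1 := mul_res hc hP hl
  have h2 := res_mul hc hP hl
  rw [add_mul, smul_mul_assoc, one_mul] at h1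
  rw [mul_add, mul_smul_comm, mul_one] at h2
  exact ⟨eq_sub_of_add_eq h1, eq_sub_of_add_eq h2⟩

theorem tr_star (X : Matrix n n ℂ) : tr Xᴴ = tr X := by
  simp [tr, Matrix.trace_conjTranspose]

theorem tr_comm (X Y : Matrix n n ℂ) : tr (X * Y) = tr (Y * X) := by
  rw [tr, tr, Matrix.trace_mul_comm]

theorem tr_sub (X Y : Matrix n n ℂ) : tr (X - Y) = tr X - tr Y := by simp [tr]

theorem tr_add (X Y : Matrix n n ℂ) : tr (X + Y) = tr X + tr Y := by simp [tr]

theorem tr_smul (l : ℝ) (X : Matrix n n ℂ) : tr ((l : ℂ) • X) = l * tr X := by simp [tr]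

theorem tr_sq_le (X : Matrix n n ℂ) : tr (X * X) ≤ tr (X * Xᴴ) := by
  have h : 0 ≤ tr ((X - Xᴴ) * (X - Xᴴ)ᴴ) :=
    (Complex.nonneg_iff.1 (Matrix.posSemidef_self_mul_conjTranspose (X - Xᴴ)).trace_nonneg).1
  rw [conjTranspose_sub, conjTranspose_conjTranspose, sub_mul, mul_sub, mul_sub, tr_sub, tr_sub,
    tr_sub, tr_comm Xᴴ X, ← conjTranspose_mul, tr_star] at h
  linarith

open scoped MatrixOrder in
theorem tr_RR_le {M R : Matrix n n ℂ} (hM : M.PosDef) (hR : Rᴴ = R) :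
    tr (R * R) ≤ tr (M * (R * M⁻¹ * R)) := by
  obtain ⟨B, hB, rfl⟩ := CStarAlgebra.isStrictlyPositive_iff_eq_star_mul_self.1
    (Matrix.isStrictlyPositive_iff_posDef.2 hM)
  have hd : IsUnit B.det := (Matrix.isUnit_iff_isUnit_det B).1 hB
  have h := tr_sq_le (B * R * B⁻¹)
  have e1 : tr (B * R * B⁻¹ * (B * R * B⁻¹)) = tr (R * R) := by
    rw [show B * R * B⁻¹ * (B * R * B⁻¹) = B * (R * (B⁻¹ * B) * R * B⁻¹) by noncomm_ring,
      Matrix.nonsing_inv_mul B hd, mul_one, tr_comm, mul_assoc, Matrix.nonsing_inv_mul B hd,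
      mul_one]
  have e2 : tr (B * R * B⁻¹ * (B * R * B⁻¹)ᴴ) = tr (star B * B * (R * (star B * B)⁻¹ * R)) := by
    rw [conjTranspose_mul, conjTranspose_mul, hR, Matrix.mul_inv_rev, star_eq_conjTranspose,
      conjTranspose_nonsing_inv,
      show B * R * B⁻¹ * (Bᴴ⁻¹ * (R * Bᴴ)) = (B * (R * (B⁻¹ * Bᴴ⁻¹) * R)) * Bᴴ by noncomm_ring,
      tr_comm, ← mul_assoc]
  rw [e1, e2] at h
  exact h

theorem pointwise {c : ℝ} {P Q : Matrix n n ℂ} (hc : 0 < c) (hP : Low c P) (hM : (P + Q).PosDef)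
    {l : ℝ} (hl : 0 ≤ l) :
    tr (P * Q * (res P l * (P + Q)⁻¹ * res P l)) ≤
      tr (1 * (P * (res P l * res P l))) - tr ((P + Q)⁻¹ * (P * P * (res P l * res P l))) := by
  set R := res P l
  set W := (P + Q)⁻¹
  obtain ⟨h1, h2⟩ := res_comm hc hP hl
  have hd : IsUnit (P + Q).det := (Matrix.isUnit_iff_isUnit_det _).1 hM.isUnit
  have hW : (P + Q) * W = 1 := Matrix.mul_nonsing_inv _ hd
  have hW' : W * (P + Q) = 1 := Matrix.nonsing_inv_mul _ hd
  have hc' : P * R = R * P := h1.trans h2.symm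
  have k := tr_RR_le hM (res_sa hc hP hl)
  have e1 : tr (P * Q * (R * W * R)) =
      tr ((P + Q) * (R * W) * (R * P)) - tr (P * R * W * (R * P)) := by
    rw [mul_assoc P Q, tr_comm, ← tr_sub]
    congr 1
    noncomm_ring
  have e2 : tr ((P + Q) * (R * W) * (R * P)) = tr R - l * tr ((P + Q) * (R * W * R)) := by
    rw [h2, mul_sub, mul_one, mul_smul_comm, tr_sub, tr_smul, ← mul_assoc, tr_comm, ← mul_assoc,
      hW', one_mul, mul_assoc (P + Q), mul_assoc (P + Q)]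
  have e3 : tr (P * R * W * (R * P)) = tr (W * (P * P * (R * R))) := by
    rw [mul_assoc, tr_comm, mul_assoc]
    congr 2
    rw [← hc', mul_assoc, ← mul_assoc R, ← hc']
    noncomm_ring
  have e4 : tr (1 * (P * (R * R))) = tr R - l * tr (R * R) := by
    rw [one_mul, ← mul_assoc, h1, sub_mul, one_mul, smul_mul_assoc, tr_sub, tr_smul]
  rw [e1, e2, e3, e4]
  have := mul_le_mul_of_nonneg_left k hl
  linarith

theorem half_bound {P Q : Matrix n n ℂ} (hP : P.PosDef) (hQ : Q.PosDef) :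
    tr (P * Q * dlog P (P + Q)⁻¹) ≤ Fintype.card n - tr ((P + Q)⁻¹ * P) := by
  obtain ⟨c, hc, hL⟩ := exists_low hP
  obtain ⟨i1, e1⟩ := tr_integral (P * Q) (integrable_RHR hc hL hL (P + Q)⁻¹)
  obtain ⟨i2, e2⟩ := tr_integral 1 (integral_PRR hc hL).1
  obtain ⟨i3, e3⟩ := tr_integral (P + Q)⁻¹ (integral_PPRR hc hL).1
  rw [(integral_PRR hc hL).2] at e2
  rw [(integral_PPRR hc hL).2] at e3
  have e4 : tr (1 * 1 : Matrix n n ℂ) = Fintype.card n := by simp [tr]
  rw [← e4, e2, e3, ← integral_sub i2 i3]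
  refine e1.trans_le (setIntegral_mono_on i1 (i2.sub i3) measurableSet_Ioi fun l hl => ?_)
  exact pointwise hc hL (hP.add hQ) (le_of_lt hl)

theorem dlog_sa {P W : Matrix n n ℂ} (hP : P.PosDef) (hW : Wᴴ = W) (A : Matrix n n ℂ) :
    tr (A * dlog P W) = tr (Aᴴ * dlog P W) := by
  obtain ⟨c, hc, hL⟩ := exists_low hP
  refine (tr_integral A (integrable_RHR hc hL hL W)).2.trans
    (Eq.trans ?_ (tr_integral Aᴴ (integrable_RHR hc hL hL W)).2.symm)
  refine setIntegral_congr_fun measurableSet_Ioi fun l hl => ?_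
  rw [← tr_star, conjTranspose_mul, conjTranspose_mul, conjTranspose_mul,
    res_sa hc hL (le_of_lt hl), hW, tr_comm, mul_assoc (res P l)]

open scoped MatrixOrder in
theorem low_of_near {c : ℝ} {P P' : Matrix n n ℂ} (hP : Low c P) (hP' : IsSelfAdjoint P')
    (h : ‖P' - P‖ ≤ c / 2) : Low (c / 2) P' := by
  refine ⟨hP', (algebraMap_le_iff_le_spectrum hP').1 ?_⟩
  have h1 := (algebraMap_le_iff_le_spectrum hP.1).2 hP.2
  have h2 := IsSelfAdjoint.neg_algebraMap_norm_le_self (hP'.sub hP.1)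
  have h3 : algebraMap ℝ (Matrix n n ℂ) (c / 2) ≤
      algebraMap ℝ (Matrix n n ℂ) c + -algebraMap ℝ (Matrix n n ℂ) ‖P' - P‖ := by
    rw [← map_neg, ← map_add, ← sub_nonneg, ← map_sub, Algebra.algebraMap_eq_smul_one]
    exact smul_nonneg (by linarith) zero_le_one
  refine h3.trans ((add_le_add h1 h2).trans (le_of_eq ?_))
  abel

theorem res_sub {c : ℝ} {P Q : Matrix n n ℂ} (hc : 0 < c) (hP : Low c P) (hQ : Low c Q) {l : ℝ}
    (hl : 0 ≤ l) : res P l - res Q l = res P l * (Q - P) * res Q l := by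
  have e : Q - P = (Q + (l : ℂ) • 1) - (P + (l : ℂ) • 1) := by abel
  rw [e, mul_sub, sub_mul, res_mul hc hP hl, mul_assoc, mul_res hc hQ hl, mul_one, one_mul]

theorem taylor {c : ℝ} {P Q : Matrix n n ℂ} (hc : 0 < c) (hP : Low c P) (hQ : Low c Q) :
    ‖mlog Q - mlog P - dlog P (Q - P)‖ ≤ c⁻¹ * c⁻¹ * ‖Q - P‖ ^ 2 := by
  obtain ⟨i1, e1⟩ := mlog_eq hc hP
  obtain ⟨i2, e2⟩ := mlog_eq hc hQ
  have i3 := integrable_RHR hc hP hP (Q - P)
  have e3 : dlog P (Q - P) = ∫ l in Ioi (0 : ℝ), res P l * (Q - P) * res P l := rfl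
  have i4 : IntegrableOn (fun l : ℝ => (l + 1)⁻¹ • (1 : Matrix n n ℂ) - res Q l -
      ((l + 1)⁻¹ • 1 - res P l)) (Ioi 0) := i2.sub i1
  rw [e1, e2, e3, ← integral_sub i2 i1, ← integral_sub i4 i3]
  have e4 : c⁻¹ * c⁻¹ * ‖Q - P‖ ^ 2 = ∫ l in Ioi (0 : ℝ), (c⁻¹ * ‖Q - P‖ ^ 2) * (l + c)⁻¹ ^ 2 := by
    rw [integral_const_mul, integral_sq c hc]; ring
  rw [e4]
  refine norm_integral_le_of_norm_le ((integrableOn_sq c hc).const_mul _)
    (ae_restrict_of_forall_mem measurableSet_Ioi fun l hl => ?_)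
  have hl' : 0 < l := hl
  have e5 : (l + 1)⁻¹ • (1 : Matrix n n ℂ) - res Q l - ((l + 1)⁻¹ • 1 - res P l) -
      res P l * (Q - P) * res P l = -(res P l * (Q - P) * (res P l * (Q - P) * res Q l)) := by
    rw [← res_sub hc hP hQ hl'.le, mul_sub _ (res P l), ← res_sub hc hP hQ hl'.le]
    abel
  rw [e5, norm_neg]
  have h1 := norm_res_le hc hP hl'.le
  have h2 := norm_res_le hc hQ hl'.le
  have h3 : ‖res Q l‖ ≤ c⁻¹ := h2.trans (inv_anti₀ hc (by linarith))
  calc _ ≤ ‖res P l‖ * ‖Q - P‖ * (‖res P l‖ * ‖Q - P‖ * ‖res Q l‖) :=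
        (norm_mul_le _ _).trans (mul_le_mul (norm_mul_le _ _) ((norm_mul_le _ _).trans
          (mul_le_mul_of_nonneg_right (norm_mul_le _ _) (norm_nonneg _))) (norm_nonneg _)
          (by positivity))
    _ ≤ (l + c)⁻¹ * ‖Q - P‖ * ((l + c)⁻¹ * ‖Q - P‖ * c⁻¹) := by gcongr
    _ = _ := by ring

/-- `dlog P` as a continuous linear map -/
noncomputable def dlogL {c : ℝ} {P : Matrix n n ℂ} (hc : 0 < c) (hP : Low c P) :
    Matrix n n ℂ →L[ℝ] Matrix n n ℂ :=
  LinearMap.toContinuousLinearMap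
    { toFun := fun H => dlog P H
      map_add' := fun X Y => by
        have := integral_add (integrable_RHR hc hP hP X) (integrable_RHR hc hP hP Y)
        refine Eq.trans ?_ this
        unfold dlog res
        simp only [mul_add, add_mul]
      map_smul' := fun r X => by
        unfold dlog
        simp only [RingHom.id_apply, mul_smul_comm, smul_mul_assoc, integral_smul] }

end LogD

open LogD in
theorem hasDerivAt_mlog {P : ℝ → Matrix n n ℂ} {P' : Matrix n n ℂ} {τ : ℝ}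
    (hP : HasDerivAt P P' τ) (herm : ∀ᶠ σ in nhds τ, (P σ).IsHermitian) (pos : (P τ).PosDef) :
    HasDerivAt (fun σ => mlog (P σ)) (dlog (P τ) P') τ := by
  obtain ⟨c, hc, hL⟩ := exists_low pos
  have hc2 : 0 < c / 2 := by linarith
  have hL2 : Low (c / 2) (P τ) := ⟨hL.1, fun x hx => by linarith [hL.2 x hx]⟩
  have h1 : HasDerivAt (fun σ => dlogL hc hL (P σ)) (dlogL hc hL P') τ :=
    (dlogL hc hL).hasFDerivAt.comp_hasDerivAt τ hP
  have hcont : Filter.Tendsto (fun σ => ‖P σ - P τ‖) (nhds τ) (nhds 0) :=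
    tendsto_iff_norm_sub_tendsto_zero.1 hP.continuousAt
  have hnear : ∀ᶠ σ in nhds τ, ‖P σ - P τ‖ ≤ c / 2 :=
    hcont.eventually (ge_mem_nhds hc2)
  have h2 : HasDerivAt (fun σ => mlog (P σ) - dlogL hc hL (P σ)) 0 τ := by
    rw [hasDerivAt_iff_isLittleO]
    have a1 : (fun σ => mlog (P σ) - dlogL hc hL (P σ) - (mlog (P τ) - dlogL hc hL (P τ)) -
        (σ - τ) • (0 : Matrix n n ℂ)) =O[nhds τ] fun σ => ‖P σ - P τ‖ * ‖P σ - P τ‖ := by
      refine Asymptotics.IsBigO.of_bound ((c / 2)⁻¹ * (c / 2)⁻¹) ?_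
      filter_upwards [herm, hnear] with σ h3 h4
      have := taylor hc2 hL2 (low_of_near hL h3.isSelfAdjoint h4)
      have e : mlog (P σ) - dlogL hc hL (P σ) - (mlog (P τ) - dlogL hc hL (P τ)) -
          (σ - τ) • (0 : Matrix n n ℂ) = mlog (P σ) - mlog (P τ) - dlogL hc hL (P σ - P τ) := by
        rw [map_sub, smul_zero]; abel
      rw [e, Real.norm_eq_abs, abs_of_nonneg (by positivity), ← sq ‖P σ - P τ‖]
      exact this
    have a2 : (fun σ => ‖P σ - P τ‖) =o[nhds τ] fun _ => (1 : ℝ) :=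
      (Asymptotics.isLittleO_one_iff ℝ).2 hcont
    have a3 : (fun σ => ‖P σ - P τ‖) =O[nhds τ] fun σ => σ - τ :=
      hP.isBigO_sub.norm_left
    have a4 := a2.mul_isBigO a3
    simp only [one_mul] at a4
    exact a1.trans_isLittleO a4
  have h3 := h2.add h1
  rw [zero_add] at h3
  exact h3.congr_of_eventuallyEq (Filter.Eventually.of_forall fun σ => by simp)

open LogD in
theorem tr_mul_dlog {P : Matrix n n ℂ} (hP : P.PosDef) (H : Matrix n n ℂ) :
    tr (P * dlog P H) = tr H := by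
  obtain ⟨c, hc, hL⟩ := exists_low hP
  have e2 := (tr_integral H (integral_PRR hc hL).1).2
  rw [(integral_PRR hc hL).2, mul_one] at e2
  refine (tr_integral P (integrable_RHR hc hL hL H)).2.trans (Eq.trans ?_ e2.symm)
  refine setIntegral_congr_fun measurableSet_Ioi fun l hl => ?_
  obtain ⟨h1, h2⟩ := res_comm hc hL (le_of_lt hl)
  have hc' : P * res P l = res P l * P := h1.trans h2.symm
  rw [show P * (res P l * H * res P l) = (P * res P l) * (H * res P l) by noncomm_ring, tr_comm,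
    mul_assoc, ← mul_assoc (res P l), ← hc', mul_assoc]

open LogD in
theorem dlog_bound {P Q : Matrix n n ℂ} (hP : P.PosDef) (hQ : Q.PosDef) :
    tr (P * Q * (dlog P (P + Q)⁻¹ + dlog Q (P + Q)⁻¹)) ≤ Fintype.card n := by
  have h1 := half_bound hP hQ
  have h2 := half_bound hQ hP
  rw [add_comm Q P] at h2
  have hM := hP.add hQ
  have h3 := dlog_sa hQ (hM.inv.1 : (P + Q)⁻¹ᴴ = _) (P * Q)
  rw [conjTranspose_mul, hP.1, hQ.1] at h3
  have hd : IsUnit (P + Q).det := (Matrix.isUnit_iff_isUnit_det _).1 hM.isUnit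
  have h4 : tr ((P + Q)⁻¹ * P) + tr ((P + Q)⁻¹ * Q) = Fintype.card n := by
    rw [← tr_add, ← mul_add, Matrix.nonsing_inv_mul _ hd]
    simp [tr]
  rw [mul_add, tr_add, h3]
  linarith

theorem continuousOn_mlog : ContinuousOn (mlog : Matrix n n ℂ → _) {P | P.PosDef} :=
  (CFC.continuousOn_log (A := Matrix n n ℂ)).mono fun _ hP => ⟨hP.1.isSelfAdjoint, hP.isUnit⟩

end Vale.Agent.P371
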