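import Vale.Agent.P371.Basic

open MeasureTheory Matrix Set
open scoped Matrix.Norms.L2Operator ComplexOrder

set_option linter.unusedSectionVars false

namespace Vale.Agent.P371.Crit

variable {n : Type} [Fintype n] [DecidableEq n]

/-- the quadratic form of a matrix at a vector -/
noncomputable def qf (ξ : n → ℂ) : Matrix n n ℂ →ₗ[ℝ] ℝ where
  toFun A := (star ξ ⬝ᵥ A *ᵥ ξ).re
  map_add' A B := by rw [add_mulVec, dotProduct_add, Complex.add_re]
  map_smul' r A := by rw [smul_mulVec, dotProduct_smul, Complex.smul_re]; rfl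

theorem qf_apply (ξ : n → ℂ) (A : Matrix n n ℂ) : qf ξ A = (star ξ ⬝ᵥ A *ᵥ ξ).re := rfl

theorem qf_conj (ξ : n → ℂ) (A M : Matrix n n ℂ) : qf ξ (star M * A * M) = qf (M *ᵥ ξ) A := by
  rw [qf_apply, qf_apply, star_mulVec, ← dotProduct_mulVec, mulVec_mulVec, mulVec_mulVec,
    star_eq_conjTranspose]

theorem qf_nonneg {A : Matrix n n ℂ} (hA : A.PosSemidef) (ξ : n → ℂ) : 0 ≤ qf ξ A :=
  hA.re_dotProduct_nonneg ξ

theorem psd_of_qf {A : Matrix n n ℂ} (hA : A.IsHermitian) (h : ∀ ξ, 0 ≤ qf ξ A) :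
    A.PosSemidef :=
  PosSemidef.of_dotProduct_mulVec_nonneg hA fun ξ =>
    Complex.nonneg_iff.2 ⟨h ξ, (hA.im_star_dotProduct_mulVec_self ξ).symm⟩

theorem qf_pos {A : Matrix n n ℂ} (hA : A.PosDef) {ξ : n → ℂ} (h : ξ ≠ 0) : 0 < qf ξ A :=
  (Complex.pos_iff.1 (hA.dotProduct_mulVec_pos h)).1

theorem mulVec_eq_zero {A : Matrix n n ℂ} (hA : A.PosSemidef) {ξ : n → ℂ} (h : qf ξ A ≤ 0) :
    A *ᵥ ξ = 0 :=
  (hA.dotProduct_mulVec_zero_iff ξ).1
    (Complex.ext (le_antisymm h (qf_nonneg hA ξ)) (hA.1.im_star_dotProduct_mulVec_self ξ))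

theorem qf_zero (A : Matrix n n ℂ) : qf 0 A = 0 := by simp [qf_apply]

theorem qf_of_mulVec {A : Matrix n n ℂ} {ξ : n → ℂ} (h : A *ᵥ ξ = 0) : qf ξ A = 0 := by
  simp [qf_apply, h]

theorem qf_smul (r : ℝ) (ξ : n → ℂ) (A : Matrix n n ℂ) : qf (r • ξ) A = r ^ 2 * qf ξ A := by
  rw [qf_apply, qf_apply, mulVec_smul, star_smul, smul_dotProduct, dotProduct_smul,
    Complex.smul_re, Complex.smul_re, star_trivial, smul_eq_mul, smul_eq_mul]
  ring

theorem qf_eigen {K : Matrix n n ℂ} (hK : K.IsHermitian) {ξ : n → ℂ} {c : ℝ}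
    (h : K *ᵥ ξ = (c : ℂ) • ξ) (A : Matrix n n ℂ) : qf ξ (K * A) = c * qf ξ A := by
  rw [qf_apply, qf_apply, ← mulVec_mulVec, dotProduct_mulVec, ← hK.eq, ← star_mulVec, h,
    star_smul, smul_dotProduct, smul_eq_mul, Complex.star_def, Complex.conj_ofReal,
    Complex.re_ofReal_mul]

theorem continuous_qf {X : Type} [TopologicalSpace X] {ξ : X → n → ℂ} {A : X → Matrix n n ℂ}
    (h1 : Continuous ξ) (h2 : Continuous A) : Continuous fun x => qf (ξ x) (A x) :=
  Complex.continuous_re.comp (h1.star.dotProduct (h2.matrix_mulVec h1))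

theorem qf_mono {G G' : ℝ → Matrix n n ℂ} {a b : ℝ} {ξ : n → ℂ}
    (hG : ∀ x ∈ Icc a b, HasDerivAt G (G' x) x) (h : ∀ x ∈ Icc a b, 0 ≤ qf ξ (G' x)) :
    MonotoneOn (fun x => qf ξ (G x)) (Icc a b) := by
  have h1 : ∀ x ∈ Icc a b, HasDerivAt (fun x => qf ξ (G x)) (qf ξ (G' x)) x := fun x hx =>
    (LinearMap.toContinuousLinearMap (qf ξ)).hasFDerivAt.comp_hasDerivAt x (hG x hx)
  exact monotoneOn_of_hasDerivWithinAt_nonneg (convex_Icc a b)
    (fun x hx => (h1 x hx).continuousAt.continuousWithinAt)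
    (fun x hx => (h1 x (interior_subset hx)).hasDerivWithinAt) fun x hx => h x (interior_subset hx)

/-- the unit sphere -/
def Sph (n : Type) [Fintype n] [DecidableEq n] : Set (n → ℂ) := {ξ | qf ξ 1 = 1}

theorem qf_one (ξ : n → ℂ) : qf ξ 1 = ∑ i, ‖ξ i‖ ^ 2 := by
  rw [qf_apply, one_mulVec, dotProduct, Complex.re_sum]
  refine Finset.sum_congr rfl fun i _ => ?_
  rw [Pi.star_apply, Complex.star_def, Complex.conj_mul', ← Complex.ofReal_pow, Complex.ofReal_re]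

theorem isCompact_Sph : IsCompact (Sph n) := by
  refine (isCompact_closedBall (0 : n → ℂ) 1).of_isClosed_subset
    (isClosed_eq (continuous_qf continuous_id continuous_const) continuous_const) fun ξ h => ?_
  rw [mem_closedBall_zero_iff, pi_norm_le_iff_of_nonneg zero_le_one]
  intro i
  have h1 : ∑ i, ‖ξ i‖ ^ 2 = 1 := (qf_one ξ).symm.trans h
  have h2 := Finset.single_le_sum (f := fun i => ‖ξ i‖ ^ 2) (fun i _ => sq_nonneg _)
    (Finset.mem_univ i)
  nlinarith [norm_nonneg (ξ i)]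

theorem exists_Sph {ξ : n → ℂ} (h : ξ ≠ 0) : ∃ r : ℝ, ∃ η ∈ Sph n, ξ = r • η := by
  have h1 := qf_pos PosDef.one h
  have h2 := Real.sqrt_pos.2 h1
  refine ⟨√(qf ξ 1), (√(qf ξ 1))⁻¹ • ξ, ?_, (smul_inv_smul₀ h2.ne' ξ).symm⟩
  show qf _ _ = 1
  rw [qf_smul, inv_pow, Real.sq_sqrt h1.le, inv_mul_cancel₀ h1.ne']

theorem le_qf {A : Matrix n n ℂ} {m : ℝ} (h : ∀ η ∈ Sph n, m ≤ qf η A) (ξ : n → ℂ) :
    m * qf ξ 1 ≤ qf ξ A := by
  by_cases h0 : ξ = 0
  · rw [h0, qf_zero, qf_zero, mul_zero]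
  obtain ⟨r, η, hη, rfl⟩ := exists_Sph h0
  rw [qf_smul, qf_smul, show qf η 1 = 1 from hη, mul_one, mul_comm]
  exact mul_le_mul_of_nonneg_left (h η hη) (sq_nonneg r)

theorem ne_zero_of_Sph {ξ : n → ℂ} (h : ξ ∈ Sph n) : ξ ≠ 0 := by
  rintro rfl
  exact zero_ne_one ((qf_zero 1).symm.trans h)

theorem exists_ub (K : Matrix n n ℂ) : ∃ C : ℝ, ∀ ξ, qf ξ K ≤ C * qf ξ 1 := by
  obtain ⟨C, hC⟩ := isCompact_Sph.bddBelow_image
    (continuous_qf continuous_id (continuous_const (y := -K))).continuousOn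
  refine ⟨-C, fun ξ => ?_⟩
  have := le_qf (fun η hη => hC ⟨η, hη, rfl⟩) ξ
  rw [map_neg] at this
  linarith

theorem isCompact_Dens : IsCompact (Dens n) := by
  have h1 : IsCompact {C : Matrix n n ℂ | (Cᴴ * C).trace = 1} := by
    refine (isCompact_closedBall (0 : ℂ) 1).matrix.of_isClosed_subset
      (isClosed_eq (by fun_prop) continuous_const) fun C h i j => ?_
    rw [mem_closedBall_zero_iff]
    have h1 : ∑ j, ∑ i, ‖C i j‖ ^ 2 = 1 := by
      have := congrArg Complex.re (show _ = _ from h)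
      rw [Complex.one_re] at this
      rw [← this, trace, Complex.re_sum]
      refine Finset.sum_congr rfl fun j _ => ?_
      rw [diag_apply, mul_apply, Complex.re_sum]
      refine Finset.sum_congr rfl fun i _ => ?_
      rw [conjTranspose_apply, Complex.star_def, Complex.conj_mul', ← Complex.ofReal_pow,
        Complex.ofReal_re]
    have h2 := Finset.single_le_sum (f := fun i => ‖C i j‖ ^ 2) (fun i _ => sq_nonneg _)
      (Finset.mem_univ i)
    have h3 := Finset.single_le_sum (f := fun j => ∑ i, ‖C i j‖ ^ 2)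
      (fun j _ => Finset.sum_nonneg fun i _ => sq_nonneg _) (Finset.mem_univ j)
    nlinarith [norm_nonneg (C i j)]
  have h2 : Dens n = (fun C => Cᴴ * C) '' {C : Matrix n n ℂ | (Cᴴ * C).trace = 1} := by
    ext B
    constructor
    · rintro ⟨h, h'⟩
      open scoped MatrixOrder in
      obtain ⟨C, rfl⟩ := CStarAlgebra.nonneg_iff_eq_star_mul_self.mp h.nonneg
      exact ⟨C, h', rfl⟩
    · rintro ⟨C, h, rfl⟩
      exact ⟨posSemidef_conjTranspose_mul_self C, h⟩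
  rw [h2]
  exact h1.image (by fun_prop)

theorem convex_Dens : Convex ℝ (Dens n) := by
  rintro A ⟨hA, hA'⟩ B ⟨hB, hB'⟩ s t hs ht hst
  refine ⟨(hA.smul hs).add (hB.smul ht), ?_⟩
  rw [trace_add, trace_smul, trace_smul, hA', hB', ← add_smul, hst, one_smul]

end Vale.Agent.P371.Crit
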