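import Vale.Agent.P371.Defs

open MeasureTheory Matrix
open scoped Matrix.Norms.L2Operator ComplexOrder

namespace Vale.Agent.P371

variable {n : Type} [Fintype n] [DecidableEq n]

/-- real part of the trace -/
noncomputable def tr (A : Matrix n n ℂ) : ℝ := (Matrix.trace A).re

/-- trace of a function of a Hermitian matrix -/
noncomputable def trf (f : ℝ → ℝ) (A : Matrix n n ℂ) : ℝ := tr (cfc f A)

/-- matrix logarithm -/
noncomputable def mlog (A : Matrix n n ℂ) : Matrix n n ℂ := cfc Real.log A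

/-- `c_s = p^p / s^s` with `p = 1 + s` -/
noncomputable def cs (s : ℝ) : ℝ := (1 + s) ^ (1 + s) / s ^ s

/-- `β_s = ∫_{-1}^1 (1 - u^2)^s du` -/
noncomputable def beta (s : ℝ) : ℝ := ∫ u in (-1 : ℝ)..1, (1 - u ^ 2) ^ s

/-- `F` is a Hermitian solution of the Riccati equation `F' = K^2 - F^2 - V` on `[a, b]`. -/
def Ric (K : Matrix n n ℂ) (V F : ℝ → Matrix n n ℂ) (a b : ℝ) : Prop :=
  ∀ x ∈ Set.Icc a b, (F x).IsHermitian ∧ HasDerivAt F (K * K - F x * F x - V x) x

/-- density matrices -/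
def Dens (n : Type) [Fintype n] : Set (Matrix n n ℂ) := {B | B.PosSemidef ∧ B.trace = 1}

theorem trPow_eq {m : ℕ} (p : ℝ) (A : Matrix (Fin m) (Fin m) ℂ) :
    trPow p A = trf (fun y => y ^ p) A := rfl

end Vale.Agent.P371
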