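import Vale.Agent.P371.CriticalAux

open MeasureTheory Matrix Set
open scoped Matrix.Norms.L2Operator ComplexOrder

set_option linter.unusedSectionVars false

namespace Vale.Agent.P371.Crit

variable {n : Type} [Fintype n] [DecidableEq n]

theorem ric_mono {L : Matrix n n ℂ} (hL : L.IsHermitian) {V F : ℝ → Matrix n n ℂ} {a b : ℝ}
    (hR : Ric L V F a b) (hV : ∀ x, (V x).PosSemidef) :
    ∃ M : ℝ → Matrix n n ℂ, (∀ x, IsUnit (M x)) ∧
      ∀ ξ, MonotoneOn (fun x => qf (M x *ᵥ ξ) (L - F x)) (Icc a b) := by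
  let M : ℝ → Matrix n n ℂ := fun x => NormedSpace.exp (x • L)
  have hM : ∀ x, HasDerivAt M (L * M x) x := fun x => hasDerivAt_exp_smul_const' L x
  refine ⟨M, fun x => Matrix.isUnit_exp _, fun ξ => ?_⟩
  simp only [← qf_conj]
  refine qf_mono (G' := fun x => star (M x) * (star (L - F x) * (L - F x) + V x) * M x)
    (fun x hx => ?_) fun x hx => ?_
  · have := (((hM x).star.fun_mul ((hR x hx).2.const_sub L)).fun_mul (hM x))
    refine this.congr_deriv ?_
    have h1 : star L = L := hL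
    have h2 : star (F x) = F x := (hR x hx).1
    rw [star_mul, star_sub, h1, h2]
    noncomm_ring
  · rw [qf_conj]
    exact qf_nonneg ((posSemidef_conjTranspose_mul_self _).add (hV x)) _

theorem ric_minus {K : Matrix n n ℂ} (hK : K.IsHermitian) {V F : ℝ → Matrix n n ℂ} {a b : ℝ}
    (hR : Ric K V F a b) (hV : ∀ x, (V x).PosSemidef) (h0 : F a = K) {x : ℝ} (hx : x ∈ Icc a b) :
    (K - F x).PosSemidef := by
  obtain ⟨M, h1, h2⟩ := ric_mono hK hR hV
  refine psd_of_qf (hK.sub (hR x hx).1) fun ξ => ?_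
  obtain ⟨η, rfl⟩ := mulVec_surjective_iff_isUnit.2 (h1 x) ξ
  have := h2 η (left_mem_Icc.2 (hx.1.trans hx.2)) hx hx.1
  simp only [h0, sub_self, map_zero] at this
  exact this

theorem ric_plus {K : Matrix n n ℂ} (hK : K.IsHermitian) {V F : ℝ → Matrix n n ℂ} {a b : ℝ}
    (hR : Ric K V F a b) (hV : ∀ x, (V x).PosSemidef) {x : ℝ} (hx : x ∈ Icc a b) {ξ : n → ℂ}
    (h0 : ξ ≠ 0) (h : qf ξ (K + F x) ≤ 0) : ∃ η, η ≠ 0 ∧ qf η (K + F b) ≤ 0 := by
  have hR' : Ric (-K) V F a b := fun x hx => by rw [neg_mul_neg]; exact hR x hx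
  obtain ⟨M, h1, h2⟩ := ric_mono hK.neg hR' hV
  obtain ⟨η, rfl⟩ := mulVec_surjective_iff_isUnit.2 (h1 x) ξ
  refine ⟨M b *ᵥ η, fun h' => h0 ?_, ?_⟩
  · rw [mulVec_injective_iff_isUnit.2 (h1 b) (h'.trans (mulVec_zero _).symm), mulVec_zero]
  · have := h2 η hx (right_mem_Icc.2 (hx.1.trans hx.2)) hx.2
    simp only [map_sub, map_neg, map_add] at this h ⊢
    linarith

/-- solutions of the linear system -/
structure Sol (K : Matrix n n ℂ) (V Ψ Φ : ℝ → Matrix n n ℂ) (a b : ℝ) : Prop where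
  hK : K.PosDef
  hV : ∀ x, (V x).PosSemidef
  d1 : ∀ x ∈ Icc a b, HasDerivAt Ψ (Φ x) x
  d2 : ∀ x ∈ Icc a b, HasDerivAt Φ ((K * K - V x) * Ψ x) x
  i1 : Ψ a = 1
  i2 : Φ a = K

/-- the energy matrix -/
noncomputable def En (K P Q : Matrix n n ℂ) : Matrix n n ℂ := star P * Q + star P * K * P

variable {K : Matrix n n ℂ} {V Ψ Φ : ℝ → Matrix n n ℂ} {a b : ℝ}

theorem Sol.wr (h : Sol K V Ψ Φ a b) {x : ℝ} (hx : x ∈ Icc a b) :
    star (Φ x) * Ψ x = star (Ψ x) * Φ x := by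
  have h1 : star K = K := h.hK.1
  have h2 : ∀ x ∈ Icc a b, HasDerivAt (fun x => star (Φ x) * Ψ x - star (Ψ x) * Φ x) 0 x := by
    intro x hx
    refine (((h.d2 x hx).star.fun_mul (h.d1 x hx)).fun_sub
      ((h.d1 x hx).star.fun_mul (h.d2 x hx))).congr_deriv ?_
    have h2 : star (V x) = V x := (h.hV x).1
    rw [star_mul, star_sub, star_mul, h1, h2]
    noncomm_ring
  have := constant_of_has_deriv_right_zero
    (fun x hx => (h2 x hx).continuousAt.continuousWithinAt)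
    (fun x hx => (h2 x (Ico_subset_Icc_self hx)).hasDerivWithinAt) x hx
  simp only [h.i1, h.i2, h1, star_one, mul_one, one_mul, sub_self] at this
  exact sub_eq_zero.1 this

theorem Sol.herm (h : Sol K V Ψ Φ a b) {x : ℝ} (hx : x ∈ Icc a b) :
    (En K (Ψ x) (Φ x)).IsHermitian := by
  have h1 : star K = K := h.hK.1
  show star _ = _
  rw [En, star_add, star_mul, star_star, h.wr hx, star_mul, star_mul, star_star, h1, mul_assoc]

theorem Sol.unit (h : Sol K V Ψ Φ a b) (hE : ∀ x ∈ Icc a b, (En K (Ψ x) (Φ x)).PosSemidef)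
    {x : ℝ} (hx : x ∈ Icc a b) : IsUnit (Ψ x) := by
  obtain ⟨C, hC⟩ := exists_ub K
  refine mulVec_injective_iff_isUnit.1 fun ξ η h0 => ?_
  rw [← sub_eq_zero] at h0 ⊢
  rw [← mulVec_sub] at h0
  generalize ξ - η = ζ at h0
  have h1 := qf_mono (ξ := ζ) (G := fun x => Real.exp (2 * C * x) • (star (Ψ x) * 1 * Ψ x))
    (G' := fun x => (2 * Real.exp (2 * C * x)) •
      (En K (Ψ x) (Φ x) + star (Ψ x) * (C • (1 : Matrix n n ℂ) - K) * Ψ x)) (a := a) (b := b)
    (fun x hx => by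
      refine ((((hasDerivAt_id' x).const_mul (2 * C)).exp).fun_smul
        (((h.d1 x hx).star.mul_const 1).fun_mul (h.d1 x hx))).congr_deriv ?_
      simp only [En, mul_one, h.wr hx, mul_sub, sub_mul, mul_smul_comm, smul_mul_assoc]
      module)
    (fun x hx => by
      rw [map_smul, map_add, qf_conj, map_sub, map_smul, smul_eq_mul, smul_eq_mul]
      have := hC (Ψ x *ᵥ ζ)
      have := qf_nonneg (hE x hx) ζ
      have := Real.exp_pos (2 * C * x)
      positivity)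
    (left_mem_Icc.2 (hx.1.trans hx.2)) hx hx.1
  simp only [map_smul, qf_conj, h0, h.i1, one_mulVec, qf_zero, smul_eq_mul, mul_zero] at h1
  by_contra h2
  exact absurd h1 (not_le.2 (mul_pos (Real.exp_pos _) (qf_pos PosDef.one h2)))

theorem Sol.ric (h : Sol K V Ψ Φ a b) (hE : ∀ x ∈ Icc a b, (En K (Ψ x) (Φ x)).PosSemidef) :
    ∃ F, Ric K V F a b ∧ F a = K ∧
      ∀ x ∈ Icc a b, En K (Ψ x) (Φ x) = star (Ψ x) * (K + F x) * Ψ x := by
  have h1 : ∀ x ∈ Icc a b, En K (Ψ x) (Φ x) =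
      star (Ψ x) * (K + Φ x * Ring.inverse (Ψ x)) * Ψ x := fun x hx => by
    rw [mul_add, add_mul, mul_assoc, mul_assoc _ (Φ x * _), mul_assoc (Φ x),
      Ring.inverse_mul_cancel _ (h.unit hE hx), mul_one, En, add_comm, mul_assoc]
  refine ⟨fun x => Φ x * Ring.inverse (Ψ x), fun x hx => ⟨?_, ?_⟩, ?_, h1⟩
  · have := hE x hx
    rw [h1 x hx, (h.unit hE hx).posSemidef_star_left_conjugate_iff] at this
    have := this.1.sub h.hK.1
    rwa [add_sub_cancel_left] at this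
  · obtain ⟨u, hu⟩ := h.unit hE hx
    have h2 := hasFDerivAt_ringInverse (𝕜 := ℝ) u
    rw [hu] at h2
    refine ((h.d2 x hx).fun_mul (h2.comp_hasDerivAt x (h.d1 x hx))).congr_deriv ?_
    simp only [Function.comp_apply, ← hu, Ring.inverse_unit, _root_.neg_apply,
      ContinuousLinearMap.mulLeftRight_apply, mul_assoc, Units.mul_inv, mul_one]
    noncomm_ring
  · simp only [h.i1, h.i2, Ring.inverse_one, mul_one]

theorem Sol.psd_of_zero (h : Sol K V Ψ Φ a b) (hV : ∀ x, V x = 0) {x : ℝ} (hx : x ∈ Icc a b) :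
    (En K (Ψ x) (Φ x)).PosSemidef := by
  have h1 : star K = K := h.hK.1
  refine psd_of_qf (h.herm hx) fun ξ => ?_
  have := qf_mono (ξ := ξ) (G := fun x => En K (Ψ x) (Φ x))
    (G' := fun x => star (Φ x + K * Ψ x) * (Φ x + K * Ψ x)) (a := a) (b := b)
    (fun x hx => by
      refine (((h.d1 x hx).star.fun_mul (h.d2 x hx)).fun_add
        (((h.d1 x hx).star.mul_const K).fun_mul (h.d1 x hx))).congr_deriv ?_
      rw [hV, star_add, star_mul, h1]
      noncomm_ring)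
    (fun x _ => qf_nonneg (posSemidef_conjTranspose_mul_self _) _)
    (left_mem_Icc.2 (hx.1.trans hx.2)) hx hx.1
  refine le_trans ?_ this
  simp only [En, h.i1, h.i2, star_one, one_mul, mul_one]
  exact qf_nonneg (h.hK.add h.hK).posSemidef _

theorem Sol.ker (h : Sol K V Ψ Φ a b) (hab : a ≤ b) {ξ : n → ℂ} (h0 : ξ ≠ 0) {c : ℝ}
    (hc : K *ᵥ ξ = (c : ℂ) • ξ) (hV : ∀ x, V x *ᵥ ξ = 0) : (Φ b + K * Ψ b) *ᵥ ξ ≠ 0 := by
  intro h1
  have := qf_mono (ξ := ξ) (G := fun x => Real.exp (-c * x) • (Φ x + K * Ψ x))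
    (G' := fun x => Real.exp (-c * x) • (K * (Φ x + K * Ψ x) - V x * Ψ x - c • (Φ x + K * Ψ x)))
    (a := a) (b := b)
    (fun x hx => by
      refine ((((hasDerivAt_id' x).const_mul (-c)).exp).fun_smul
        ((h.d2 x hx).fun_add ((h.d1 x hx).const_mul K))).congr_deriv ?_
      simp only [mul_add, sub_mul, mul_assoc]
      module)
    (fun x _ => by
      rw [map_smul, map_sub, map_sub, qf_eigen h.hK.1 hc, map_smul,
        qf_eigen (c := 0) (h.hV x).1 (by simp [hV])]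
      simp)
    (left_mem_Icc.2 hab) (right_mem_Icc.2 hab) hab
  simp only [map_smul, qf_of_mulVec h1, h.i1, h.i2, mul_one, smul_eq_mul, mul_zero] at this
  exact absurd this (not_le.2 (mul_pos (Real.exp_pos _) (qf_pos (h.hK.add h.hK) h0)))

end Vale.Agent.P371.Crit
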