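import Vale.Agent.P371.Basic
import Vale.Agent.P371.Brouwer
import Vale.Agent.P371.LinODE
import Vale.Agent.P371.CriticalAux2

open MeasureTheory Matrix Set
open scoped Matrix.Norms.L2Operator ComplexOrder

namespace Vale.Agent.P371

variable {n : Type} [Fintype n] [DecidableEq n]

namespace Crit

theorem brouwer_sub {E : Type} [NormedAddCommGroup E] [NormedSpace ℝ E] [FiniteDimensional ℝ E]
    {K : Set E} (hc : Convex ℝ K) (hK : IsCompact K) (hne : K.Nonempty) {g : K → E}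
    (hg : Continuous g) (hm : ∀ p, g p ∈ K) : ∃ p : K, g p = p := by
  classical
  obtain ⟨x, hx, h⟩ := brouwer hc hK hne (f := fun x => if h : x ∈ K then g ⟨x, h⟩ else x)
    (by rw [continuousOn_iff_continuous_domRestrict]
        exact hg.congr fun p => by simp only [domRestrict_apply, dif_pos p.2])
    fun x hx => by simp only [dif_pos hx]; exact hm _
  exact ⟨⟨x, hx⟩, by rwa [dif_pos hx] at h⟩

theorem exists_sol {P : Type} [TopologicalSpace P] [CompactSpace P] {K : P → Matrix n n ℂ}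
    {V : P → ℝ → Matrix n n ℂ} (hK : Continuous K) (hV : Continuous fun q : P × ℝ => V q.1 q.2)
    (hKp : ∀ p, (K p).PosDef) (hVp : ∀ p x, (V p x).PosSemidef) {a b : ℝ} (hab : a < b) :
    ∃ Ψ Φ : P → ℝ → Matrix n n ℂ, (∀ p, Sol (K p) (V p) (Ψ p) (Φ p) a b) ∧
      Continuous fun q : P × Icc a b => En (K q.1) (Ψ q.1 q.2) (Φ q.1 q.2) := by
  obtain ⟨Y, h1, h2⟩ := exists_linODE (E := Matrix n n ℂ × Matrix n n ℂ)
    (fun p x => (ContinuousLinearMap.snd ℝ _ _).prod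
      ((ContinuousLinearMap.mul ℝ _ (K p * K p - V p x)).comp (ContinuousLinearMap.fst ℝ _ _)))
    (continuous_clm_apply.2 fun y => by
      show Continuous fun q : P × ℝ => (y.2, (K q.1 * K q.1 - V q.1 q.2) * y.1)
      fun_prop)
    (fun p => (1, K p)) (by fun_prop) hab
  refine ⟨fun p x => (Y p x).1, fun p x => (Y p x).2, fun p => ⟨hKp p, hVp p,
    fun x hx => ((h2 p).2 x hx).fst, fun x hx => ((h2 p).2 x hx).snd, by simp only [(h2 p).1],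
    by simp only [(h2 p).1]⟩, ?_⟩
  have : Continuous fun q : P × Icc a b => Y q.1 q.2 :=
    h1.comp_continuous (f := fun q : P × Icc a b => (q.1, (q.2 : ℝ))) (by fun_prop)
      fun q => ⟨mem_univ _, q.2.2⟩
  exact (this.fst.star.mul this.snd).add
    ((this.fst.star.mul (hK.comp continuous_fst)).mul this.fst)

theorem exists_min [Nonempty n] {P X : Type} [TopologicalSpace P] [TopologicalSpace X]
    [CompactSpace X] [Nonempty X] {E : P × X → Matrix n n ℂ} (hE : Continuous E) :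
    ∃ μ : P → ℝ, Continuous μ ∧ (∀ p x ξ, μ p * qf ξ 1 ≤ qf ξ (E (p, x))) ∧
      ∀ p, ∃ x ξ, ξ ≠ 0 ∧ qf ξ (E (p, x)) = μ p := by
  have hS : IsCompact ((univ : Set X) ×ˢ Sph n) := isCompact_univ.prod isCompact_Sph
  have hf : Continuous ↿fun (p : P) (q : X × (n → ℂ)) => qf q.2 (E (p, q.1)) :=
    continuous_qf (ξ := fun r : P × X × (n → ℂ) => r.2.2) (by fun_prop)
      (hE.comp (f := fun r : P × X × (n → ℂ) => (r.1, r.2.1)) (by fun_prop))
  have hp : ∀ p, ContinuousOn (fun q : X × (n → ℂ) => qf q.2 (E (p, q.1))) (univ ×ˢ Sph n) :=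
    fun p => (hf.comp (Continuous.prodMk_right p)).continuousOn
  refine ⟨_, hS.continuous_sInf hf, fun p x => le_qf fun η hη =>
    csInf_le (hS.bddBelow_image (hp p)) ⟨(x, η), ⟨mem_univ _, hη⟩, rfl⟩, fun p => ?_⟩
  obtain ⟨_, η, hη, -⟩ := exists_Sph (n := n) (ξ := 1) one_ne_zero
  obtain ⟨q, hq, h⟩ := hS.exists_sInf_image_eq ⟨(Classical.arbitrary X, η), mem_univ _, hη⟩ (hp p)
  exact ⟨q.1, q.2, ne_zero_of_Sph hq.2, h.symm⟩

omit [DecidableEq n] in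
theorem tr_pos {A : Matrix n n ℂ} (hA : A.PosSemidef) (h : A ≠ 0) :
    0 < tr A ∧ A.trace = tr A := by
  have h1 := Complex.nonneg_iff.1 hA.trace_nonneg
  have h2 : A.trace = tr A := Complex.ext rfl h1.2.symm
  refine ⟨lt_of_le_of_ne h1.1 fun h3 => h (hA.trace_eq_zero_iff.1 ?_), h2⟩
  rw [h2, ← h3, Complex.ofReal_zero]

theorem exists_fixed [Nonempty n] {τ : ℝ} (hτ : 0 < τ)
    {E : (Dens n ×ˢ Icc 0 τ : Set (Matrix n n ℂ × ℝ)) → Matrix n n ℂ} (hEc : Continuous E)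
    (hE : ∀ p, (E p).IsHermitian) {μ : (Dens n ×ˢ Icc 0 τ : Set (Matrix n n ℂ × ℝ)) → ℝ}
    (hμ : Continuous μ) (m1 : ∀ p ξ, μ p * qf ξ 1 ≤ qf ξ (E p)) (h0 : ∀ p, 0 ≤ μ p → E p ≠ 0) :
    ∃ p, max 0 (min τ (p.1.2 + μ p)) = p.1.2 ∧
      (0 ≤ μ p → ∀ ζ, E p *ᵥ ζ = 0 → p.1.1 *ᵥ ζ = 0) := by
  obtain ⟨N, hNd⟩ : ∃ N, N = fun p => E p + (2 * max (-μ p) 0) • (1 : Matrix n n ℂ) := ⟨_, rfl⟩
  have hNc : Continuous N := hNd ▸ hEc.add
    ((continuous_const.mul (hμ.neg.max continuous_const)).smul continuous_const)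
  have hq : ∀ p ξ, max (-μ p) 0 * qf ξ 1 ≤ qf ξ (N p) := fun p ξ => by
    have e1 := m1 p ξ
    have e2 := mul_le_mul_of_nonneg_right (le_max_left (-μ p) 0) (qf_nonneg PosSemidef.one ξ)
    simp only [hNd, map_add, map_smul, smul_eq_mul]
    linarith
  have hN : ∀ p, (N p).PosSemidef := fun p =>
    psd_of_qf (hNd ▸ (hE p).add (PosSemidef.one.smul (by positivity)).1) fun ξ =>
      (mul_nonneg (le_max_right _ _) (qf_nonneg PosSemidef.one ξ)).trans (hq p ξ)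
  have hN' : ∀ p, 0 ≤ μ p → N p = E p := fun p h => by
    simp only [hNd, max_eq_right (neg_nonpos.2 h), mul_zero, zero_smul, add_zero]
  have hN0 : ∀ p, N p ≠ 0 := fun p h => by
    rcases le_or_gt 0 (μ p) with h1 | h1
    · exact h0 p h1 ((hN' p h1).symm.trans h)
    · have := hq p 1
      rw [h, map_zero, max_eq_left (neg_nonneg.2 h1.le)] at this
      exact absurd this (not_le.2 (mul_pos (neg_pos.2 h1) (qf_pos PosDef.one one_ne_zero)))
  have hT := fun p => tr_pos (hN p) (hN0 p)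
  have hm : ∀ p, (tr (N p))⁻¹ • N p ∈ Dens n := fun p => ⟨(hN p).smul (inv_pos.2 (hT p).1).le, by
    rw [trace_smul, (hT p).2, Complex.real_smul, ← Complex.ofReal_mul,
      inv_mul_cancel₀ (hT p).1.ne', Complex.ofReal_one]⟩
  have hc : Continuous fun p => tr (N p) := Complex.continuous_re.comp hNc.matrix_trace
  have hne : ((Fintype.card n : ℝ)⁻¹) • (1 : Matrix n n ℂ) ∈ Dens n :=
    ⟨PosSemidef.one.smul (by positivity), by rw [trace_smul, trace_one, Complex.real_smul]; simp⟩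
  have c1 : Continuous fun p => (tr (N p))⁻¹ • N p := (hc.inv₀ fun p => (hT p).1.ne').smul hNc
  have c2 : Continuous fun p => max 0 (min τ (p.1.2 + μ p)) := continuous_const.max
    (continuous_const.min (continuous_subtype_val.snd.add hμ))
  have c3 : Continuous fun p => ((tr (N p))⁻¹ • N p, max 0 (min τ (p.1.2 + μ p))) := c1.prodMk c2
  have c4 : Convex ℝ (Dens n ×ˢ Icc 0 τ) := convex_Dens.prod (convex_Icc 0 τ)
  have c5 : IsCompact (Dens n ×ˢ Icc 0 τ) := isCompact_Dens.prod isCompact_Icc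
  have c6 : (Dens n ×ˢ Icc 0 τ).Nonempty := ⟨(_, 0), hne, left_mem_Icc.2 hτ.le⟩
  have c7 : ∀ p, ((tr (N p))⁻¹ • N p, max 0 (min τ (p.1.2 + μ p))) ∈ Dens n ×ˢ Icc 0 τ :=
    fun p => ⟨hm p, le_max_left _ _, max_le hτ.le (min_le_left _ _)⟩
  obtain ⟨p, hp⟩ := brouwer_sub (E := Matrix n n ℂ × ℝ) c4 c5 c6 c3 c7
  refine ⟨p, congrArg Prod.snd hp, fun h ζ hζ => ?_⟩
  have p1 : (tr (N p))⁻¹ • N p = p.1.1 := congrArg Prod.fst hp
  rw [← p1, smul_mulVec, hN' p h, hζ, smul_zero]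

variable {K : Matrix n n ℂ} {V Ψ Φ : ℝ → Matrix n n ℂ} {a b : ℝ}

theorem Sol.crit (h : Sol K V Ψ Φ a b) (hab : a ≤ b)
    (hE : ∀ x ∈ Icc a b, (En K (Ψ x) (Φ x)).PosSemidef) (h0 : En K (Ψ b) (Φ b) = 0) :
    ∃ F, Ric K V F a b ∧ F a = K ∧ F b = -K ∧
      ∀ x ∈ Icc a b, (K + F x).PosSemidef ∧ (K - F x).PosSemidef := by
  obtain ⟨F, r1, r2, r3⟩ := h.ric hE
  have hb := right_mem_Icc.2 hab
  have hu := fun x hx => h.unit hE (x := x) hx
  refine ⟨F, r1, r2, ?_, fun x hx => ⟨?_, ric_minus h.hK.1 r1 h.hV r2 hx⟩⟩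
  · rw [r3 b hb, (hu b hb).mul_left_eq_zero, (hu b hb).star.mul_right_eq_zero] at h0
    exact eq_neg_of_add_eq_zero_right h0
  · rw [← (hu x hx).posSemidef_star_left_conjugate_iff, ← r3 x hx]
    exact hE x hx

theorem Sol.sing (h : Sol K V Ψ Φ a b) (hE : ∀ x ∈ Icc a b, (En K (Ψ x) (Φ x)).PosSemidef)
    {x : ℝ} (hx : x ∈ Icc a b) {ξ : n → ℂ} (x1 : ξ ≠ 0) (x2 : qf ξ (En K (Ψ x) (Φ x)) ≤ 0) :
    ∃ ζ, ζ ≠ 0 ∧ En K (Ψ b) (Φ b) *ᵥ ζ = 0 ∧ (Φ b + K * Ψ b) *ᵥ ζ = 0 := by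
  obtain ⟨F, r1, r2, r3⟩ := h.ric hE
  have hb := right_mem_Icc.2 (hx.1.trans hx.2)
  have hu := fun x hx => h.unit hE (x := x) hx
  obtain ⟨η, y1, y2⟩ := ric_plus h.hK.1 r1 h.hV hx (ξ := Ψ x *ᵥ ξ)
    (fun h => x1 (mulVec_injective_iff_isUnit.2 (hu x hx) (h.trans (mulVec_zero _).symm)))
    (by rwa [← qf_conj, ← r3 x hx])
  obtain ⟨ζ, rfl⟩ := mulVec_surjective_iff_isUnit.2 (hu b hb) η
  rw [← qf_conj, ← r3 b hb] at y2
  have z1 := mulVec_eq_zero (hE b hb) y2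
  refine ⟨ζ, fun h => y1 (by rw [h, mulVec_zero]), z1, ?_⟩
  rw [En, mul_assoc, ← mul_add, ← mulVec_mulVec] at z1
  exact mulVec_injective_iff_isUnit.2 (hu b hb).star (z1.trans (mulVec_zero _).symm)

end Crit
open Crit

/-- Step 1: a totally critical system exists. -/
theorem exists_critical [Nonempty n] (Kf : Matrix n n ℂ → Matrix n n ℂ)
    (hKc : ContinuousOn Kf (Dens n)) (hKp : ∀ B ∈ Dens n, (Kf B).PosDef)
    (hker : ∀ B ∈ Dens n, ∀ ξ, B *ᵥ ξ = 0 → ∃ c : ℝ, 0 < c ∧ Kf B *ᵥ ξ = (c : ℂ) • ξ)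
    (Ω : ℝ → Matrix n n ℂ) (hΩ : Continuous Ω) (hΩp : ∀ x, (Ω x).PosSemidef)
    {a b : ℝ} (hab : a < b) {τ : ℝ} (hτ : 0 < τ)
    (hesc : ∀ B ∈ Dens n, ∀ F, ¬ Ric (Kf B) (fun x => (τ • B) * Ω x * (τ • B)) F a b) :
    ∃ B ∈ Dens n, ∃ t : ℝ, ∃ F, Ric (Kf B) (fun x => (t • B) * Ω x * (t • B)) F a b ∧
      F a = Kf B ∧ F b = -Kf B ∧
      ∀ x ∈ Icc a b, (Kf B + F x).PosSemidef ∧ (Kf B - F x).PosSemidef := by
  by_contra hcon
  have : CompactSpace (Dens n ×ˢ Icc 0 τ : Set (Matrix n n ℂ × ℝ)) :=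
    isCompact_iff_compactSpace.1 (isCompact_Dens.prod isCompact_Icc)
  have : Nonempty (Icc a b) := ⟨⟨a, left_mem_Icc.2 hab.le⟩⟩
  have hb := right_mem_Icc.2 hab.le
  have c1 : Continuous fun q : (Dens n ×ˢ Icc 0 τ : Set (Matrix n n ℂ × ℝ)) × ℝ =>
      q.1.1.2 • q.1.1.1 := (continuous_subtype_val.snd.smul continuous_subtype_val.fst).fst'
  obtain ⟨Ψ, Φ, hS, hEc⟩ := exists_sol (P := (Dens n ×ˢ Icc 0 τ : Set (Matrix n n ℂ × ℝ)))
    (K := fun p => Kf p.1.1) (V := fun p x => (p.1.2 • p.1.1) * Ω x * (p.1.2 • p.1.1))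
    (hKc.comp_continuous continuous_subtype_val.fst fun p => p.2.1)
    ((c1.mul hΩ.snd').mul c1) (fun p => hKp _ p.2.1)
    (fun p x => by
      have := (hΩp x).conjTranspose_mul_mul_same (p.1.2 • p.1.1)
      rwa [(p.2.1.1.smul p.2.2.1).1.eq] at this) hab
  obtain ⟨μ, hμ, m1, m2⟩ := exists_min hEc
  have c2 := hEc.comp (Continuous.prodMk_left (⟨b, hb⟩ : Icc a b))
  have h1 : ∀ p, 0 ≤ μ p → ∀ x ∈ Icc a b, (En (Kf p.1.1) (Ψ p x) (Φ p x)).PosSemidef :=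
    fun p h x hx => psd_of_qf ((hS p).herm hx) fun ξ =>
      (mul_nonneg h (qf_nonneg PosSemidef.one ξ)).trans (m1 p ⟨x, hx⟩ ξ)
  obtain ⟨p, p2, p1⟩ := exists_fixed hτ c2 (fun p => (hS p).herm hb) hμ
    (fun p => m1 p ⟨b, hb⟩) fun p h h' => hcon ⟨_, p.2.1, _, (hS p).crit hab.le (h1 p h) h'⟩
  have h0 : 0 ≤ μ p := by
    by_contra h0
    have t0 : p.1.2 = 0 := by
      have := p.2.2.1
      rcases max_cases 0 (min τ (p.1.2 + μ p)) with h | h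
      · linarith [h.1]
      · linarith [h.1, min_le_right τ (p.1.2 + μ p)]
    obtain ⟨x, ξ, -, h⟩ := m2 p
    exact h0 ((qf_nonneg ((hS p).psd_of_zero
      (fun x => by rw [t0, zero_smul, mul_zero]) x.2) ξ).trans_eq h)
  have h2 : μ p ≤ 0 := by
    by_contra h2
    have t0 : p.1.2 = τ := by
      have := p.2.2.1
      rcases min_cases τ (p.1.2 + μ p) with h | h
      · rw [← p2, h.1, max_eq_right hτ.le]
      · linarith [h.1, le_max_right 0 (min τ (p.1.2 + μ p))]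
    obtain ⟨F, r1, -⟩ := (hS p).ric (h1 p h0)
    rw [t0] at r1
    exact hesc _ p.2.1 F r1
  obtain ⟨x, ξ, x1, x2⟩ := m2 p
  obtain ⟨ζ, z0, z1, z2⟩ := (hS p).sing (h1 p h0) x.2 x1 (x2.trans_le h2)
  have z3 := p1 h0 ζ z1
  obtain ⟨c, -, hc⟩ := hker _ p.2.1 ζ z3
  refine (hS p).ker hab.le z0 hc (fun x => ?_) z2
  rw [← mulVec_mulVec, smul_mulVec, z3, smul_zero, mulVec_zero]

end Vale.Agent.P371
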