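import Vale.Agent.P371.Ground
import Vale.Agent.P371.Critical

open MeasureTheory Matrix Set Filter Topology
open scoped Matrix.Norms.L2Operator ComplexOrder

namespace Vale.Agent.P371

variable {n m : Type} [Fintype n] [DecidableEq n] [Fintype m] [DecidableEq m]

omit [DecidableEq n] in
theorem tr_nonneg {A : Matrix n n ℂ} (hA : A.PosSemidef) : 0 ≤ tr A :=
  (Complex.nonneg_iff.1 hA.trace_nonneg).1

theorem trf_rpow_nonneg {A : Matrix n n ℂ} (hA : A.PosSemidef) (q : ℝ) :
    0 ≤ trf (fun y => y ^ q) A := by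
  rw [trf_eq_sum hA.1]
  exact Finset.sum_nonneg fun i _ => Real.rpow_nonneg (hA.eigenvalues_nonneg i) _

theorem cfc_rpow_psd {A : Matrix n n ℂ} (hA : A.PosSemidef) (q : ℝ) :
    (cfc (fun y : ℝ => y ^ q) A).PosSemidef := by
  rw [hA.1.cfc_eq, Matrix.IsHermitian.cfc, Unitary.conjStarAlgAut_apply]
  refine PosSemidef.mul_mul_conjTranspose_same ?_ _
  rw [posSemidef_diagonal_iff]
  intro i
  simpa using Real.rpow_nonneg (hA.eigenvalues_nonneg i) q

theorem tr_conj_integral (C : Matrix n n ℂ) {G : ℝ → Matrix n n ℂ} (hG : Continuous G)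
    (a b : ℝ) : ∫ x in a..b, tr (C * G x * Cᴴ) = tr (C * (∫ x in a..b, G x) * Cᴴ) := by
  let T : Matrix n n ℂ →ₗ[ℝ] ℝ :=
    { toFun := fun M => tr (C * M * Cᴴ)
      map_add' := fun A B => by rw [mul_add, add_mul, tr_add]
      map_smul' := fun c A => by rw [mul_smul_comm, smul_mul_assoc, tr_smul]; rfl }
  exact (LinearMap.toContinuousLinearMap T).intervalIntegral_comp_comm (hG.intervalIntegrable a b)

theorem cost {K K' B : Matrix n n ℂ} (hK' : K'.IsHermitian) (hB : B.IsHermitian) {p : ℝ}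
    (h1 : 1 < p) (h2 : p < 2) {a b : ℝ} (hab : a ≤ b) {U U' : ℝ → Matrix n m ℂ}
    (hU : ∀ x, HasDerivAt U (U' x) x) (hU' : Continuous U') (Ua : U a = 0) (Ub : U b = 0)
    {W : ℝ → Matrix m m ℂ} (hW : Continuous W) (hWp : ∀ x, (W x).PosSemidef)
    (hG : (1 - ∫ x in a..b, U x * (U x)ᴴ).PosSemidef)
    (hE : ((∫ x in a..b, (U x * W x * (U x)ᴴ - U' x * (U' x)ᴴ)) - K * K).PosSemidef)
    (hKK : tr (B * (K' * K') * B) ≤ tr (B * (K * K) * B)) {F : ℝ → Matrix n n ℂ}
    (hR : Ric K' (fun x => B * (U x * cfc (fun y : ℝ => y ^ (2 - p)) (W x) * (U x)ᴴ) * B) F a b) :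
    tr (B * (K * K) * B) ≤ ∫ x in a..b, trf (fun y => y ^ p) (W x) ∧
      ∫ x in a..b, trf (fun y => y ^ p)
        (B * (U x * cfc (fun y : ℝ => y ^ (2 - p)) (W x) * (U x)ᴴ) * B) ≤
        ∫ x in a..b, trf (fun y => y ^ p) (W x) := by
  have hUc : Continuous U := continuous_iff_continuousAt.2 fun x => (hU x).continuousAt
  set L : ℝ → Matrix m m ℂ := fun x => cfc (fun y : ℝ => y ^ (2 - p)) (W x) with hL
  have hLc : Continuous L := continuousOn_univ.1
    (continuousOn_cfc_comp (Real.continuous_rpow_const (by linarith)) hW.continuousOn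
      fun x _ => (hWp x).1)
  set Z : ℝ → Matrix n m ℂ := fun x => B * U x with hZ
  have hZc : Continuous Z := continuous_const.matrix_mul hUc
  have hZh : Continuous fun x => (Z x)ᴴ := hZc.matrix_conjTranspose
  have hV : ∀ x, B * (U x * cfc (fun y : ℝ => y ^ (2 - p)) (W x) * (U x)ᴴ) * B =
      Z x * L x * (Z x)ᴴ := fun x => by
    simp only [hZ, hL, conjTranspose_mul, hB.eq, Matrix.mul_assoc]
  have hVc : Continuous fun x => Z x * L x * (Z x)ᴴ := (hZc.matrix_mul hLc).matrix_mul hZh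
  have hZd : ∀ x, HasDerivAt Z (B * U' x) x := fun x => by
    let T : Matrix n m ℂ →ₗ[ℝ] Matrix n m ℂ :=
      { toFun := fun M => B * M
        map_add' := fun M N => Matrix.mul_add B M N
        map_smul' := fun c M => Matrix.mul_smul B c M }
    exact (LinearMap.toContinuousLinearMap T).hasFDerivAt.comp_hasDerivAt x (hU x)
  simp only [hV] at hR ⊢
  have hform := ric_form hab hR hVc.continuousOn hZd (continuous_const.matrix_mul hU')
    (by simp [hZ, Ua]) (by simp [hZ, Ub])
  have hUh : Continuous fun x => (U x)ᴴ := hUc.matrix_conjTranspose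
  have c1 : Continuous fun x => U' x * (U' x)ᴴ := hU'.matrix_mul hU'.matrix_conjTranspose
  have c2 : Continuous fun x => U x * (U x)ᴴ := hUc.matrix_mul hUh
  have c3 : Continuous fun x => U x * W x * (U x)ᴴ := (hUc.matrix_mul hW).matrix_mul hUh
  have e1 : ∀ x, tr ((B * U' x)ᴴ * (B * U' x)) = tr (B * (U' x * (U' x)ᴴ) * Bᴴ) := fun x => by
    rw [tr_comm]; simp only [conjTranspose_mul, Matrix.mul_assoc]
  have e2 : ∀ x, tr ((Z x)ᴴ * (K' * K') * Z x) = tr (K' * B * (U x * (U x)ᴴ) * (K' * B)ᴴ) :=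
    fun x => by
      rw [show (Z x)ᴴ * (K' * K') * Z x = ((Z x)ᴴ * K') * (K' * Z x) by
        simp only [Matrix.mul_assoc], tr_comm]
      simp only [hZ, conjTranspose_mul, hK'.eq, Matrix.mul_assoc]
  have e3 : ∀ x, tr ((Z x)ᴴ * Z x * W x) = tr (B * (U x * W x * (U x)ᴴ) * Bᴴ) := fun x => by
    rw [Matrix.mul_assoc, tr_comm]; simp only [hZ, conjTranspose_mul, Matrix.mul_assoc]
  have e4 : ∀ x, tr ((Z x)ᴴ * (Z x * L x * (Z x)ᴴ) * Z x) =
      tr ((Z x)ᴴ * Z x * L x * ((Z x)ᴴ * Z x)) := fun x => by simp only [Matrix.mul_assoc]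
  have ct : ∀ (C : Matrix n n ℂ) {G : ℝ → Matrix n n ℂ}, Continuous G →
      IntervalIntegrable (fun x => tr (C * G x * Cᴴ)) volume a b := fun C G h =>
    (continuous_tr.comp ((continuous_const.mul h).mul continuous_const)).intervalIntegrable a b
  simp only [e1, e2, e4] at hform
  rw [intervalIntegral.integral_add (ct _ c1) (ct _ c2), tr_conj_integral _ c1,
    tr_conj_integral _ c2] at hform
  have g1 := tr_nonneg (hG.mul_mul_conjTranspose_same (K' * B))
  have g2 := tr_nonneg (hE.mul_mul_conjTranspose_same B)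
  have g3 : 0 ≤ tr (B * (∫ x in a..b, U' x * (U' x)ᴴ) * Bᴴ) := by
    rw [← tr_conj_integral _ c1]
    exact intervalIntegral.integral_nonneg hab fun x _ =>
      tr_nonneg ((posSemidef_self_mul_conjTranspose _).mul_mul_conjTranspose_same B)
  rw [intervalIntegral.integral_sub (c3.intervalIntegrable a b) (c1.intervalIntegrable a b)] at g2
  simp only [mul_sub, sub_mul, tr_sub, mul_one] at g1 g2
  have e5 : tr (K' * B * (K' * B)ᴴ) = tr (B * (K' * K') * B) := by
    rw [tr_comm]; simp only [conjTranspose_mul, hK'.eq, hB.eq, Matrix.mul_assoc]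
  have hσ : Continuous fun x => (Z x)ᴴ * Z x := hZh.matrix_mul hZc
  have ia : IntervalIntegrable (fun x => tr ((Z x)ᴴ * Z x * L x * ((Z x)ᴴ * Z x))) volume a b :=
    (continuous_tr.comp ((hσ.mul hLc).mul hσ)).intervalIntegrable a b
  have ib : IntervalIntegrable (fun x => trf (fun y => y ^ p) (W x)) volume a b :=
    (continuousOn_univ.1 (continuousOn_trf_rpow (by linarith) hW.continuousOn
      fun x _ => (hWp x).1)).intervalIntegrable a b
  have iv : IntervalIntegrable (fun x => trf (fun y => y ^ p) (Z x * L x * (Z x)ᴴ)) volume a b :=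
    (continuousOn_univ.1 (continuousOn_trf_rpow (by linarith) hVc.continuousOn
      fun x _ => ((cfc_rpow_psd (hWp x) _).mul_mul_conjTranspose_same _).1)).intervalIntegrable a b
  have y1 := intervalIntegral.integral_mono_on hab (ct B c3) ((ia.add ib).div_const 2)
    fun x _ => by
      rw [← e3]; exact tr_young₁ h1 h2 (hWp x) (isHermitian_conjTranspose_mul_self _)
  have y2 := intervalIntegral.integral_mono_on hab iv
    ((ia.const_mul (p / 2)).add (ib.const_mul (1 - p / 2))) fun x _ => tr_young₂ h1 h2 (hWp x) (Z x)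
  rw [intervalIntegral.integral_div, intervalIntegral.integral_add ia ib,
    tr_conj_integral _ c3] at y1
  rw [intervalIntegral.integral_add (ia.const_mul _) (ib.const_mul _),
    intervalIntegral.integral_const_mul, intervalIntegral.integral_const_mul] at y2
  rw [hB.eq] at *
  constructor
  · linarith
  · nlinarith

theorem core {N m : ℕ} {κ : Fin N → ℝ} (hκ : ∀ j, 0 < κ j) {s : ℝ} (h0 : 0 < s) (h1 : s < 1)
    {a b : ℝ} (hab : a < b) {U U' : ℝ → Matrix (Fin N) (Fin m) ℂ}
    (hU : ∀ x, HasDerivAt U (U' x) x) (hU' : Continuous U') (Ua : U a = 0) (Ub : U b = 0)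
    {W : ℝ → Matrix (Fin m) (Fin m) ℂ} (hW : Continuous W) (hWp : ∀ x, (W x).PosSemidef)
    (hG : (1 - ∫ x in a..b, U x * (U x)ᴴ).PosSemidef)
    (hE : ((∫ x in a..b, (U x * W x * (U x)ᴴ - U' x * (U' x)ᴴ))
      - diagonal fun j => ((κ j ^ 2 : ℝ) : ℂ)).PosSemidef) :
    cs s * beta s * ∑ j, κ j ^ (2 * s + 1) ≤ ∫ x in a..b, trPow (1 + s) (W x) := by
  simp only [trPow_eq]
  set J := ∫ x in a..b, trf (fun y => y ^ (1 + s)) (W x) with hJ
  have hJ0 : 0 ≤ J := intervalIntegral.integral_nonneg hab.le fun x _ => trf_rpow_nonneg (hWp x) _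
  rcases isEmpty_or_nonempty (Fin N) with hN | hN
  · simpa using hJ0
  have hK : (dg κ).PosDef := dg_posDef hκ
  have hE' : ((∫ x in a..b, (U x * W x * (U x)ᴴ - U' x * (U' x)ᴴ)) - dg κ * dg κ).PosSemidef := by
    rw [dg_mul]
    simpa [dg, sq] using hE
  have hUc : Continuous U := continuous_iff_continuousAt.2 fun x => (hU x).continuousAt
  have hLc : Continuous fun x => cfc (fun y : ℝ => y ^ (2 - (1 + s))) (W x) := continuousOn_univ.1
    (continuousOn_cfc_comp (Real.continuous_rpow_const (by linarith)) hW.continuousOn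
      fun x _ => (hWp x).1)
  have hΩ := (hUc.matrix_mul hLc).matrix_mul hUc.matrix_conjTranspose
  have hΩp : ∀ x, (U x * cfc (fun y : ℝ => y ^ (2 - (1 + s))) (W x) * (U x)ᴴ).PosSemidef :=
    fun x => (cfc_rpow_psd (hWp x) _).mul_mul_conjTranspose_same _
  obtain ⟨c, hc, hcB⟩ := exists_tr_lower hK
  have hsc : ∀ (t : ℝ) (B M : Matrix (Fin N) (Fin N) ℂ),
      tr ((t • B) * M * (t • B)) = t ^ 2 * tr (B * M * B) := fun t B M => by
    rw [smul_mul_assoc, smul_mul_assoc, mul_smul_comm, tr_smul, tr_smul]; ring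
  have hh : ∀ (t : ℝ), ∀ B ∈ Dens (Fin N), (t • B).IsHermitian := fun t B hB =>
    hB.1.1.smul (IsSelfAdjoint.all t)
  have main : ∀ ε : ℝ, 0 < ε → ε < 1 →
      cs s * beta s * ((1 - ε) ^ (2 * s + 1) * ∑ j, κ j ^ (2 * s + 1)) ≤ J := fun ε e0 e1 => by
    obtain ⟨Kf, hKc, hKf⟩ := exists_Kfam hK e0 e1
    have hcost := fun (t : ℝ) B (hB : B ∈ Dens (Fin N)) F =>
      cost (K := dg κ) (hKf B hB).1.1 (hh t B hB) (p := 1 + s) (by linarith) (by linarith) hab.le
        hU hU' Ua Ub hW hWp hG hE' (by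
          rw [hsc, hsc]; exact mul_le_mul_of_nonneg_left (hKf B hB).2.2.1 (sq_nonneg t)) (F := F)
    obtain ⟨B, hB, t, F, hR, Fa, Fb, hm⟩ := exists_critical Kf hKc (fun B hB => (hKf B hB).1)
      (fun B hB => (hKf B hB).2.1) _ hΩ hΩp hab (τ := J / c + 1) (by positivity)
      (fun B hB F hR => by
        have h2 := (hcost _ B hB F hR).1
        rw [hsc] at h2
        have h3 := hcB B hB
        have h4 : 0 ≤ J / c := by positivity
        have h5 : J / c * c = J := by field_simp
        have h6 : J / c + 1 ≤ (J / c + 1) ^ 2 := by nlinarith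
        have h7 := mul_le_mul h6 h3 hc.le (sq_nonneg _)
        linarith)
    have h2 := (hcost t B hB F hR).2
    have h3 := ground (hKf B hB).1 hab.le hR
      ((continuous_const.mul hΩ).mul continuous_const).continuousOn
      (fun x _ => by
        have := (hΩp x).mul_mul_conjTranspose_same (t • B)
        rwa [(hh t B hB).eq] at this) hm Fa Fb h0 h1
    have h4 := trf_mono (f := fun y => y ^ (2 * s + 1))
      (fun x hx y _ hxy => Real.rpow_le_rpow hx hxy (by linarith))
      (convexOn_rpow (by linarith)) (hK.posSemidef.smul (by linarith : 0 ≤ 1 - ε))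
      (hKf B hB).2.2.2
    rw [trf_rpow_smul hK.posSemidef (by linarith), dg, trf_diagonal] at h4
    have h5 : 0 ≤ cs s * beta s := mul_nonneg (by unfold cs; positivity) (beta_pos h0).le
    exact (mul_le_mul_of_nonneg_left h4 h5).trans (h3.trans h2)
  have hlim : Tendsto (fun ε : ℝ => cs s * beta s * ((1 - ε) ^ (2 * s + 1) * ∑ j, κ j ^ (2 * s + 1)))
      (𝓝[>] 0) (𝓝 (cs s * beta s * ∑ j, κ j ^ (2 * s + 1))) := by
    have : Continuous fun ε : ℝ => cs s * beta s * ((1 - ε) ^ (2 * s + 1) * ∑ j, κ j ^ (2 * s + 1)) :=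
      continuous_const.mul (((Real.continuous_rpow_const (by linarith)).comp
        (continuous_const.sub continuous_id)).mul continuous_const)
    have h2 := (this.tendsto 0).mono_left (nhdsWithin_le_nhds (s := Ioi 0))
    simpa using h2
  refine le_of_tendsto hlim ?_
  filter_upwards [Ioo_mem_nhdsGT (zero_lt_one' ℝ)] with ε hε using main ε hε.1 hε.2

end Vale.Agent.P371
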