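import Vale.Agent.P371.Basic

open MeasureTheory Matrix Set
open scoped Matrix.Norms.L2Operator ComplexOrder

namespace Vale.Agent.P371

variable {n m : Type} [Fintype n] [DecidableEq n] [Fintype m] [DecidableEq m]

namespace Cost

/-- entrywise derivative -/
def EntD {a b : Type} (A : ℝ → Matrix a b ℂ) (A' : Matrix a b ℂ) (x : ℝ) : Prop :=
  ∀ i j, HasDerivAt (fun x => A x i j) (A' i j) x

omit [DecidableEq n] in
theorem entD_of {Z : ℝ → Matrix n m ℂ} {Z' : Matrix n m ℂ} {x : ℝ} (hZ : HasDerivAt Z Z' x) :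
    EntD Z Z' x := fun i j => by
  let L : Matrix n m ℂ →L[ℝ] ℂ := LinearMap.toContinuousLinearMap (Matrix.entryLinearMap ℝ ℂ i j)
  exact L.hasFDerivAt.comp_hasDerivAt x hZ

theorem EntD.mul {a b c : Type} [Fintype b] {A : ℝ → Matrix a b ℂ} {B : ℝ → Matrix b c ℂ}
    {A' : Matrix a b ℂ} {B' : Matrix b c ℂ} {x : ℝ} (hA : EntD A A' x) (hB : EntD B B' x) :
    EntD (fun x => A x * B x) (A' * B x + A x * B') x := fun i j => by
  simp only [Matrix.add_apply, Matrix.mul_apply, ← Finset.sum_add_distrib]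
  exact HasDerivAt.fun_sum fun k _ => (hA i k).fun_mul (hB k j)

theorem EntD.ct {a b : Type} {A : ℝ → Matrix a b ℂ} {A' : Matrix a b ℂ} {x : ℝ}
    (hA : EntD A A' x) : EntD (fun x => (A x)ᴴ) A'ᴴ x := fun i j => (hA j i).star

omit [DecidableEq m] in
theorem EntD.tr {A : ℝ → Matrix m m ℂ} {A' : Matrix m m ℂ} {x : ℝ} (hA : EntD A A' x) :
    HasDerivAt (fun x => tr (A x)) (tr A') x := by
  have h : HasDerivAt (fun x => (A x).trace) A'.trace x :=
    HasDerivAt.fun_sum fun k _ => hA k k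
  exact Complex.reCLM.hasFDerivAt.comp_hasDerivAt x h

omit [DecidableEq m] in
theorem continuous_tr : Continuous (tr : Matrix m m ℂ → ℝ) :=
  Complex.continuous_re.comp (continuous_id.matrix_trace)

omit [DecidableEq m] in
theorem tr_add (A B : Matrix m m ℂ) : tr (A + B) = tr A + tr B := by simp [tr]

omit [DecidableEq m] in
theorem tr_sub (A B : Matrix m m ℂ) : tr (A - B) = tr A - tr B := by simp [tr]

omit [DecidableEq n] [DecidableEq m] in
theorem tr_comm (A : Matrix n m ℂ) (B : Matrix m n ℂ) : tr (A * B) = tr (B * A) := by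
  simp only [tr]; rw [trace_mul_comm]

omit [DecidableEq n] [DecidableEq m] in
theorem tr_sq_nonneg (A : Matrix n m ℂ) : 0 ≤ tr (Aᴴ * A) :=
  (Complex.nonneg_iff.1 (posSemidef_conjTranspose_mul_self A).trace_nonneg).1

theorem cont_mul {X : Type} [TopologicalSpace X] {a b c : Type} [Fintype b] {S : Set X}
    {A : X → Matrix a b ℂ} {B : X → Matrix b c ℂ} (hA : ContinuousOn A S)
    (hB : ContinuousOn B S) : ContinuousOn (fun x => A x * B x) S := by
  rw [continuousOn_iff_continuous_domRestrict] at *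
  exact hA.matrix_mul hB

theorem cont_ct {X : Type} [TopologicalSpace X] {a b : Type} {S : Set X}
    {A : X → Matrix a b ℂ} (hA : ContinuousOn A S) : ContinuousOn (fun x => (A x)ᴴ) S := by
  rw [continuousOn_iff_continuous_domRestrict] at *
  exact hA.matrix_conjTranspose

theorem cfc_rpow_mul {W : Matrix m m ℂ} (hW : W.PosSemidef) {s t : ℝ} (hs : 0 < s) (ht : 0 < t) :
    cfc (fun y : ℝ => y ^ s) W * cfc (fun y : ℝ => y ^ t) W = cfc (fun y : ℝ => y ^ (s + t)) W := by
  rw [← cfc_mul _ _ W (Real.continuous_rpow_const hs.le).continuousOn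
    (Real.continuous_rpow_const ht.le).continuousOn]
  refine cfc_congr fun y hy => ?_
  rw [hW.1.spectrum_real_eq_range_eigenvalues] at hy
  obtain ⟨i, rfl⟩ := hy
  exact (Real.rpow_add' (hW.eigenvalues_nonneg i) (by positivity)).symm

theorem cfc_diag {W : Matrix m m ℂ} (hW : W.IsHermitian) (f : ℝ → ℝ) :
    cfc f W = (hW.eigenvectorUnitary : Matrix m m ℂ) *
      diagonal (fun i => ((f (hW.eigenvalues i) : ℝ) : ℂ)) *
        (hW.eigenvectorUnitary : Matrix m m ℂ)ᴴ := by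
  rw [hW.cfc_eq]; rfl

theorem unit_left {W : Matrix m m ℂ} (hW : W.IsHermitian) :
    (hW.eigenvectorUnitary : Matrix m m ℂ)ᴴ * (hW.eigenvectorUnitary : Matrix m m ℂ) = 1 :=
  hW.eigenvectorUnitary.2.1

theorem unit_right {W : Matrix m m ℂ} (hW : W.IsHermitian) :
    (hW.eigenvectorUnitary : Matrix m m ℂ) * (hW.eigenvectorUnitary : Matrix m m ℂ)ᴴ = 1 :=
  hW.eigenvectorUnitary.2.2

theorem trf_eq {W : Matrix m m ℂ} (hW : W.IsHermitian) (f : ℝ → ℝ) :
    trf f W = ∑ i, f (hW.eigenvalues i) := by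
  rw [trf, cfc_diag hW, tr_comm, ← Matrix.mul_assoc, unit_left, Matrix.one_mul]
  simp [tr]

theorem scalar {p : ℝ} (h1 : 1 < p) (h2 : p < 2) {μ w t : ℝ} (hμ : 0 < μ) (hw : 0 ≤ w)
    (ht : 0 ≤ t) : t * w ^ (2 - p) / μ * μ ^ p ≤
      p / 2 * (μ * t) + (1 - p / 2) * (t * w ^ (2 - p) / μ * w ^ p) := by
  rcases hw.eq_or_lt with rfl | hw
  · rw [Real.zero_rpow (by linarith)]
    simp only [mul_zero, zero_div, zero_mul, add_zero]
    positivity
  have hl : 0 < w ^ (2 - p) := Real.rpow_pos_of_pos hw _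
  have h := Real.geom_mean_le_arith_mean2_weighted (w₁ := p / 2) (w₂ := 1 - p / 2)
    (p₁ := μ ^ 2 / w ^ (2 - p)) (p₂ := w ^ p) (by linarith) (by linarith) (by positivity)
    (by positivity) (by ring)
  have e : (μ ^ 2 / w ^ (2 - p)) ^ (p / 2) * (w ^ p) ^ (1 - p / 2) = μ ^ p := by
    rw [Real.div_rpow (by positivity) hl.le, ← Real.rpow_mul hw.le, ← Real.rpow_mul hw.le,
      ← Real.rpow_natCast, ← Real.rpow_mul hμ.le]
    have e1 : (2 - p) * (p / 2) = p * (1 - p / 2) := by ring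
    have e2 : ((2 : ℕ) : ℝ) * (p / 2) = p := by push_cast; ring
    rw [e1, e2, div_mul_cancel₀ _ (Real.rpow_pos_of_pos hw _).ne']
  rw [e] at h
  have h3 := mul_le_mul_of_nonneg_left h (by positivity : 0 ≤ t * w ^ (2 - p) / μ)
  refine h3.trans (le_of_eq ?_)
  field_simp

/-- Bessel inequality -/
theorem bessel (Y : Matrix n m ℂ) (l : m → ℝ) (hl : ∀ k, 0 ≤ l k) (μ : n → ℝ)
    (h : Y * diagonal (fun k => (l k : ℂ)) * Yᴴ = diagonal fun i => (μ i : ℂ)) (k : m) :
    ∑ i, Complex.normSq (Y i k) * l k / μ i ≤ 1 := by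
  set N : Matrix m m ℂ := Yᴴ * diagonal (fun i => (((μ i)⁻¹ : ℝ) : ℂ)) * Y with hN
  have h1 : N * diagonal (fun k => (l k : ℂ)) * N = N := by
    have e : N * diagonal (fun k => (l k : ℂ)) * N = Yᴴ * (diagonal (fun i => (((μ i)⁻¹ : ℝ) : ℂ)) *
        (Y * diagonal (fun k => (l k : ℂ)) * Yᴴ) * diagonal (fun i => (((μ i)⁻¹ : ℝ) : ℂ))) * Y := by
      simp only [hN, Matrix.mul_assoc]
    rw [e, h, diagonal_mul_diagonal, diagonal_mul_diagonal, hN]
    congr 3
    funext i
    rw [← Complex.ofReal_mul, ← Complex.ofReal_mul]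
    congr 1
    by_cases h0 : μ i = 0
    · simp [h0]
    · field_simp
  have h2 : Nᴴ = N := by
    simp only [hN, conjTranspose_mul, conjTranspose_conjTranspose, diagonal_conjTranspose,
      Matrix.mul_assoc]
    congr 3
    funext i
    simp
  set s : ℝ := ∑ i, Complex.normSq (Y i k) / μ i with hs
  have h3 : N k k = (s : ℂ) := by
    simp only [hN, hs, Matrix.mul_apply, conjTranspose_apply, diagonal_apply]
    push_cast
    refine Finset.sum_congr rfl fun i _ => ?_
    rw [Complex.normSq_eq_conj_mul_self]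
    simp
    ring
  have h4 : s = ∑ j, Complex.normSq (N j k) * l j := by
    have e := congrFun (congrFun h1 k) k
    rw [h3, Matrix.mul_apply] at e
    apply Complex.ofReal_injective
    rw [← e]
    push_cast
    refine Finset.sum_congr rfl fun j _ => ?_
    rw [mul_diagonal, Complex.normSq_eq_conj_mul_self]
    have : N k j = (starRingEnd ℂ) (N j k) := by
      conv_lhs => rw [← h2]
      rfl
    rw [this]; ring
  have h5 : Complex.normSq (N k k) * l k ≤ s := by
    rw [h4]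
    exact Finset.single_le_sum (f := fun j => Complex.normSq (N j k) * l j)
      (fun j _ => mul_nonneg (Complex.normSq_nonneg _) (hl j)) (Finset.mem_univ k)
  rw [h3, Complex.normSq_ofReal] at h5
  have e : ∑ i, Complex.normSq (Y i k) * l k / μ i = s * l k := by
    rw [hs, Finset.sum_mul]
    exact Finset.sum_congr rfl fun i _ => by ring
  rw [e]
  by_contra hc
  have h6 : 1 < s * l k := not_le.1 hc
  have h7 : 0 < s := by
    by_contra h8
    have := mul_nonpos_of_nonpos_of_nonneg (not_lt.1 h8) (hl k)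
    linarith
  nlinarith

theorem core {p : ℝ} (h1 : 1 < p) (h2 : p < 2) (Y : Matrix n m ℂ) (w : m → ℝ) (hw : ∀ k, 0 ≤ w k)
    (μ : n → ℝ) (hμ : ∀ i, 0 ≤ μ i)
    (h : Y * diagonal (fun k => ((w k ^ (2 - p) : ℝ) : ℂ)) * Yᴴ = diagonal fun i => (μ i : ℂ)) :
    ∑ i, μ i ^ p ≤ p / 2 * ∑ i, ∑ k, μ i * Complex.normSq (Y i k) +
      (1 - p / 2) * ∑ k, w k ^ p := by
  have hrow : ∀ i, ∑ k, Complex.normSq (Y i k) * w k ^ (2 - p) = μ i := by
    intro i
    have e := congrFun (congrFun h i) i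
    rw [Matrix.mul_apply, diagonal_apply_eq] at e
    apply Complex.ofReal_injective
    rw [← e, Complex.ofReal_sum]
    refine Finset.sum_congr rfl fun k _ => ?_
    rw [mul_diagonal, Complex.ofReal_mul, Complex.normSq_eq_conj_mul_self, conjTranspose_apply,
      Complex.star_def]
    ring
  have hi : ∀ i, μ i ^ p ≤ ∑ k, (p / 2 * (μ i * Complex.normSq (Y i k)) +
      (1 - p / 2) * (Complex.normSq (Y i k) * w k ^ (2 - p) / μ i * w k ^ p)) := by
    intro i
    rcases (hμ i).eq_or_lt with h0 | h0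
    · rw [← h0, Real.zero_rpow (by linarith)]; simp
    · refine le_trans (le_of_eq ?_) (Finset.sum_le_sum fun k _ =>
        scalar h1 h2 h0 (hw k) (Complex.normSq_nonneg (Y i k)))
      rw [← Finset.sum_mul, ← Finset.sum_div, hrow, div_self h0.ne', one_mul]
  refine (Finset.sum_le_sum fun i _ => hi i).trans ?_
  simp only [Finset.sum_add_distrib, ← Finset.mul_sum]
  refine add_le_add le_rfl (mul_le_mul_of_nonneg_left ?_ (by linarith))
  rw [Finset.sum_comm]
  refine Finset.sum_le_sum fun k _ => ?_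
  rw [← Finset.sum_mul]
  exact mul_le_of_le_one_left (Real.rpow_nonneg (hw k) _)
    (bessel Y _ (fun k => Real.rpow_nonneg (hw k) _) μ h k)

end Cost

open Cost

/-- completing the square -/
theorem ric_form {K : Matrix n n ℂ} {V F : ℝ → Matrix n n ℂ} {a b : ℝ} (hab : a ≤ b)
    (hR : Ric K V F a b) (hV : ContinuousOn V (Icc a b))
    {Z Z' : ℝ → Matrix n m ℂ} (hZ : ∀ x, HasDerivAt Z (Z' x) x) (hZ' : Continuous Z')
    (Za : Z a = 0) (Zb : Z b = 0) :
    ∫ x in a..b, tr ((Z x)ᴴ * V x * Z x) ≤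
      ∫ x in a..b, (tr ((Z' x)ᴴ * Z' x) + tr ((Z x)ᴴ * (K * K) * Z x)) := by
  have cZ : ContinuousOn Z (Icc a b) := fun x _ => (hZ x).continuousAt.continuousWithinAt
  have cZ' : ContinuousOn Z' (Icc a b) := hZ'.continuousOn
  have cF : ContinuousOn F (Icc a b) := fun x hx => (hR x hx).2.continuousAt.continuousWithinAt
  have hint : ∀ {A : ℝ → Matrix m m ℂ}, ContinuousOn A (Icc a b) →
      IntervalIntegrable (fun x => tr (A x)) volume a b := fun hA =>
    (continuous_tr.comp_continuousOn hA).intervalIntegrable_of_Icc hab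
  set G' : ℝ → Matrix m m ℂ := fun x => ((Z' x)ᴴ * F x + (Z x)ᴴ * (K * K - F x * F x - V x)) * Z x
    + (Z x)ᴴ * F x * Z' x with hG'
  have cG : ContinuousOn G' (Icc a b) :=
    (cont_mul ((cont_mul (cont_ct cZ') cF).add (cont_mul (cont_ct cZ)
      ((continuousOn_const.sub (cont_mul cF cF)).sub hV))) cZ).add
      (cont_mul (cont_mul (cont_ct cZ) cF) cZ')
  have hd : ∀ x ∈ uIcc a b, HasDerivAt (fun x => tr ((Z x)ᴴ * F x * Z x)) (tr (G' x)) x := by
    intro x hx
    rw [uIcc_of_le hab] at hx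
    exact (((entD_of (hZ x)).ct.mul (entD_of (hR x hx).2)).mul (entD_of (hZ x))).tr
  have h0 : ∫ x in a..b, tr (G' x) = 0 := by
    rw [intervalIntegral.integral_eq_sub_of_hasDerivAt hd (hint cG), Za, Zb]
    simp [tr]
  have i1 := hint (cont_mul (cont_mul (cont_ct cZ) hV) cZ)
  have i2 := (hint (cont_mul (cont_ct cZ') cZ')).add
    (hint (cont_mul (cont_mul (cont_ct cZ) (continuousOn_const (c := K * K))) cZ))
  rw [← add_zero (∫ x in a..b, tr ((Z x)ᴴ * V x * Z x)), ← h0,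
    ← intervalIntegral.integral_add i1 (hint cG)]
  refine intervalIntegral.integral_mono_on hab (i1.add (hint cG)) i2 fun x hx => ?_
  have h1 := tr_sq_nonneg (Z' x - F x * Z x)
  have h2 : (F x)ᴴ = F x := (hR x hx).1
  simp only [hG', conjTranspose_sub, conjTranspose_mul, h2, Matrix.sub_mul, Matrix.mul_sub,
    Matrix.add_mul, tr_add, tr_sub, Matrix.mul_assoc] at h1 ⊢
  linarith

theorem tr_young₁ {p : ℝ} (h1 : 1 < p) (h2 : p < 2) {W σ : Matrix m m ℂ} (hW : W.PosSemidef)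
    (hσ : σ.IsHermitian) :
    tr (σ * W) ≤ (tr (σ * cfc (fun y : ℝ => y ^ (2 - p)) W * σ) + trf (fun y => y ^ p) W) / 2 := by
  set A := cfc (fun y : ℝ => y ^ (1 - p / 2)) W with hA
  set B := cfc (fun y : ℝ => y ^ (p / 2)) W with hB
  have hA' : Aᴴ = A := cfc_predicate (fun y : ℝ => y ^ (1 - p / 2)) W
  have hB' : Bᴴ = B := cfc_predicate (fun y : ℝ => y ^ (p / 2)) W
  have hσ' : σᴴ = σ := hσ
  have hid : cfc (fun y : ℝ => y ^ (1 : ℝ)) W = W := by
    simp only [Real.rpow_one]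
    exact cfc_id' ℝ W hW.1
  have e1 : A * A = cfc (fun y : ℝ => y ^ (2 - p)) W := by
    rw [cfc_rpow_mul hW (by linarith) (by linarith),
      (by ring : 1 - p / 2 + (1 - p / 2) = 2 - p)]
  have e2 : B * B = cfc (fun y : ℝ => y ^ p) W := by
    rw [cfc_rpow_mul hW (by linarith) (by linarith), add_halves]
  have e3 : A * B = W := by
    rw [cfc_rpow_mul hW (by linarith) (by linarith), sub_add_cancel, hid]
  have e4 : B * A = W := by
    rw [cfc_rpow_mul hW (by linarith) (by linarith), add_sub_cancel, hid]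
  have h := tr_sq_nonneg (A * σ - B)
  have e5 : (A * σ - B)ᴴ * (A * σ - B) = σ * (A * A) * σ - σ * (A * B) - (B * A) * σ + B * B := by
    rw [conjTranspose_sub, conjTranspose_mul, hA', hB', hσ']
    noncomm_ring
  rw [e5, e1, e2, e3, e4, tr_add, tr_sub, tr_sub, tr_comm W σ] at h
  rw [trf]
  linarith

theorem tr_young₂ {p : ℝ} (h1 : 1 < p) (h2 : p < 2) {W : Matrix m m ℂ} (hW : W.PosSemidef)
    (Z : Matrix n m ℂ) :
    trf (fun y => y ^ p) (Z * cfc (fun y : ℝ => y ^ (2 - p)) W * Zᴴ) ≤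
      p / 2 * tr (Zᴴ * Z * cfc (fun y : ℝ => y ^ (2 - p)) W * (Zᴴ * Z)) +
        (1 - p / 2) * trf (fun y => y ^ p) W := by
  set L := cfc (fun y : ℝ => y ^ (2 - p)) W with hL
  have hLd := cfc_diag hW.1 (fun y : ℝ => y ^ (2 - p))
  rw [← hL] at hLd
  have hLp : L.PosSemidef := by
    rw [hLd]
    refine PosSemidef.mul_mul_conjTranspose_same (PosSemidef.diagonal fun i => ?_) _
    exact Complex.zero_le_real.2 (Real.rpow_nonneg (hW.eigenvalues_nonneg i) _)
  have hM : (Z * L * Zᴴ).PosSemidef := hLp.mul_mul_conjTranspose_same Z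
  have hid : cfc (fun y : ℝ => y) (Z * L * Zᴴ) = Z * L * Zᴴ := cfc_id' ℝ _ hM.1
  have hMd := hid.symm.trans (cfc_diag hM.1 (fun y : ℝ => y))
  set U := (hW.1.eigenvectorUnitary : Matrix m m ℂ) with hU
  set T := (hM.1.eigenvectorUnitary : Matrix n n ℂ) with hT
  have hT1 : Tᴴ * T = 1 := unit_left hM.1
  have hU2 : U * Uᴴ = 1 := unit_right hW.1
  have hY : (Tᴴ * Z * U) * diagonal (fun k => ((hW.1.eigenvalues k ^ (2 - p) : ℝ) : ℂ)) *
      (Tᴴ * Z * U)ᴴ = diagonal fun i => (hM.1.eigenvalues i : ℂ) := by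
    have e : (Tᴴ * Z * U) * diagonal (fun k => ((hW.1.eigenvalues k ^ (2 - p) : ℝ) : ℂ)) *
        (Tᴴ * Z * U)ᴴ = Tᴴ * (Z * (U * diagonal
          (fun k => ((hW.1.eigenvalues k ^ (2 - p) : ℝ) : ℂ)) * Uᴴ) * Zᴴ) * T := by
      simp only [conjTranspose_mul, conjTranspose_conjTranspose, Matrix.mul_assoc]
    rw [e, ← hLd]
    conv_lhs => rw [hMd]
    rw [← Matrix.mul_assoc, ← Matrix.mul_assoc, hT1, Matrix.one_mul, Matrix.mul_assoc, hT1,
      Matrix.mul_one]
  have hc := core h1 h2 _ _ hW.eigenvalues_nonneg _ hM.eigenvalues_nonneg hY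
  have e2 : tr (Zᴴ * Z * L * (Zᴴ * Z))
      = ∑ i, ∑ k, hM.1.eigenvalues i * Complex.normSq ((Tᴴ * Z * U) i k) := by
    have e3 : tr (Zᴴ * Z * L * (Zᴴ * Z)) = tr (Z * L * Zᴴ * (Z * Zᴴ)) := by
      rw [Matrix.mul_assoc Zᴴ, Matrix.mul_assoc Zᴴ, tr_comm]
      simp only [Matrix.mul_assoc]
    have e4 : (Tᴴ * Z * U) * (Tᴴ * Z * U)ᴴ = Tᴴ * (Z * Zᴴ) * T := by
      simp only [conjTranspose_mul, conjTranspose_conjTranspose, Matrix.mul_assoc]
      rw [← Matrix.mul_assoc U, hU2, Matrix.one_mul]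
    have e5 : tr (Z * L * Zᴴ * (Z * Zᴴ)) = tr (diagonal (fun i => (hM.1.eigenvalues i : ℂ)) *
        ((Tᴴ * Z * U) * (Tᴴ * Z * U)ᴴ)) := by
      conv_lhs => rw [hMd]
      rw [e4, Matrix.mul_assoc, Matrix.mul_assoc, tr_comm]
      simp only [Matrix.mul_assoc]
    rw [e3, e5]
    generalize Tᴴ * Z * U = Y
    simp only [tr, trace, diag_apply, diagonal_mul, Complex.re_sum]
    refine Finset.sum_congr rfl fun i _ => ?_
    rw [Complex.re_ofReal_mul, Matrix.mul_apply, Complex.re_sum, Finset.mul_sum]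
    refine Finset.sum_congr rfl fun k _ => ?_
    have e6 : Y i k * Yᴴ k i = (Complex.normSq (Y i k) : ℂ) := Complex.mul_conj _
    rw [e6, Complex.ofReal_re]
  rw [trf_eq hM.1, trf_eq hW.1, e2]
  exact hc

/-- continuity of `x ↦ f (W x)` for a continuous Hermitian `W` and continuous `f` -/
theorem continuousOn_cfc_comp {X : Type} [TopologicalSpace X] {S : Set X} {f : ℝ → ℝ}
    (hf : Continuous f) {W : X → Matrix m m ℂ} (hW : ContinuousOn W S)
    (hh : ∀ x ∈ S, (W x).IsHermitian) : ContinuousOn (fun x => cfc f (W x)) S :=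
  hW.cfc_of_mem_nhdsSet (s := univ) f (by simp) hh hf.continuousOn

end Vale.Agent.P371
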