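import Mathlib

open MeasureTheory Matrix
open scoped ComplexOrder

namespace Vale.Agent.P371

/-- `tr (A ^ p)` by functional calculus (unnormalized trace). -/
noncomputable def trPow {m : ℕ} (p : ℝ) (A : Matrix (Fin m) (Fin m) ℂ) : ℝ :=
  (Matrix.trace (cfc (fun y : ℝ => y ^ p) A)).re

/-- A potential: measurable, positive semidefinite values, `tr W ^ p` integrable. -/
structure IsPotential {m : ℕ} (p : ℝ) (W : ℝ → Matrix (Fin m) (Fin m) ℂ) : Prop where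
  meas : ∀ i j, Measurable fun x => W x i j
  psd : ∀ x, (W x).PosSemidef
  int : Integrable fun x => trPow p (W x)

/-- `u` lies in `H^1(ℝ; ℂ^m)` (absolutely continuous representative) with derivative `v`. -/
structure IsH1 {m : ℕ} (u v : ℝ → Fin m → ℂ) : Prop where
  memLp : MemLp u 2
  memLp_deriv : MemLp v 2
  ftc : ∀ x y, u y - u x = ∫ t in x..y, v t

/-- The `L^2(ℝ; ℂ^m)` inner product. -/
noncomputable def ip {m : ℕ} (f g : ℝ → Fin m → ℂ) : ℂ := ∫ x, star (f x) ⬝ᵥ g x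

/-- `u` (with derivative `v`) is an eigenfunction, with eigenvalue `e`, of the operator of the
form `∫ |ψ'|^2 - ∫ ⟨ψ, W ψ⟩` on `H^1`. -/
structure IsEigen {m : ℕ} (W : ℝ → Matrix (Fin m) (Fin m) ℂ) (e : ℝ) (u v : ℝ → Fin m → ℂ) :
    Prop where
  h1 : IsH1 u v
  eq : ∀ f g, IsH1 f g → ip g v - ip f (fun x => W x *ᵥ u x) = e * ip f u

/-- `e 0, ..., e (N-1)` are negative eigenvalues of `H_W` with orthonormal eigenfunctions. -/
def NegEigs {m : ℕ} (W : ℝ → Matrix (Fin m) (Fin m) ℂ) {N : ℕ} (e : Fin N → ℝ) : Prop :=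
  ∃ u v : Fin N → ℝ → Fin m → ℂ, (∀ j, e j < 0) ∧ (∀ j, IsEigen W (e j) (u j) (v j)) ∧
    ∀ j k, ip (u j) (u k) = if j = k then 1 else 0

/-- `Tr (H_W)_-^γ`: the sum of `|λ|^γ` over the negative eigenvalues with multiplicity. -/
noncomputable def rieszMean {m : ℕ} (γ : ℝ) (W : ℝ → Matrix (Fin m) (Fin m) ℂ) : ENNReal :=
  ⨆ (N : ℕ) (e : Fin N → ℝ) (_ : NegEigs W e), ENNReal.ofReal (∑ j, |e j| ^ γ)

/-- The Lieb-Thirring constant `L_γ(m)`. -/
noncomputable def LT (γ : ℝ) (m : ℕ) : ENNReal :=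
  ⨆ (W : ℝ → Matrix (Fin m) (Fin m) ℂ) (_ : IsPotential (γ + 1 / 2) W)
    (_ : ¬ W =ᵐ[volume] 0),
    rieszMean γ W / ENNReal.ofReal (∫ x, trPow (γ + 1 / 2) (W x))

/-- The semiclassical constant. -/
noncomputable def Lcl (γ : ℝ) : ℝ :=
  Real.Gamma (γ + 1) / (2 * Real.sqrt Real.pi * Real.Gamma (γ + 3 / 2))

/-- The one-bound-state constant. -/
noncomputable def Lone (γ : ℝ) : ℝ := 2 * ((γ - 1 / 2) / (γ + 1 / 2)) ^ (γ - 1 / 2) * Lcl γ

end Vale.Agent.P371
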