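import Vale.Agent.P371.Scalar

open MeasureTheory Set Filter Topology

namespace Vale.Agent.P371

theorem intervalIntegrable_of_memLp {E : Type} [NormedAddCommGroup E] {g : ℝ → E}
    (hg : MemLp g 2) (a b : ℝ) : IntervalIntegrable g volume a b :=
  intervalIntegrable_iff.2
    (((hg.locallyIntegrable one_le_two).integrableOn_isCompact isCompact_uIcc).mono_set
      uIoc_subset_uIcc)

/-- integration by parts on an interval against a `C^1` function -/
theorem ibp_interval {f g h h' : ℝ → ℝ} (hg : MemLp g 2)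
    (hfg : ∀ x y, f y - f x = ∫ t in x..y, g t) (hh : ∀ x, HasDerivAt h (h' x) x)
    (hh' : Continuous h') (a b : ℝ) :
    ∫ x in a..b, (g x * h x + f x * h' x) = f b * h b - f a * h a := by
  have ef : f = fun x => f a + ∫ t in a..x, g t := by
    funext x; rw [← hfg a x]; ring
  have hd : deriv h = h' := funext fun x => (hh x).deriv
  have hac : AbsolutelyContinuousOnInterval h a b := by
    refine ContDiffOn.absolutelyContinuousOnInterval (ContDiff.contDiffOn ?_)
    exact contDiff_one_iff_deriv.2 ⟨fun x => (hh x).differentiableAt, hd ▸ hh'⟩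
  have fac : AbsolutelyContinuousOnInterval f a b := by
    rw [ef]
    refine AbsolutelyContinuousOnInterval.add (f := fun _ => f a)
      (ContDiffOn.absolutelyContinuousOnInterval contDiffOn_const) ?_
    exact (intervalIntegrable_of_memLp hg a b).absolutelyContinuousOnInterval_intervalIntegral
      left_mem_uIcc
  rw [← fac.integral_deriv_mul_eq_sub hac, hd]
  refine intervalIntegral.integral_congr_ae ?_
  filter_upwards [_root_.LocallyIntegrable.ae_hasDerivAt_integral (hg.locallyIntegrable one_le_two)]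
    with x hx _
  have : HasDerivAt f (g x) x := by
    rw [ef]; exact (hx a).const_add _
  rw [this.deriv]

/-- integration by parts on the line -/
theorem ibp_line {f g h h' : ℝ → ℝ} (hf : MemLp f 2) (hg : MemLp g 2)
    (hfg : ∀ x y, f y - f x = ∫ t in x..y, g t) (hh : ∀ x, HasDerivAt h (h' x) x)
    (hh' : Continuous h') (h2 : MemLp h 2) (h2' : MemLp h' 2) :
    ∫ x, (g x * h x + f x * h' x) = 0 := by
  have i1 : Integrable fun x => g x * h x + f x * h' x :=
    (hg.integrable_mul h2).add (hf.integrable_mul h2')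
  have i2 : Integrable fun x => f x * h x := hf.integrable_mul h2
  have i3 : Integrable fun x => f x * h x - f (-x) * h (-x) := i2.sub i2.comp_neg
  have t1 := intervalIntegral_tendsto_integral i1 tendsto_neg_atTop_atBot tendsto_id
  simp only [ibp_interval hg hfg hh hh', id] at t1
  refine IntegrableAtFilter.eq_zero_of_tendsto (i3.integrableAtFilter atTop) ?_ t1
  intro s hs
  obtain ⟨c, hc⟩ := mem_atTop_sets.1 hs
  refine top_unique (le_trans ?_ (measure_mono (show Ici c ⊆ s from hc)))
  simp

theorem ibp_vec {E : Type} [NormedAddCommGroup E] [NormedSpace ℝ E] [CompleteSpace E]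
    {f g : ℝ → E} {h h' : ℝ → ℝ} (hf : MemLp f 2) (hg : MemLp g 2)
    (hfg : ∀ x y, f y - f x = ∫ t in x..y, g t) (hh : ∀ x, HasDerivAt h (h' x) x)
    (hh' : Continuous h') (h2 : MemLp h 2) (h2' : MemLp h' 2) (T : E →L[ℝ] ℂ) :
    ∫ x, (T (g x) * h x + T (f x) * h' x) = 0 := by
  have key : ∀ L : E →L[ℝ] ℝ, ∫ x, (L (g x) * h x + L (f x) * h' x) = 0 := fun L =>
    ibp_line (f := fun x => L (f x)) (g := fun x => L (g x)) (L.comp_memLp' hf) (L.comp_memLp' hg)
      (fun x y => by
        rw [← map_sub, hfg, L.intervalIntegral_comp_comm (intervalIntegrable_of_memLp hg x y)])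
      hh hh' h2 h2'
  have i1 : Integrable fun x => T (g x) * h x + T (f x) * h' x :=
    ((T.comp_memLp' hg).integrable_mul h2.ofReal).add
      ((T.comp_memLp' hf).integrable_mul h2'.ofReal)
  apply Complex.ext
  · have := key (Complex.reCLM.comp T)
    rw [← Complex.reCLM_apply, ← Complex.reCLM.integral_comp_comm i1]
    simpa using this
  · have := key (Complex.imCLM.comp T)
    rw [← Complex.imCLM_apply, ← Complex.imCLM.integral_comp_comm i1]
    simpa using this

theorem continuous_cosh_rpow (p : ℝ) : Continuous fun x => Real.cosh x ^ p :=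
  Real.continuous_cosh.rpow_const fun x => Or.inl (Real.cosh_pos x).ne'

theorem cosh_rpow_le {p x y : ℝ} (hp : 0 < p) (h : Real.exp y / 2 ≤ Real.cosh x) :
    ‖Real.cosh x ^ (-p)‖ ≤ 2 ^ p * Real.exp (-p * y) := by
  rw [Real.norm_of_nonneg (Real.rpow_nonneg (Real.cosh_pos x).le _)]
  refine (Real.rpow_le_rpow_of_nonpos (by positivity) h (by linarith)).trans (le_of_eq ?_)
  rw [Real.div_rpow (Real.exp_pos y).le zero_le_two, ← Real.exp_mul, Real.rpow_neg zero_le_two,
    mul_comm y, div_inv_eq_mul, mul_comm]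

theorem integrable_cosh_rpow {p : ℝ} (hp : 0 < p) : Integrable fun x => Real.cosh x ^ (-p) := by
  rw [← integrableOn_univ, ← Iic_union_Ioi (a := (0 : ℝ))]
  refine IntegrableOn.union ?_ ?_
  · refine Integrable.mono' ((integrableOn_exp_mul_Iic hp 0).const_mul (2 ^ p))
      (continuous_cosh_rpow _).aestronglyMeasurable (Eventually.of_forall fun x => ?_)
    have := cosh_rpow_le (x := x) (y := -x) hp (by
      rw [Real.cosh_eq]; have := Real.exp_pos x; linarith)
    rwa [neg_mul_neg] at this
  · refine Integrable.mono' ((integrableOn_exp_mul_Ioi (neg_lt_zero.2 hp) 0).const_mul (2 ^ p))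
      (continuous_cosh_rpow _).aestronglyMeasurable (Eventually.of_forall fun x => ?_)
    exact cosh_rpow_le (x := x) (y := x) hp (by
      rw [Real.cosh_eq]; have := Real.exp_pos (-x); linarith)

theorem cosh_rpow_sq (p x : ℝ) : (Real.cosh x ^ (-p)) ^ 2 = Real.cosh x ^ (-(2 * p)) := by
  rw [← Real.rpow_two, ← Real.rpow_mul (Real.cosh_pos x).le]; congr 1; ring

theorem memLp_cosh_rpow {p : ℝ} (hp : 0 < p) : MemLp (fun x => Real.cosh x ^ (-p)) 2 := by
  rw [memLp_two_iff_integrable_sq (continuous_cosh_rpow _).aestronglyMeasurable]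
  simp only [cosh_rpow_sq]
  exact integrable_cosh_rpow (by linarith)

theorem memLp_of_le_cosh {p C : ℝ} (hp : 0 < p) {k : ℝ → ℝ} (hk : Continuous k)
    (hC : ∀ x, |k x| ≤ C) : MemLp (fun x => k x * Real.cosh x ^ (-p)) 2 := by
  refine (memLp_cosh_rpow hp).of_le_mul (c := C)
    (hk.mul (continuous_cosh_rpow _)).aestronglyMeasurable (Eventually.of_forall fun x => ?_)
  rw [norm_mul]
  exact mul_le_mul_of_nonneg_right (hC x) (norm_nonneg _)

theorem hasDerivAt_tanh' (x : ℝ) : HasDerivAt Real.tanh (1 / Real.cosh x ^ 2) x := by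
  have h := (Real.hasDerivAt_sinh x).div (Real.hasDerivAt_cosh x) (Real.cosh_pos x).ne'
  have e : Real.tanh = Real.sinh / Real.cosh := funext fun y => Real.tanh_eq_sinh_div_cosh y
  rw [e]
  refine h.congr_deriv ?_
  congr 1
  have := Real.cosh_sq x
  linarith

theorem continuous_tanh' : Continuous Real.tanh :=
  continuous_iff_continuousAt.2 fun x => (hasDerivAt_tanh' x).continuousAt

theorem one_sub_tanh_sq (x : ℝ) : 1 - Real.tanh x ^ 2 = 1 / Real.cosh x ^ 2 := by
  have := (Real.cosh_pos x).ne'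
  rw [Real.tanh_eq_sinh_div_cosh]
  field_simp
  rw [Real.cosh_sq]; ring

theorem sech_sq_rpow (q x : ℝ) : (1 / Real.cosh x ^ 2) ^ q = Real.cosh x ^ (-(2 * q)) := by
  have hc := (Real.cosh_pos x).le
  rw [one_div, ← Real.rpow_two, ← Real.rpow_neg hc, ← Real.rpow_mul hc, neg_mul]

theorem integral_sech_sq_rpow (s : ℝ) : ∫ x, (1 / Real.cosh x ^ 2) ^ (1 + s) = beta s := by
  have h := integral_image_eq_integral_abs_deriv_smul (s := univ) MeasurableSet.univ
    (fun x _ => (hasDerivAt_tanh' x).hasDerivWithinAt) Real.tanh_injective.injOn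
    (fun u : ℝ => (1 - u ^ 2) ^ s)
  rw [Real.tanh_bijOn.image_eq, Measure.restrict_univ] at h
  rw [beta, intervalIntegral.integral_of_le (by norm_num), integral_Ioc_eq_integral_Ioo, h]
  refine integral_congr_ae (Eventually.of_forall fun x => ?_)
  have hp : 0 < 1 / Real.cosh x ^ 2 := by have := Real.cosh_pos x; positivity
  simp only [smul_eq_mul]
  rw [one_sub_tanh_sq, abs_of_pos hp, Real.rpow_add hp, Real.rpow_one]

theorem hasDerivAt_cosh_rpow (p x : ℝ) :
    HasDerivAt (fun x => Real.cosh x ^ (-p)) (-p * Real.tanh x * Real.cosh x ^ (-p)) x := by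
  have hc := (Real.cosh_pos x).ne'
  refine ((Real.hasDerivAt_cosh x).rpow_const (p := -p) (Or.inl hc)).congr_deriv ?_
  rw [Real.rpow_sub_one hc, Real.tanh_eq_sinh_div_cosh]; ring

theorem hasDerivAt_cosh_rpow₂ (p c x : ℝ) :
    HasDerivAt (fun x => c * (-p * Real.tanh x) * Real.cosh x ^ (-p))
      (c * (p ^ 2 - p * (p + 1) * (1 / Real.cosh x ^ 2)) * Real.cosh x ^ (-p)) x := by
  have h := ((((hasDerivAt_tanh' x).const_mul (-p)).const_mul c)).mul (hasDerivAt_cosh_rpow p x)
  refine h.congr_deriv ?_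
  rw [← one_sub_tanh_sq]; ring

theorem sech_sq_le (x : ℝ) : 0 < 1 / Real.cosh x ^ 2 ∧ 1 / Real.cosh x ^ 2 ≤ 1 := by
  have hc := Real.cosh_pos x
  refine ⟨by positivity, ?_⟩
  rw [← one_sub_tanh_sq]
  nlinarith [sq_nonneg (Real.tanh x)]

theorem continuous_sech_sq : Continuous fun x => 1 / Real.cosh x ^ 2 :=
  continuous_const.div (Real.continuous_cosh.pow 2) fun x => (pow_pos (Real.cosh_pos x) 2).ne'

end Vale.Agent.P371
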