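import Vale.Agent.P371.Scalar
import Vale.Agent.P371.ExampleAux
import Vale.Agent.P371.Kfam

open MeasureTheory Matrix Set

namespace Vale.Agent.P371

open scoped ComplexOrder

/-- conjugate of a coordinate, as a real linear map -/
noncomputable def conjCoord {m : ℕ} (i : Fin m) : (Fin m → ℂ) →L[ℝ] ℂ :=
  Complex.conjCLE.toContinuousLinearMap.comp (ContinuousLinearMap.proj i)

theorem star_dot_single {m : ℕ} (i : Fin m) (z : Fin m → ℂ) (r : ℝ) :
    star z ⬝ᵥ (r • (Pi.single i 1 : Fin m → ℂ)) = conjCoord i z * r := by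
  rw [dotProduct_smul, dotProduct_single_one, mul_comm]
  rfl

theorem conjCoord_single {m : ℕ} (i : Fin m) (r : ℝ) :
    conjCoord i (r • (Pi.single i 1 : Fin m → ℂ)) = r := by
  simp [conjCoord]

theorem diag_mulVec_single {m : ℕ} (i : Fin m) (w r : ℝ) :
    (diagonal fun j => ((if j = i then w else 0 : ℝ) : ℂ)) *ᵥ (r • (Pi.single i 1 : Fin m → ℂ)) =
      (w * r) • (Pi.single i 1 : Fin m → ℂ) := by
  funext j
  rw [mulVec_diagonal]
  by_cases h : j = i
  · subst h; simp
  · simp [h]

theorem memLp_smul_vec {E : Type} [NormedAddCommGroup E] [NormedSpace ℝ E] {k : ℝ → ℝ}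
    (hk : MemLp k 2) (e : E) : MemLp (fun x => k x • e) 2 :=
  (ContinuousLinearMap.toSpanSingleton ℝ e).comp_memLp' hk

/-- The Poschl-Teller potential `s (s+1) sech^2` in the first channel attains the constant. -/
theorem exists_example {m : ℕ} (hm : 1 ≤ m) {s : ℝ} (h0 : 0 < s) (h1 : s < 1) :
    ∃ W : ℝ → Matrix (Fin m) (Fin m) ℂ, IsPotential (1 + s) W ∧ (¬ W =ᵐ[volume] 0) ∧
      NegEigs W (fun _ : Fin 1 => -s ^ 2) ∧
      ∫ x, trPow (1 + s) (W x) = cs s * beta s * s ^ (2 * s + 1) := by
  obtain ⟨i, -⟩ : ∃ i : Fin m, True := ⟨⟨0, hm⟩, trivial⟩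
  set w : ℝ → ℝ := fun x => s * (s + 1) * (1 / Real.cosh x ^ 2) with hw
  have hss : 0 < s * (s + 1) := by positivity
  have wpos : ∀ x, 0 < w x := fun x => mul_pos hss (sech_sq_le x).1
  have wle : ∀ x, w x ≤ s * (s + 1) := fun x => mul_le_of_le_one_right hss.le (sech_sq_le x).2
  have wc : Continuous w := continuous_const.mul continuous_sech_sq
  have htr : ∀ x, trPow (1 + s) (diagonal fun j : Fin m => ((if j = i then w x else 0 : ℝ) : ℂ)) =
      (s * (s + 1)) ^ (1 + s) * (1 / Real.cosh x ^ 2) ^ (1 + s) := by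
    intro x
    rw [trPow_eq, trf_diagonal, Finset.sum_eq_single i, if_pos rfl,
      Real.mul_rpow hss.le (sech_sq_le x).1.le]
    · intro j _ hj
      rw [if_neg hj, Real.zero_rpow (by linarith)]
    · intro h; exact absurd (Finset.mem_univ i) h
  refine ⟨fun x => diagonal fun j => ((if j = i then w x else 0 : ℝ) : ℂ), ⟨?_, ?_, ?_⟩, ?_, ?_, ?_⟩
  · intro j k
    simp only [diagonal_apply]
    split_ifs
    · exact Complex.measurable_ofReal.comp wc.measurable
    · exact measurable_const
    · exact measurable_const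
  · intro x
    refine PosSemidef.diagonal fun j => ?_
    refine Complex.zero_le_real.2 ?_
    split_ifs
    · exact (wpos x).le
    · exact le_rfl
  · simp only [htr, sech_sq_rpow]
    exact (integrable_cosh_rpow (by linarith)).const_mul _
  · intro h
    obtain ⟨x, hx⟩ := h.exists
    have := congrFun (congrFun hx i) i
    simp only [diagonal_apply_eq, if_true, Pi.zero_apply, Matrix.zero_apply,
      Complex.ofReal_eq_zero] at this
    exact (wpos x).ne' this
  · have hI : 0 < ∫ x, Real.cosh x ^ (-(2 * s)) :=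
      integral_pos_of_integrable_nonneg_nonzero (x := 0) (continuous_cosh_rpow _)
        (integrable_cosh_rpow (by linarith)) (fun x => Real.rpow_nonneg (Real.cosh_pos x).le _)
        (Real.rpow_pos_of_pos (Real.cosh_pos 0) _).ne'
    obtain ⟨c, hc⟩ : ∃ c : ℝ, c ^ 2 * ∫ x, Real.cosh x ^ (-(2 * s)) = 1 :=
      ⟨(Real.sqrt (∫ x, Real.cosh x ^ (-(2 * s))))⁻¹, by
        rw [inv_pow, Real.sq_sqrt hI.le, inv_mul_cancel₀ hI.ne']⟩
    have m0 : MemLp (fun x => c * Real.cosh x ^ (-s)) 2 := (memLp_cosh_rpow h0).const_mul c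
    have c1 : Continuous fun x => c * (-s * Real.tanh x) :=
      continuous_const.mul (continuous_const.mul continuous_tanh')
    have m1 : MemLp (fun x => c * (-s * Real.tanh x) * Real.cosh x ^ (-s)) 2 := by
      refine memLp_of_le_cosh (C := |c| * |s|) h0 c1 fun x => ?_
      rw [abs_mul, abs_mul, abs_neg]
      exact mul_le_mul_of_nonneg_left
        (mul_le_of_le_one_right (abs_nonneg _) (Real.abs_tanh_lt_one x).le) (abs_nonneg _)
    have m2 : MemLp (fun x => w x * (c * Real.cosh x ^ (-s))) 2 := by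
      have := memLp_of_le_cosh (C := s * (s + 1) * |c|) h0 (wc.mul (continuous_const (y := c)))
        fun x => by
          rw [Pi.mul_apply, abs_mul, abs_of_pos (wpos x)]
          exact mul_le_mul_of_nonneg_right (wle x) (abs_nonneg _)
      simpa only [Pi.mul_apply, mul_assoc] using this
    have d1 : ∀ x, HasDerivAt (fun x => c * Real.cosh x ^ (-s))
        (c * (-s * Real.tanh x) * Real.cosh x ^ (-s)) x := fun x =>
      ((hasDerivAt_cosh_rpow s x).const_mul c).congr_deriv (by ring)
    have d2 : ∀ x, HasDerivAt (fun x => c * (-s * Real.tanh x) * Real.cosh x ^ (-s))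
        (s ^ 2 * (c * Real.cosh x ^ (-s)) - w x * (c * Real.cosh x ^ (-s))) x := fun x =>
      (hasDerivAt_cosh_rpow₂ s c x).congr_deriv (by simp only [hw]; ring)
    have c0 : Continuous fun x => c * Real.cosh x ^ (-s) :=
      continuous_const.mul (continuous_cosh_rpow _)
    refine ⟨fun _ x => (c * Real.cosh x ^ (-s)) • (Pi.single i 1 : Fin m → ℂ),
      fun _ x => (c * (-s * Real.tanh x) * Real.cosh x ^ (-s)) • (Pi.single i 1 : Fin m → ℂ),
      fun _ => by simp only [neg_lt_zero]; positivity, fun _ => ⟨⟨memLp_smul_vec m0 _,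
        memLp_smul_vec m1 _, fun x y => ?_⟩, fun f g hfg => ?_⟩, fun j k => ?_⟩
    · rw [intervalIntegral.integral_smul_const, ← sub_smul,
        intervalIntegral.integral_eq_sub_of_hasDerivAt (fun t _ => d1 t)
          ((c1.mul (continuous_cosh_rpow _)).intervalIntegrable _ _)]
    · have key := ibp_vec hfg.memLp hfg.memLp_deriv hfg.ftc d2
        ((continuous_const.mul c0).sub (wc.mul c0)) m1 ((m0.const_mul _).sub m2) (conjCoord i)
      have hi : ∀ {F : ℝ → Fin m → ℂ} {k : ℝ → ℝ}, MemLp F 2 → MemLp k 2 →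
          Integrable fun x => conjCoord i (F x) * (k x : ℂ) := fun hF hk =>
        ((conjCoord i).comp_memLp' hF).integrable_mul (hk.ofReal (K := ℂ))
      have i1 := hi hfg.memLp_deriv m1
      have i2 := hi hfg.memLp m0
      have i3 := hi hfg.memLp m2
      have i4 : Integrable fun x => conjCoord i (g x) *
          ((c * (-s * Real.tanh x) * Real.cosh x ^ (-s) : ℝ) : ℂ) -
          conjCoord i (f x) * ((w x * (c * Real.cosh x ^ (-s)) : ℝ) : ℂ) := i1.sub i3
      simp only [ip, diag_mulVec_single, star_dot_single]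
      rw [← sub_eq_zero, ← key, ← integral_const_mul, ← integral_sub i1 i3,
        ← integral_sub i4 (i2.const_mul _)]
      refine integral_congr_ae (Filter.Eventually.of_forall fun x => ?_)
      simp only [Complex.ofReal_sub, Complex.ofReal_neg, Complex.ofReal_mul (s ^ 2)]
      ring
    · rw [if_pos (Subsingleton.elim j k)]
      simp only [ip, star_dot_single, conjCoord_single, ← Complex.ofReal_mul]
      rw [integral_complex_ofReal, ← Complex.ofReal_one, ← hc, ← integral_const_mul]
      congr 1
      refine integral_congr_ae (Filter.Eventually.of_forall fun x => ?_)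
      simp only [← cosh_rpow_sq]
      ring
  · simp only [htr]
    rw [integral_const_mul, integral_sech_sq_rpow, cs, Real.mul_rpow h0.le (by linarith),
      add_comm s 1, show 2 * s + 1 = s + (1 + s) by ring, Real.rpow_add h0 s]
    have p3 : 0 < s ^ s := Real.rpow_pos_of_pos h0 _
    field_simp

end Vale.Agent.P371
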