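import Vale.Agent.P371.Basic

open MeasureTheory Matrix
open scoped Matrix.Norms.L2Operator ComplexOrder

namespace Vale.Agent.P371

variable {n : Type} [Fintype n] [DecidableEq n]

namespace GTa

/-- real diagonal matrix -/
noncomputable def dd (a : n → ℝ) : Matrix n n ℂ := diagonal (fun i => (a i : ℂ))

/-- `U diag(a) U^*` -/
noncomputable def cj (U : Matrix n n ℂ) (a : n → ℝ) : Matrix n n ℂ := U * dd a * star U

/-- squared overlaps -/
noncomputable def ww (U V : Matrix n n ℂ) (i j : n) : ℝ := Complex.normSq ((star U * V) i j)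

lemma tr_comm (A B : Matrix n n ℂ) : tr (A * B) = tr (B * A) := by
  unfold tr
  rw [trace_mul_comm]

lemma tr_add (A B : Matrix n n ℂ) : tr (A + B) = tr A + tr B := by
  simp [tr]

lemma tr_dZd (a b : n → ℝ) (Z Z' : Matrix n n ℂ) :
    tr (dd a * Z * dd b * star Z') =
      ∑ i, ∑ j, a i * b j * (Z i j * star (Z' i j)).re := by
  unfold tr Matrix.trace
  rw [Complex.re_sum]
  refine Finset.sum_congr rfl fun i _ => ?_
  rw [Matrix.diag_apply, Matrix.mul_apply, Complex.re_sum]
  refine Finset.sum_congr rfl fun j _ => ?_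
  unfold dd
  rw [mul_diagonal, diagonal_mul, star_apply]
  have : (a i : ℂ) * Z i j * (b j : ℂ) * star (Z' i j) =
      ((a i * b j : ℝ) : ℂ) * (Z i j * star (Z' i j)) := by
    push_cast
    ring
  rw [this, Complex.re_ofReal_mul]

lemma re_mul_star (z : ℂ) : (z * star z).re = Complex.normSq z := by
  rw [Complex.star_def, Complex.mul_conj, Complex.ofReal_re]

lemma dd_one : dd (fun _ : n => (1 : ℝ)) = 1 := by
  simp [dd]

lemma dd_mul (a b : n → ℝ) : dd a * dd b = dd (fun i => a i * b i) := by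
  simp [dd, diagonal_mul_diagonal]

lemma star_dd (a : n → ℝ) : star (dd a) = dd a := by
  simp [dd, Matrix.star_eq_conjTranspose, diagonal_conjTranspose, Pi.star_def]

lemma star_cj (U : Matrix n n ℂ) (a : n → ℝ) : star (cj U a) = cj U a := by
  simp [cj, star_dd, mul_assoc]

lemma tr_pair (U V : Matrix n n ℂ) (a b : n → ℝ) :
    tr (cj U a * cj V b) = ∑ i, ∑ j, ww U V i j * (a i * b j) := by
  have e : cj U a * cj V b = U * (dd a * star U * V * dd b * star V) := by
    simp only [cj, mul_assoc]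
  have e' : dd a * star U * V * dd b * star V * U =
      dd a * (star U * V) * dd b * star (star U * V) := by
    simp only [star_mul, star_star, mul_assoc]
  rw [e, tr_comm, e', tr_dZd]
  refine Finset.sum_congr rfl fun i _ => Finset.sum_congr rfl fun j _ => ?_
  rw [re_mul_star, ww, mul_comm]

lemma cj_mul {U : Matrix n n ℂ} (hU : star U * U = 1) (a b : n → ℝ) :
    cj U a * cj U b = cj U (fun i => a i * b i) := by
  calc cj U a * cj U b = U * (dd a * (star U * U) * dd b) * star U := by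
        simp only [cj, mul_assoc]
    _ = _ := by rw [hU, mul_one, dd_mul, cj]

lemma cj_one {U : Matrix n n ℂ} (hU : U * star U = 1) : cj U (fun _ => 1) = 1 := by
  rw [cj, dd_one, mul_one, hU]

lemma ww_nonneg (U V : Matrix n n ℂ) (i j : n) : 0 ≤ ww U V i j := Complex.normSq_nonneg _

lemma ww_symm (U V : Matrix n n ℂ) (i j : n) : ww U V i j = ww V U j i := by
  have : star V * U = star (star U * V) := by simp only [star_mul, star_star]
  rw [ww, ww, this, star_apply, Complex.star_def, Complex.normSq_conj]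

lemma ww_row {U V : Matrix n n ℂ} (hU : star U * U = 1) (hV : V * star V = 1) (i : n) :
    ∑ j, ww U V i j = 1 := by
  have e : (star U * V) * star (star U * V) = 1 := by
    calc (star U * V) * star (star U * V) = star U * (V * star V) * U := by
          simp only [star_mul, star_star, mul_assoc]
      _ = 1 := by rw [hV, mul_one, hU]
  have h := congrArg (fun M : Matrix n n ℂ => (M i i).re) e
  simp only [one_apply_eq, Complex.one_re] at h
  rw [Matrix.mul_apply, Complex.re_sum] at h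
  rw [← h]
  refine Finset.sum_congr rfl fun j _ => ?_
  rw [star_apply, re_mul_star, ww]

lemma ww_col {U V : Matrix n n ℂ} (hV : star V * V = 1) (hU : U * star U = 1) (j : n) :
    ∑ i, ww U V i j = 1 := by
  simp_rw [ww_symm U V]
  exact ww_row hV hU j

lemma avg_pos {w a : n → ℝ} (hw : ∀ i, 0 ≤ w i) (h1 : ∑ i, w i = 1) (ha : ∀ i, 0 < a i) :
    0 < ∑ i, w i * a i := by
  have : ∃ i, 0 < w i := by
    by_contra hc
    have : ∑ i, w i ≤ 0 := Finset.sum_nonpos fun i _ => not_lt.1 fun h => hc ⟨i, h⟩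
    linarith
  obtain ⟨i, hi⟩ := this
  exact Finset.sum_pos' (fun i _ => mul_nonneg (hw i) (ha i).le)
    ⟨i, Finset.mem_univ _, mul_pos hi (ha i)⟩

lemma spec {A : Matrix n n ℂ} (hA : A.PosDef) : ∃ (U : Matrix n n ℂ) (a : n → ℝ),
    star U * U = 1 ∧ U * star U = 1 ∧ (∀ i, 0 < a i) ∧ (∀ i, a i ≤ ‖A‖) ∧ A = cj U a ∧
      mlog A = cj U (fun i => Real.log (a i)) := by
  have hH := hA.isHermitian
  refine ⟨(hH.eigenvectorUnitary : Matrix n n ℂ), hH.eigenvalues, Unitary.coe_star_mul_self _,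
    Unitary.coe_mul_star_self _, fun i => hA.eigenvalues_pos i, fun i => ?_, ?_, ?_⟩
  · have h1 := l2_opNorm_mulVec A (hH.eigenvectorBasis i)
    rw [hH.mulVec_eigenvectorBasis, hH.eigenvectorBasis.orthonormal.1 i, mul_one] at h1
    have h2 : (EuclideanSpace.equiv n ℂ).symm (hH.eigenvalues i • ⇑(hH.eigenvectorBasis i)) =
        hH.eigenvalues i • hH.eigenvectorBasis i := rfl
    rw [h2, norm_smul, hH.eigenvectorBasis.orthonormal.1 i, mul_one] at h1
    exact (le_abs_self _).trans h1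
  · conv_lhs => rw [hH.spectral_theorem]
    rfl
  · rw [mlog, hH.cfc_eq]
    rfl

lemma quad (c z : ℂ) (x d : ℝ) (hd : 0 < d) :
    2 * (x * (c * star z).re) - d * Complex.normSq z ≤ Complex.normSq c * x ^ 2 / d := by
  rw [le_div_iff₀ hd]
  simp only [Complex.star_def, Complex.mul_re, Complex.conj_re, Complex.conj_im,
    Complex.normSq_apply]
  nlinarith [sq_nonneg (x * c.re - d * z.re), sq_nonneg (x * c.im - d * z.im)]

lemma key {U V W : Matrix n n ℂ} (hU : U * star U = 1) (hV : V * star V = 1)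
    (hW : star W * W = 1) (p x y : n → ℝ) (α β : ℝ) (hd : ∀ a b, 0 < α * p a + β * x b) :
    ∑ j, (2 * (y j * ∑ b, ww W V j b * x b) - y j ^ 2 *
      (α * ∑ a, ww W U j a * p a + β * ∑ b, ww W V j b * x b)) ≤
      ∑ a, ∑ b, ww U V a b * x b ^ 2 / (α * p a + β * x b) := by
  set Y := cj W y with hY
  set Z := star U * Y * V with hZ
  have hsZ : star Z = star V * Y * U := by
    simp only [hZ, star_mul, star_star, hY, star_cj, mul_assoc]
  have hYY : Y * Y = cj W (fun j => y j * y j) := cj_mul hW y y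
  have s1 : ∑ a, ∑ b, x b * ((star U * V) a b * star (Z a b)).re =
      ∑ j, y j * ∑ b, ww W V j b * x b := by
    have h := tr_dZd (fun _ => 1) x (star U * V) Z
    simp only [one_mul] at h
    rw [← h, dd_one, one_mul, hsZ]
    have e : star U * V * dd x * (star V * Y * U) = star U * (cj V x * Y * U) := by
      simp only [cj, mul_assoc]
    rw [e, tr_comm, mul_assoc, hU, mul_one, tr_comm, hY, tr_pair]
    refine Finset.sum_congr rfl fun j _ => ?_
    rw [Finset.mul_sum]
    exact Finset.sum_congr rfl fun b _ => by ring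
  have s2 : ∑ a, ∑ b, p a * Complex.normSq (Z a b) =
      ∑ j, y j ^ 2 * ∑ a, ww W U j a * p a := by
    have h := tr_dZd p (fun _ => 1) Z Z
    simp only [mul_one, re_mul_star] at h
    rw [← h, dd_one, mul_one, hsZ]
    have e : dd p * Z * (star V * Y * U) = (dd p * star U * Y * (V * star V) * Y) * U := by
      simp only [hZ, mul_assoc]
    have e' : U * (dd p * star U * Y * 1 * Y) = cj U p * (Y * Y) := by
      simp only [cj, mul_assoc, one_mul]
    rw [e, tr_comm, hV, e', tr_comm, hYY, tr_pair]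
    refine Finset.sum_congr rfl fun j _ => ?_
    rw [Finset.mul_sum]
    exact Finset.sum_congr rfl fun b _ => by ring
  have s3 : ∑ a, ∑ b, x b * Complex.normSq (Z a b) =
      ∑ j, y j ^ 2 * ∑ b, ww W V j b * x b := by
    have h := tr_dZd (fun _ => 1) x Z Z
    simp only [one_mul, re_mul_star] at h
    rw [← h, dd_one, one_mul, hsZ]
    have e : Z * dd x * (star V * Y * U) = star U * (Y * cj V x * Y * U) := by
      simp only [hZ, cj, mul_assoc]
    rw [e, tr_comm, mul_assoc, hU, mul_one, tr_comm, ← mul_assoc, hYY, tr_pair]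
    refine Finset.sum_congr rfl fun j _ => ?_
    rw [Finset.mul_sum]
    exact Finset.sum_congr rfl fun b _ => by ring
  calc _ = 2 * (∑ j, y j * ∑ b, ww W V j b * x b) - (α * ∑ j, y j ^ 2 * ∑ a, ww W U j a * p a +
        β * ∑ j, y j ^ 2 * ∑ b, ww W V j b * x b) := by
        rw [Finset.mul_sum, Finset.mul_sum, Finset.mul_sum, ← Finset.sum_add_distrib,
          ← Finset.sum_sub_distrib]
        exact Finset.sum_congr rfl fun j _ => by ring
    _ = ∑ a, ∑ b, (2 * (x b * ((star U * V) a b * star (Z a b)).re) -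
          (α * p a + β * x b) * Complex.normSq (Z a b)) := by
        rw [← s1, ← s2, ← s3]
        simp only [Finset.mul_sum, ← Finset.sum_add_distrib, ← Finset.sum_sub_distrib]
        exact Finset.sum_congr rfl fun a _ => Finset.sum_congr rfl fun b _ => by ring
    _ ≤ _ := Finset.sum_le_sum fun a _ => Finset.sum_le_sum fun b _ =>
        quad _ _ _ _ (hd a b)

lemma seg_pos {u v s : ℝ} (hu : 0 < u) (hv : 0 < v) (hs : s ∈ Set.Icc (0 : ℝ) 1) :
    0 < (1 - s) * u + s * v := by
  obtain ⟨h0, h1⟩ := hs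
  rcases h0.eq_or_lt with h | h
  · rw [← h]
    simpa using hu
  · have := mul_nonneg (sub_nonneg.2 h1) hu.le
    have := mul_pos h hv
    linarith

lemma path_deriv {ι : Type} [Fintype ι] (c u v : ι → ℝ) (hu : ∀ k, 0 < u k) (hv : ∀ k, 0 < v k)
    {s : ℝ} (hs : s ∈ Set.Icc (0 : ℝ) 1) :
    HasDerivAt (fun s : ℝ => ∑ k, c k * v k * Real.log ((1 - s) * u k + s * v k))
      (∑ k, c k * v k * ((v k - u k) / ((1 - s) * u k + s * v k))) s := by
  refine HasDerivAt.fun_sum fun k _ => HasDerivAt.const_mul _ ?_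
  refine HasDerivAt.log ?_ (seg_pos (hu k) (hv k) hs).ne'
  have h1 := (((hasDerivAt_id' s).const_sub 1).mul_const (u k)).fun_add
    ((hasDerivAt_id' s).mul_const (v k))
  exact h1.congr_deriv (by ring)

lemma path_id {ι : Type} [Fintype ι] (c u v : ι → ℝ) (hu : ∀ k, 0 < u k) (hv : ∀ k, 0 < v k)
    {s : ℝ} (hs : s ∈ Set.Icc (0 : ℝ) 1) :
    (1 - s) * ∑ k, c k * v k * ((v k - u k) / ((1 - s) * u k + s * v k)) =
      ∑ k, c k * v k ^ 2 / ((1 - s) * u k + s * v k) - ∑ k, c k * v k := by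
  rw [Finset.mul_sum, ← Finset.sum_sub_distrib]
  refine Finset.sum_congr rfl fun k _ => ?_
  have := (seg_pos (hu k) (hv k) hs).ne'
  field_simp
  ring

lemma dpi {ι κ : Type} [Fintype ι] [Fintype κ] (c u v : ι → ℝ) (c' u' v' : κ → ℝ)
    (hu : ∀ k, 0 < u k) (hv : ∀ k, 0 < v k) (hu' : ∀ k, 0 < u' k) (hv' : ∀ k, 0 < v' k)
    (hsum : ∑ k, c k * v k = ∑ k, c' k * v' k)
    (hkey : ∀ s ∈ Set.Icc (0 : ℝ) 1, ∑ k, c' k * v' k ^ 2 / ((1 - s) * u' k + s * v' k) ≤
      ∑ k, c k * v k ^ 2 / ((1 - s) * u k + s * v k)) :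
    ∑ k, c' k * v' k * Real.log (v' k) - ∑ k, c' k * v' k * Real.log (u' k) ≤
      ∑ k, c k * v k * Real.log (v k) - ∑ k, c k * v k * Real.log (u k) := by
  have hD : ∀ s ∈ Set.Icc (0 : ℝ) 1, HasDerivAt
      (fun s : ℝ => ∑ k, c k * v k * Real.log ((1 - s) * u k + s * v k) -
        ∑ k, c' k * v' k * Real.log ((1 - s) * u' k + s * v' k))
      (∑ k, c k * v k * ((v k - u k) / ((1 - s) * u k + s * v k)) -
        ∑ k, c' k * v' k * ((v' k - u' k) / ((1 - s) * u' k + s * v' k))) s :=
    fun s hs => (path_deriv c u v hu hv hs).fun_sub (path_deriv c' u' v' hu' hv' hs)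
  have hm := monotoneOn_of_deriv_nonneg (convex_Icc (0 : ℝ) 1)
    (fun s hs => (hD s hs).continuousAt.continuousWithinAt)
    (fun s hs => (hD s (interior_subset hs)).differentiableAt.differentiableWithinAt)
    (fun s hs => by
      have hs' := interior_subset hs
      rw [(hD s hs').deriv]
      rw [interior_Icc] at hs
      have h1 : 0 < 1 - s := sub_pos.2 hs.2
      refine le_of_mul_le_mul_left ?_ h1
      rw [mul_zero, mul_sub, path_id c u v hu hv hs', path_id c' u' v' hu' hv' hs']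
      have := hkey s hs'
      linarith)
  have h := hm (Set.left_mem_Icc.2 zero_le_one) (Set.right_mem_Icc.2 zero_le_one) zero_le_one
  simp only [sub_zero, one_mul, zero_mul, add_zero, sub_self, zero_add] at h
  linarith

lemma ent (y t : ℝ) (hy : 0 < y) (ht : 0 < t) :
    0 ≤ y * Real.log y - y * Real.log t - y + t := by
  have h := Real.log_le_sub_one_of_pos (div_pos ht hy)
  rw [Real.log_div ht.ne' hy.ne'] at h
  have h2 := mul_le_mul_of_nonneg_left h hy.le
  have h3 : y * (t / y - 1) = t - y := by field_simp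
  linarith

lemma theta_eq {U W : Matrix n n ℂ} (hU : star U * U = 1) (hW : star W * W = 1)
    (hW' : W * star W = 1) (p q : n → ℝ) (hp : ∀ i, 0 < p i) (hq : ∀ i, 0 < q i) (t : ℝ) :
    tr (cj U p * cj W q * (cj U (fun i => Real.log (p i)) + cj W (fun i => Real.log (q i)))) -
      (Real.log t + 1) * tr (cj U p * cj W q) + t * Fintype.card n =
      ∑ a, ∑ j, ww U W a j *
        (p a * q j * Real.log (p a * q j) - p a * q j * Real.log t - p a * q j + t) := by
  have e1 : (Fintype.card n : ℝ) = ∑ a, ∑ j, ww U W a j := by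
    simp [ww_row hU hW']
  rw [mul_add, tr_add, tr_comm, ← mul_assoc, cj_mul hU, mul_assoc, cj_mul hW, tr_pair, tr_pair,
    tr_pair, e1]
  simp only [Finset.mul_sum, ← Finset.sum_add_distrib, ← Finset.sum_sub_distrib]
  refine Finset.sum_congr rfl fun a _ => Finset.sum_congr rfl fun j _ => ?_
  rw [Real.log_mul (hp a).ne' (hq j).ne']
  ring

end GTa

open GTa in
/-- Golden-Thompson, dual form. -/
theorem gt_dual {X P Q : Matrix n n ℂ} (hX : X.PosDef) (hP : P.PosDef) (hQ : Q.PosDef) :
    tr (X * (mlog P + mlog Q)) ≤ tr (X * mlog X) - tr X + tr (P * Q) := by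
  obtain ⟨V, ξ, hV, hV', hξ, -, eX, lX⟩ := spec hX
  obtain ⟨U, π, hU, hU', hπ, -, eP, lP⟩ := spec hP
  obtain ⟨W, q, hW, hW', hq, -, eQ, lQ⟩ := spec hQ
  rw [lX, lP, lQ, eX, eP, eQ]
  set x : n → ℝ := fun j => ∑ b, ww W V j b * ξ b with hx
  set p : n → ℝ := fun j => ∑ a, ww W U j a * π a with hp
  have hx0 : ∀ j, 0 < x j := fun j => avg_pos (ww_nonneg W V j) (ww_row hW hV' j) hξ
  have hp0 : ∀ j, 0 < p j := fun j => avg_pos (ww_nonneg W U j) (ww_row hW hU' j) hπ
  have t1 : tr (cj V ξ * cj U fun i => Real.log (π i)) =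
      ∑ k : n × n, ww U V k.1 k.2 * ξ k.2 * Real.log (π k.1) := by
    rw [tr_comm, tr_pair, Fintype.sum_prod_type]
    exact Finset.sum_congr rfl fun a _ => Finset.sum_congr rfl fun b _ => by ring
  have t2 : tr (cj V ξ * cj W fun i => Real.log (q i)) = ∑ j, x j * Real.log (q j) := by
    rw [tr_comm, tr_pair]
    refine Finset.sum_congr rfl fun j _ => ?_
    rw [hx, Finset.sum_mul]
    exact Finset.sum_congr rfl fun b _ => by ring
  have t3 : tr (cj V ξ * cj V fun i => Real.log (ξ i)) =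
      ∑ k : n × n, ww U V k.1 k.2 * ξ k.2 * Real.log (ξ k.2) := by
    rw [cj_mul hV, ← one_mul (cj V _), ← cj_one hU', tr_pair, Fintype.sum_prod_type]
    exact Finset.sum_congr rfl fun a _ => Finset.sum_congr rfl fun b _ => by ring
  have t4 : tr (cj V ξ) = ∑ j, x j := by
    rw [← one_mul (cj V _), ← cj_one hW', tr_pair]
    exact Finset.sum_congr rfl fun a _ => Finset.sum_congr rfl fun b _ => by ring
  have t4' : tr (cj V ξ) = ∑ k : n × n, ww U V k.1 k.2 * ξ k.2 := by
    rw [← one_mul (cj V _), ← cj_one hU', tr_pair, Fintype.sum_prod_type]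
    exact Finset.sum_congr rfl fun a _ => Finset.sum_congr rfl fun b _ => by ring
  have t5 : tr (cj U π * cj W q) = ∑ j, p j * q j := by
    rw [tr_comm, tr_pair]
    refine Finset.sum_congr rfl fun j _ => ?_
    rw [hp, Finset.sum_mul]
    exact Finset.sum_congr rfl fun b _ => by ring
  have hd := dpi (fun k : n × n => ww U V k.1 k.2) (fun k => π k.1) (fun k => ξ k.2)
    (fun _ : n => (1 : ℝ)) p x (fun k => hπ _) (fun k => hξ _) hp0 hx0
    (by rw [← t4', t4]; simp) (fun s hs => by
      have h := key hU' hV' hW π ξ (fun j => x j / ((1 - s) * p j + s * x j)) (1 - s) s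
        (fun a b => seg_pos (hπ a) (hξ b) hs)
      rw [Fintype.sum_prod_type]
      refine le_trans (le_of_eq ?_) h
      refine Finset.sum_congr rfl fun j _ => ?_
      have h0 := (seg_pos (hp0 j) (hx0 j) hs).ne'
      change _ = 2 * (x j / ((1 - s) * p j + s * x j) * x j) -
        (x j / ((1 - s) * p j + s * x j)) ^ 2 * ((1 - s) * p j + s * x j)
      field_simp
      ring)
  simp only [one_mul] at hd
  have hs : 0 ≤ ∑ j, (x j * Real.log (x j) - x j * Real.log (p j * q j) - x j + p j * q j) :=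
    Finset.sum_nonneg fun j _ => ent _ _ (hx0 j) (mul_pos (hp0 j) (hq j))
  have hs' : ∑ j, (x j * Real.log (x j) - x j * Real.log (p j * q j) - x j + p j * q j) =
      ∑ j, x j * Real.log (x j) - ∑ j, x j * Real.log (p j) - ∑ j, x j * Real.log (q j) -
        ∑ j, x j + ∑ j, p j * q j := by
    simp only [← Finset.sum_add_distrib, ← Finset.sum_sub_distrib]
    refine Finset.sum_congr rfl fun j _ => ?_
    rw [Real.log_mul (hp0 j).ne' (hq j).ne']
    ring
  rw [mul_add, tr_add, t1, t2, t3, t4, t5]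
  linarith

open GTa in
/-- `Θ ≥ 0`. -/
theorem theta_nonneg {P Q : Matrix n n ℂ} (hP : P.PosDef) (hQ : Q.PosDef) {t : ℝ} (ht : 0 < t) :
    0 ≤ tr (P * Q * (mlog P + mlog Q)) - (Real.log t + 1) * tr (P * Q) + t * Fintype.card n := by
  obtain ⟨U, π, hU, hU', hπ, -, eP, lP⟩ := spec hP
  obtain ⟨W, q, hW, hW', hq, -, eQ, lQ⟩ := spec hQ
  rw [lP, lQ, eP, eQ, theta_eq hU hW hW' π q hπ hq]
  exact Finset.sum_nonneg fun a _ => Finset.sum_nonneg fun j _ =>
    mul_nonneg (ww_nonneg _ _ _ _) (ent _ _ (mul_pos (hπ a) (hq j)) ht)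

open GTa in
/-- upper bound for `Θ`. -/
theorem theta_le {P Q : Matrix n n ℂ} (hP : P.PosDef) (hQ : Q.PosDef) {t M : ℝ} (ht : 0 < t)
    (hPM : ‖P‖ ≤ M) (hQM : ‖Q‖ ≤ M) :
    tr (P * Q * (mlog P + mlog Q)) - (Real.log t + 1) * tr (P * Q) + t * Fintype.card n
      ≤ (M ^ 4 + M ^ 2 * |Real.log t| + t) * Fintype.card n := by
  obtain ⟨U, π, hU, hU', hπ, hπM, eP, lP⟩ := spec hP
  obtain ⟨W, q, hW, hW', hq, hqM, eQ, lQ⟩ := spec hQ
  have e1 : (Fintype.card n : ℝ) = ∑ a, ∑ j, ww U W a j := by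
    simp [ww_row hU hW']
  have hπM' : ∀ a, π a ≤ M := fun a => (hπM a).trans hPM
  have hqM' : ∀ a, q a ≤ M := fun a => (hqM a).trans hQM
  clear hπM hqM hPM hQM
  rw [lP, lQ, eP, eQ, theta_eq hU hW hW' π q hπ hq, e1]
  simp only [Finset.mul_sum]
  refine Finset.sum_le_sum fun a _ => Finset.sum_le_sum fun j _ => ?_
  rw [mul_comm]
  refine mul_le_mul_of_nonneg_right ?_ (ww_nonneg _ _ _ _)
  have hy : 0 < π a * q j := mul_pos (hπ a) (hq j)
  have hyM : π a * q j ≤ M ^ 2 := by
    rw [sq]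
    exact mul_le_mul (hπM' a) (hqM' j) (hq j).le ((hπ a).le.trans (hπM' a))
  generalize π a * q j = y at hy hyM
  have h1 : Real.log y ≤ y := (Real.log_le_sub_one_of_pos hy).trans (by linarith)
  have h2 : y * Real.log y ≤ M ^ 4 := by
    have h3 := mul_le_mul_of_nonneg_left h1 hy.le
    have h4 := mul_le_mul hyM hyM hy.le (hy.le.trans hyM)
    nlinarith
  have h5 : -(y * Real.log t) ≤ M ^ 2 * |Real.log t| := by
    have h6 := mul_le_mul_of_nonneg_left (neg_le_abs (Real.log t)) hy.le
    have h7 := mul_le_mul_of_nonneg_right hyM (abs_nonneg (Real.log t))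
    linarith
  linarith

end Vale.Agent.P371
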