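import Vale.Agent.P371.GroundB

open MeasureTheory Matrix Set Filter Topology
open scoped Matrix.Norms.L2Operator ComplexOrder

namespace Vale.Agent.P371

variable {n : Type} [Fintype n] [DecidableEq n]

omit [Fintype n] in
theorem continuous_Dt (κ : n → ℝ) : Continuous (Dt κ) := by
  refine continuous_matrix fun i j => ?_
  by_cases h : i = j
  · subst h
    simp only [Dt, dg, diagonal_apply_eq]
    fun_prop
  · simp only [Dt, dg, diagonal_apply_ne _ h]
    fun_prop

theorem trf_rpow_smul {A : Matrix n n ℂ} (hA : A.PosSemidef) {c : ℝ} (hc : 0 ≤ c) (q : ℝ) :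
    trf (fun y => y ^ q) (c • A) = c ^ q * trf (fun y => y ^ q) A := by
  have hh : IsSelfAdjoint A := hA.1
  unfold trf
  rw [← cfc_comp_smul c (fun y : ℝ => y ^ q) A ((Matrix.finite_real_spectrum.image _).continuousOn _)]
  change trf _ A = c ^ q * trf _ A
  rw [trf_eq_sum hA.1, trf_eq_sum hA.1, Finset.mul_sum]
  exact Finset.sum_congr rfl fun i _ => Real.mul_rpow hc (hA.eigenvalues_nonneg i)

theorem continuousOn_trf_rpow {X : Type} [TopologicalSpace X] {S : Set X} {q : ℝ} (hq : 0 ≤ q)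
    {W : X → Matrix n n ℂ} (hW : ContinuousOn W S) (hh : ∀ x ∈ S, (W x).IsHermitian) :
    ContinuousOn (fun x => trf (fun y => y ^ q) (W x)) S :=
  continuous_tr.comp_continuousOn (continuousOn_cfc_comp (Real.continuous_rpow_const hq) hW hh)

theorem ground_trunc {κ : n → ℝ} {V F : ℝ → Matrix n n ℂ} {a b : ℝ}
    (hab : a ≤ b) (hR : Ric (dg κ) V F a b) (hV : ContinuousOn V (Icc a b))
    (hVp : ∀ x ∈ Icc a b, (V x).PosSemidef)
    (hm : ∀ x ∈ Icc a b, (dg κ + F x).PosSemidef ∧ (dg κ - F x).PosSemidef)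
    (Fa : F a = dg κ) (Fb : F b = -dg κ) {s : ℝ} (h0 : 0 < s) (h1 : s < 1)
    {α β C : ℝ} (hα : 0 < α) (hαβ : α ≤ β) (hC : ∀ x ∈ Icc a b, α ^ s * Th κ (F x) α ≤ C) :
    s * ∫ t in Ioc α β, t ^ (s - 1) * ∑ i, Lam (κ i) t ≤
      mel s * (s / (1 + s)) ^ (1 + s) * (∫ x in a..b, trf (fun y => y ^ (1 + s)) (V x))
        + (b - a) * C := by
  have hpos : ∀ t ∈ Icc α β, 0 < t := fun t ht => hα.trans_le ht.1
  have hc : ContinuousOn (fun q : ℝ × ℝ => s * (q.2 ^ (s - 1) * flux κ (F q.1) (V q.1) q.2))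
      (Icc a b ×ˢ Icc α β) :=
    continuousOn_const.mul ((continuousOn_snd.rpow_const fun q hq => Or.inl (hpos _ hq.2).ne').mul
      ((flux_contOn hR hV hm).mono (prod_mono subset_rfl fun t ht => hpos t ht)))
  have hi : Integrable (Function.uncurry fun x t => s * (t ^ (s - 1) * flux κ (F x) (V x) t))
      ((volume.restrict (Ioc a b)).prod (volume.restrict (Ioc α β))) := by
    rw [Measure.prod_restrict]
    exact (hc.integrableOn_compact (isCompact_Icc.prod isCompact_Icc)).mono_set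
      (prod_mono Ioc_subset_Icc_self Ioc_subset_Icc_self)
  have hswap := integral_integral_swap hi
  have e1 : ∫ t in Ioc α β, ∫ x in Ioc a b, s * (t ^ (s - 1) * flux κ (F x) (V x) t) =
      s * ∫ t in Ioc α β, t ^ (s - 1) * ∑ i, Lam (κ i) t := by
    rw [← integral_const_mul]
    refine setIntegral_congr_fun measurableSet_Ioc fun t ht => ?_
    rw [integral_const_mul, integral_const_mul, ← intervalIntegral.integral_of_le hab,
      flux_integral hab hR hV hm Fa Fb (hα.trans ht.1)]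
  rw [← e1, ← hswap]
  have hq := continuousOn_trf_rpow (by linarith : 0 ≤ 1 + s) hV fun x hx => (hVp x hx).1
  have hqi : IntegrableOn (fun x => mel s * (s / (1 + s)) ^ (1 + s) *
      trf (fun y => y ^ (1 + s)) (V x)) (Ioc a b) :=
    ((continuousOn_const.mul hq).integrableOn_Icc).mono_set Ioc_subset_Icc_self
  have hCi : IntegrableOn (fun _ : ℝ => C) (Ioc a b) := integrableOn_const (by simp)
  have h2 := setIntegral_mono_on hi.integral_prod_left (hqi.add hCi) measurableSet_Ioc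
    fun x hx => by
      have hx' : x ∈ Icc a b := Ioc_subset_Icc_self hx
      have hc0 : 0 ≤ s / (1 + s) := by positivity
      have h3 := flux_bound h0 h1 (hR x hx').1 (hm x hx').1 (hm x hx').2
        ((hVp x hx').smul hc0) hα hαβ
      rw [smul_smul, show (1 + s) / s * (s / (1 + s)) = 1 by field_simp, one_smul,
        trf_rpow_smul (hVp x hx') hc0, intervalIntegral.integral_of_le hαβ] at h3
      have := hC x hx'
      simp only [Function.uncurry, Pi.add_apply]
      linarith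
  simp only [Function.uncurry, Pi.add_apply] at h2
  rw [integral_add hqi hCi, integral_const_mul] at h2
  rw [intervalIntegral.integral_of_le hab]
  simp only [integral_const, MeasurableSet.univ, measureReal_restrict_apply, univ_inter,
    Real.volume_real_Ioc_of_le hab, smul_eq_mul] at h2
  exact h2

theorem ground_diag {κ : n → ℝ} (hκ : ∀ i, 0 < κ i) {V F : ℝ → Matrix n n ℂ} {a b : ℝ}
    (hab : a ≤ b) (hR : Ric (dg κ) V F a b) (hV : ContinuousOn V (Icc a b))
    (hVp : ∀ x ∈ Icc a b, (V x).PosSemidef)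
    (hm : ∀ x ∈ Icc a b, (dg κ + F x).PosSemidef ∧ (dg κ - F x).PosSemidef)
    (Fa : F a = dg κ) (Fb : F b = -dg κ) {s : ℝ} (h0 : 0 < s) (h1 : s < 1) :
    cs s * beta s * ∑ i, κ i ^ (2 * s + 1) ≤ ∫ x in a..b, trf (fun y => y ^ (1 + s)) (V x) := by
  have hD : ContinuousOn (fun q : ℝ × ℝ => Dt κ q.1) (Icc 0 1 ×ˢ Icc a b) :=
    ((continuous_Dt κ).comp continuous_fst).continuousOn
  have hF : ContinuousOn (fun q : ℝ × ℝ => F q.2) (Icc 0 1 ×ˢ Icc a b) :=
    hR.contOn.comp continuousOn_snd fun q hq => hq.2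
  obtain ⟨M₁, hM₁⟩ := (isCompact_Icc.prod isCompact_Icc).exists_bound_of_continuousOn (hD.add hF)
  obtain ⟨M₂, hM₂⟩ := (isCompact_Icc.prod isCompact_Icc).exists_bound_of_continuousOn (hD.sub hF)
  set M := max M₁ M₂
  set J := ∫ x in a..b, trf (fun y => y ^ (1 + s)) (V x)
  let α : ℕ → ℝ := fun k => 1 / ((k : ℝ) + 1)
  have hα0 : ∀ k, 0 < α k := fun k => by positivity
  have hα1 : ∀ k, α k ≤ 1 := fun k => by
    rw [div_le_one (by positivity)]; linarith [Nat.cast_nonneg (α := ℝ) k]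
  have hαt : Tendsto α atTop (𝓝[>] 0) :=
    tendsto_nhdsWithin_iff.2 ⟨tendsto_one_div_add_atTop_nhds_zero_nat, Eventually.of_forall hα0⟩
  have hI : IntegrableOn (fun t => t ^ (s - 1) * ∑ i, Lam (κ i) t) (Ioi 0) := by
    simp only [Finset.mul_sum]
    exact integrable_finsetSum _ fun i _ => (mellin_Lam h0 h1 (hκ i)).1
  have hU : (⋃ k : ℕ, Ioc (α k) ((k : ℝ) + 1)) = Ioi 0 := by
    refine subset_antisymm (iUnion_subset fun k t ht => (hα0 k).trans ht.1) fun t ht => ?_
    obtain ⟨k, hk⟩ := (((tendsto_one_div_add_atTop_nhds_zero_nat (𝕜 := ℝ)).eventually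
      (gt_mem_nhds ht)).and (tendsto_natCast_atTop_atTop.eventually_ge_atTop t)).exists
    exact mem_iUnion.2 ⟨k, hk.1, by linarith [hk.2]⟩
  have hL := tendsto_setIntegral_of_monotone (μ := volume)
    (s := fun k : ℕ => Ioc (α k) ((k : ℝ) + 1)) (fun _ => measurableSet_Ioc)
    (fun k l hkl => Ioc_subset_Ioc
      (one_div_le_one_div_of_le (by positivity) (by simpa using hkl)) (by simpa using hkl))
    (by rw [hU]; exact hI)
  rw [hU] at hL
  have hlim : Tendsto (fun t : ℝ => t ^ s * ((M ^ 4 + M ^ 2 * |Real.log t| + t) * Fintype.card n))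
      (𝓝[>] 0) (𝓝 0) := by
    have t1 : Tendsto (fun t : ℝ => t ^ s) (𝓝[>] 0) (𝓝 0) := by
      have := (Real.continuous_rpow_const h0.le).tendsto 0
      rw [Real.zero_rpow h0.ne'] at this
      exact this.mono_left nhdsWithin_le_nhds
    have t2 := (tendsto_log_mul_rpow_nhdsGT_zero h0).abs
    have t3 : Tendsto (fun t : ℝ => t) (𝓝[>] 0) (𝓝 0) := tendsto_id.mono_left nhdsWithin_le_nhds
    have := (((t1.const_mul (M ^ 4)).add (t2.const_mul (M ^ 2))).add (t1.mul t3)).mul_const
      (Fintype.card n : ℝ)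
    simp only [mul_zero, abs_zero, add_zero, zero_mul] at this
    refine this.congr' ?_
    filter_upwards [self_mem_nhdsWithin] with t ht
    rw [abs_mul, abs_of_pos (Real.rpow_pos_of_pos ht s)]
    ring
  have hR' := ((hlim.comp hαt).const_mul (b - a)).const_add (mel s * (s / (1 + s)) ^ (1 + s) * J)
  have key := le_of_tendsto_of_tendsto' (hL.const_mul s) hR' fun k =>
    ground_trunc hab hR hV hVp hm Fa Fb h0 h1 (hα0 k)
      ((hα1 k).trans (by linarith [Nat.cast_nonneg (α := ℝ) k])) fun x hx =>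
      mul_le_mul_of_nonneg_left (Th_le (hR x hx).1 (hm x hx).1 (hm x hx).2 (hα0 k)
        ((hM₁ (α k, x) ⟨⟨(hα0 k).le, hα1 k⟩, hx⟩).trans (le_max_left _ _))
        ((hM₂ (α k, x) ⟨⟨(hα0 k).le, hα1 k⟩, hx⟩).trans (le_max_right _ _)))
        (Real.rpow_nonneg (hα0 k).le _)
  have e : ∫ t in Ioi (0 : ℝ), t ^ (s - 1) * ∑ i, Lam (κ i) t =
      (∑ i, κ i ^ (2 * s + 1)) * beta s * mel s := by
    simp only [Finset.mul_sum, Finset.sum_mul]
    rw [integral_finsetSum _ fun i _ => (mellin_Lam h0 h1 (hκ i)).1]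
    exact Finset.sum_congr rfl fun i _ => (mellin_Lam h0 h1 (hκ i)).2
  rw [e, mul_zero, add_zero] at key
  have hm0 := mel_pos h0 h1
  have hcs : cs s * (s / (1 + s)) ^ (1 + s) = s := by
    have h2 : 0 < (1 + s) ^ (1 + s) := Real.rpow_pos_of_pos (by linarith) _
    have h3 : 0 < s ^ s := Real.rpow_pos_of_pos h0 _
    rw [cs, Real.div_rpow h0.le (by linarith), Real.rpow_add h0, Real.rpow_one]
    field_simp
  have hq : 0 < (s / (1 + s)) ^ (1 + s) := Real.rpow_pos_of_pos (by positivity) _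
  refine le_of_mul_le_mul_left ?_ (mul_pos hm0 hq)
  calc _ = (cs s * (s / (1 + s)) ^ (1 + s)) * ((∑ i, κ i ^ (2 * s + 1)) * beta s * mel s) := by ring
    _ ≤ _ := by rw [hcs]; exact key

/-- Step 2: the cost of a totally critical system. -/
theorem ground {K : Matrix n n ℂ} (hK : K.PosDef) {V F : ℝ → Matrix n n ℂ} {a b : ℝ}
    (hab : a ≤ b) (hR : Ric K V F a b) (hV : ContinuousOn V (Icc a b))
    (hVp : ∀ x ∈ Icc a b, (V x).PosSemidef)
    (hm : ∀ x ∈ Icc a b, (K + F x).PosSemidef ∧ (K - F x).PosSemidef)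
    (Fa : F a = K) (Fb : F b = -K) {s : ℝ} (h0 : 0 < s) (h1 : s < 1) :
    cs s * beta s * trf (fun y => y ^ (2 * s + 1)) K ≤
      ∫ x in a..b, trf (fun y => y ^ (1 + s)) (V x) := by
  set U : Matrix n n ℂ := (hK.1.eigenvectorUnitary : Matrix n n ℂ) with hU
  have hUm : U ∈ Matrix.unitaryGroup n ℂ := hK.1.eigenvectorUnitary.2
  have hUU : U * Uᴴ = 1 := (Unitary.mem_iff.1 hUm).2
  have hd : Uᴴ * K * U = dg hK.1.eigenvalues := by
    have := hK.1.conjStarAlgAut_star_eigenvectorUnitary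
    rw [Unitary.conjStarAlgAut_apply] at this
    simpa [hU, dg, star_eq_conjTranspose, Function.comp_def] using this
  have hmul : ∀ A B : Matrix n n ℂ, Uᴴ * A * U * (Uᴴ * B * U) = Uᴴ * (A * B) * U := fun A B => by
    calc _ = Uᴴ * A * (U * Uᴴ) * B * U := by simp only [mul_assoc]
      _ = _ := by rw [hUU]; simp only [mul_one, mul_assoc]
  have key := ground_diag (κ := hK.1.eigenvalues) hK.eigenvalues_pos
    (V := fun x => Uᴴ * V x * U) (F := fun x => Uᴴ * F x * U) hab
    (fun x hx => ⟨isHermitian_conjTranspose_mul_mul U (hR x hx).1, by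
      have := ((hR x hx).2.const_mul Uᴴ).mul_const U
      rw [← hd, hmul, hmul]
      simpa only [mul_sub, sub_mul] using this⟩)
    ((continuousOn_const.mul hV).mul continuousOn_const)
    (fun x hx => (hVp x hx).conjTranspose_mul_mul_same U)
    (fun x hx => by
      have h2 := (hm x hx).1.conjTranspose_mul_mul_same U
      have h3 := (hm x hx).2.conjTranspose_mul_mul_same U
      rw [← hd]
      simp only [mul_add, add_mul, mul_sub, sub_mul] at h2 h3
      exact ⟨h2, h3⟩)
    (by simp only [Fa, hd]) (by simp only [Fb, ← hd, mul_neg, neg_mul]) h0 h1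
  rw [trf_eq_sum hK.1]
  refine key.trans (le_of_eq (intervalIntegral.integral_congr fun x hx => ?_))
  rw [uIcc_of_le hab] at hx
  exact trf_unitary_conj _ (hVp x hx).1 hUm

end Vale.Agent.P371
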