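import Vale.Agent.P371.Basic

open MeasureTheory Set

namespace Vale.Agent.P371

/-- the Mellin constant -/
noncomputable def mel (s : ℝ) : ℝ := ∫ t in Ioi (0 : ℝ), t ^ (s - 1) * Real.log (1 + 1 / t)

/-- `h y = y log y - y` -/
noncomputable def hfun (y : ℝ) : ℝ := y * Real.log y - y

/-- `Λ_κ(t) = ∫_{-κ}^{κ} log (1 + (κ^2 - f^2) / t) df` in closed form -/
noncomputable def Lam (κ t : ℝ) : ℝ :=
  2 * (hfun (Real.sqrt (κ ^ 2 + t) + κ) - hfun (Real.sqrt (κ ^ 2 + t) - κ)) - 2 * κ * Real.log t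

/-- the function (y + t) log (1 + y / t) - y -/
noncomputable def ent (t y : ℝ) : ℝ := (y + t) * Real.log (1 + y / t) - y

variable {s : ℝ}

theorem log_one_add_nonneg {a t : ℝ} (ha : 0 ≤ a) (ht : 0 < t) : 0 ≤ Real.log (1 + a / t) :=
  Real.log_nonneg (by have := div_nonneg ha ht.le; linarith)

theorem mel_integrableOn (h0 : 0 < s) (h1 : s < 1) :
    IntegrableOn (fun t : ℝ => t ^ (s - 1) * Real.log (1 + 1 / t)) (Ioi 0) := by
  have hm : Measurable fun t : ℝ => t ^ (s - 1) * Real.log (1 + 1 / t) := by fun_prop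
  rw [← Ioc_union_Ioi_eq_Ioi (zero_le_one' ℝ)]
  refine IntegrableOn.union ?_ ?_
  · have hi : IntegrableOn (fun t : ℝ => 2 ^ (s / 2) / (s / 2) * t ^ (s / 2 - 1)) (Ioc 0 1) := by
      refine Integrable.const_mul ?_ _
      exact (intervalIntegrable_iff_integrableOn_Ioc_of_le zero_le_one).1
        (intervalIntegral.intervalIntegrable_rpow' (by linarith))
    refine Integrable.mono' hi hm.aestronglyMeasurable ?_
    refine ae_restrict_of_forall_mem measurableSet_Ioc fun t ht => ?_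
    have ht0 : 0 < t := ht.1
    rw [Real.norm_of_nonneg (mul_nonneg (Real.rpow_nonneg ht0.le _)
      (log_one_add_nonneg zero_le_one ht0))]
    have e1 : 1 + 1 / t ≤ 2 / t := by
      rw [le_div_iff₀ ht0, add_mul, one_div_mul_cancel ht0.ne']; linarith [ht.2]
    have e2 : Real.log (1 + 1 / t) ≤ (2 / t) ^ (s / 2) / (s / 2) :=
      (Real.log_le_log (by positivity) e1).trans
        (Real.log_le_rpow_div (by positivity) (by positivity))
    refine (mul_le_mul_of_nonneg_left e2 (Real.rpow_nonneg ht0.le _)).trans (le_of_eq ?_)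
    have e3 : t ^ (s / 2 - 1) = t ^ (s - 1) / t ^ (s / 2) := by
      rw [← Real.rpow_sub ht0]; congr 1; ring
    rw [Real.div_rpow zero_le_two ht0.le, e3]; ring
  · have hi : IntegrableOn (fun t : ℝ => t ^ (s - 2)) (Ioi 1) :=
      integrableOn_Ioi_rpow_of_lt (by linarith) zero_lt_one
    refine Integrable.mono' hi hm.aestronglyMeasurable ?_
    refine ae_restrict_of_forall_mem measurableSet_Ioi fun t ht => ?_
    have ht0 : 0 < t := zero_lt_one.trans ht
    rw [Real.norm_of_nonneg (mul_nonneg (Real.rpow_nonneg ht0.le _)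
      (log_one_add_nonneg zero_le_one ht0))]
    have e2 : Real.log (1 + 1 / t) ≤ 1 / t := by
      have := Real.log_le_sub_one_of_pos (show 0 < 1 + 1 / t by positivity)
      linarith
    refine (mul_le_mul_of_nonneg_left e2 (Real.rpow_nonneg ht0.le _)).trans (le_of_eq ?_)
    have e3 : t ^ (s - 2) = t ^ (s - 1) / t := by
      rw [← Real.rpow_sub_one ht0.ne']; congr 1; ring
    rw [e3]; ring

theorem mel_pos (h0 : 0 < s) (h1 : s < 1) : 0 < mel s := by
  unfold mel
  rw [setIntegral_pos_iff_support_of_nonneg_ae ?_ (mel_integrableOn h0 h1)]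
  · have : Ioi (0 : ℝ) ⊆ (Function.support fun t : ℝ => t ^ (s - 1) * Real.log (1 + 1 / t)) ∩
        Ioi 0 := by
      intro t ht
      have ht0 : 0 < t := ht
      refine ⟨(mul_pos (Real.rpow_pos_of_pos ht0 _) (Real.log_pos ?_)).ne', ht⟩
      have : 0 < 1 / t := by positivity
      linarith
    refine lt_of_lt_of_le ?_ (measure_mono this)
    simp
  · refine ae_restrict_of_forall_mem measurableSet_Ioi fun t ht => ?_
    have ht0 : 0 < t := ht
    exact mul_nonneg (Real.rpow_nonneg ht0.le _) (log_one_add_nonneg zero_le_one ht0)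

theorem mel_scale (h0 : 0 < s) (h1 : s < 1) {a : ℝ} (ha : 0 ≤ a) :
    IntegrableOn (fun t : ℝ => t ^ (s - 1) * Real.log (1 + a / t)) (Ioi 0) ∧
      ∫ t in Ioi (0 : ℝ), t ^ (s - 1) * Real.log (1 + a / t) = a ^ s * mel s := by
  rcases ha.eq_or_lt with rfl | ha
  · simp [Real.zero_rpow h0.ne']
  have e : ∀ u ∈ Ioi (0 : ℝ), (a * u) ^ (s - 1) * Real.log (1 + a / (a * u)) =
      a ^ (s - 1) * (u ^ (s - 1) * Real.log (1 + 1 / u)) := by
    intro u hu
    have hu0 : 0 < u := hu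
    rw [Real.mul_rpow ha.le hu0.le, show a / (a * u) = 1 / u by field_simp]; ring
  constructor
  · have h := (integrableOn_Ioi_comp_mul_left_iff
      (fun t : ℝ => t ^ (s - 1) * Real.log (1 + a / t)) 0 ha).1
    rw [mul_zero] at h
    refine h ?_
    refine (integrableOn_congr_fun e measurableSet_Ioi).2 ?_
    exact Integrable.const_mul (mel_integrableOn h0 h1) _
  · have h := integral_comp_mul_left_Ioi' (fun t : ℝ => t ^ (s - 1) * Real.log (1 + a / t)) 0 ha
    rw [mul_zero] at h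
    rw [← h, setIntegral_congr_fun measurableSet_Ioi e, integral_const_mul, smul_eq_mul,
      ← mul_assoc, Real.rpow_sub_one ha.ne']
    unfold mel
    congr 1
    field_simp

theorem mellin_param (h0 : 0 < s) (h1 : s < 1) {g : ℝ → ℝ} (hg : Continuous g) {a b : ℝ}
    (hab : a ≤ b) (hg0 : ∀ u ∈ Ioc a b, 0 ≤ g u) :
    IntegrableOn (fun t : ℝ => t ^ (s - 1) * ∫ u in a..b, Real.log (1 + g u / t)) (Ioi 0) ∧
      ∫ t in Ioi (0 : ℝ), t ^ (s - 1) * ∫ u in a..b, Real.log (1 + g u / t) =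
        (∫ u in a..b, g u ^ s) * mel s := by
  have hgm := hg.measurable
  have hF : Integrable (Function.uncurry fun t u : ℝ => t ^ (s - 1) * Real.log (1 + g u / t))
      ((volume.restrict (Ioi 0)).prod (volume.restrict (Ioc a b))) := by
    have hm : Measurable (Function.uncurry fun t u : ℝ =>
        t ^ (s - 1) * Real.log (1 + g u / t)) := by
      unfold Function.uncurry; fun_prop
    rw [integrable_prod_iff' hm.aestronglyMeasurable]
    refine ⟨ae_restrict_of_forall_mem measurableSet_Ioc fun u hu => (mel_scale h0 h1 (hg0 u hu)).1,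
      ?_⟩
    have hc : IntegrableOn (fun u => g u ^ s * mel s) (Ioc a b) := by
      refine Continuous.integrableOn_Ioc ?_
      exact (hg.rpow_const fun _ => Or.inr h0.le).mul continuous_const
    refine (integrableOn_congr_fun (fun u hu => ?_) measurableSet_Ioc).1 hc
    rw [← (mel_scale h0 h1 (hg0 u hu)).2]
    refine setIntegral_congr_fun measurableSet_Ioi fun t ht => ?_
    have ht0 : 0 < t := ht
    exact (Real.norm_of_nonneg (mul_nonneg (Real.rpow_nonneg ht0.le _)
      (log_one_add_nonneg (hg0 u hu) ht0))).symm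
  simp only [intervalIntegral.integral_of_le hab, ← integral_const_mul]
  refine ⟨hF.integral_prod_left, ?_⟩
  rw [integral_integral_swap hF, ← integral_mul_const]
  exact setIntegral_congr_fun measurableSet_Ioc fun u hu => (mel_scale h0 h1 (hg0 u hu)).2

theorem ent_eq {t y : ℝ} (ht : 0 < t) (hy : 0 ≤ y) :
    ent t y = ∫ u in (0 : ℝ)..y, Real.log (1 + u / t) := by
  have hpos : ∀ u ∈ uIcc 0 y, 0 < 1 + u / t := by
    intro u hu
    rw [uIcc_of_le hy] at hu
    have := div_nonneg hu.1 ht.le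
    linarith
  have hd : ∀ u ∈ uIcc 0 y, HasDerivAt (fun u => ent t u) (Real.log (1 + u / t)) u := by
    intro u hu
    have hp := hpos u hu
    have h1 : HasDerivAt (fun u : ℝ => 1 + u / t) (1 / t) u :=
      ((hasDerivAt_id u).div_const t).const_add 1
    have h2 := (((hasDerivAt_id u).add_const t).mul (h1.log hp.ne')).sub (hasDerivAt_id u)
    refine h2.congr_deriv ?_
    have h3 : t + u ≠ 0 := by
      have : t + u = t * (1 + u / t) := by field_simp
      rw [this]; positivity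
    simp only [id]
    field_simp
    ring
  rw [intervalIntegral.integral_eq_sub_of_hasDerivAt hd]
  · simp [ent]
  · refine ContinuousOn.intervalIntegrable ?_
    exact ContinuousOn.log (by fun_prop) fun u hu => (hpos u hu).ne'

theorem ent_nonneg {t y : ℝ} (ht : 0 < t) (hy : 0 ≤ y) : 0 ≤ ent t y := by
  rw [ent_eq ht hy]
  exact intervalIntegral.integral_nonneg hy fun u hu => log_one_add_nonneg hu.1 ht

theorem mellin_ent (h0 : 0 < s) (h1 : s < 1) {y : ℝ} (hy : 0 ≤ y) :
    IntegrableOn (fun t => t ^ (s - 1) * ent t y) (Ioi 0) ∧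
      ∫ t in Ioi (0 : ℝ), t ^ (s - 1) * ent t y = y ^ (1 + s) / (1 + s) * mel s := by
  obtain ⟨h2, h3⟩ := mellin_param h0 h1 continuous_id hy fun u hu => hu.1.le
  have e : ∀ t ∈ Ioi (0 : ℝ), t ^ (s - 1) * ent t y =
      t ^ (s - 1) * ∫ u in (0 : ℝ)..y, Real.log (1 + id u / t) := fun t ht => by
    rw [ent_eq ht hy]; rfl
  refine ⟨(integrableOn_congr_fun e measurableSet_Ioi).2 h2, ?_⟩
  rw [setIntegral_congr_fun measurableSet_Ioi e, h3]
  simp only [id]
  rw [integral_rpow (Or.inl (by linarith)), Real.zero_rpow (by linarith), sub_zero, add_comm s 1]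

theorem hasDerivAt_hfun {y : ℝ} (hy : y ≠ 0) : HasDerivAt hfun (Real.log y) y := by
  have h := (Real.hasDerivAt_mul_log hy).sub (hasDerivAt_id y)
  rw [add_sub_cancel_right] at h
  exact h

theorem Lam_eq {κ t : ℝ} (hκ : 0 < κ) (ht : 0 < t) :
    Lam κ t = ∫ f in (-κ)..κ, Real.log (1 + (κ ^ 2 - f ^ 2) / t) := by
  have hD2 : Real.sqrt (κ ^ 2 + t) ^ 2 = κ ^ 2 + t := Real.sq_sqrt (by positivity)
  have hDκ : κ < Real.sqrt (κ ^ 2 + t) := Real.lt_sqrt_of_sq_lt (by linarith)
  unfold Lam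
  generalize Real.sqrt (κ ^ 2 + t) = D at hD2 hDκ
  have hle : -κ ≤ κ := by linarith
  have hd : ∀ f ∈ uIcc (-κ) κ, HasDerivAt (fun f => hfun (D + f) - hfun (D - f) - f * Real.log t)
      (Real.log (1 + (κ ^ 2 - f ^ 2) / t)) f := by
    intro f hf
    rw [uIcc_of_le hle] at hf
    have p1 : 0 < D + f := by linarith [hf.1]
    have p2 : 0 < D - f := by linarith [hf.2]
    have h1 := (hasDerivAt_hfun p1.ne').comp f ((hasDerivAt_id f).const_add D)
    have h2 := (hasDerivAt_hfun p2.ne').comp f ((hasDerivAt_id f).const_sub D)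
    have h3 := (h1.sub h2).sub ((hasDerivAt_id f).mul_const (Real.log t))
    refine h3.congr_deriv ?_
    have e : 1 + (κ ^ 2 - f ^ 2) / t = (D + f) * (D - f) / t := by
      field_simp
      linarith
    rw [e, Real.log_div (mul_pos p1 p2).ne' ht.ne', Real.log_mul p1.ne' p2.ne']
    ring
  rw [intervalIntegral.integral_eq_sub_of_hasDerivAt hd]
  · simp only [sub_neg_eq_add, ← sub_eq_add_neg]; ring
  · refine ContinuousOn.intervalIntegrable ?_
    refine ContinuousOn.log (by fun_prop) fun f hf => ne_of_gt ?_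
    rw [uIcc_of_le hle] at hf
    have : 0 ≤ (κ ^ 2 - f ^ 2) / t := div_nonneg (by nlinarith [hf.1, hf.2]) ht.le
    linarith

theorem integral_sq_sub_rpow {κ : ℝ} (hκ : 0 < κ) :
    ∫ f in (-κ)..κ, (κ ^ 2 - f ^ 2) ^ s = κ ^ (2 * s + 1) * beta s := by
  have h := intervalIntegral.smul_integral_comp_mul_left (a := -1) (b := 1)
    (fun f : ℝ => (κ ^ 2 - f ^ 2) ^ s) κ
  rw [mul_neg, mul_one] at h
  rw [← h, smul_eq_mul, beta, Real.rpow_add_one hκ.ne', mul_comm (κ ^ (2 * s)), mul_assoc,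
    ← intervalIntegral.integral_const_mul (κ ^ (2 * s))]
  congr 1
  refine intervalIntegral.integral_congr fun u hu => ?_
  rw [uIcc_of_le (by norm_num)] at hu
  have h1 : 0 ≤ 1 - u ^ 2 := by nlinarith [hu.1, hu.2]
  rw [show κ ^ 2 - (κ * u) ^ 2 = κ ^ 2 * (1 - u ^ 2) by ring, Real.mul_rpow (by positivity) h1,
    Real.rpow_mul hκ.le, Real.rpow_two]

theorem mellin_Lam (h0 : 0 < s) (h1 : s < 1) {κ : ℝ} (hκ : 0 < κ) :
    IntegrableOn (fun t => t ^ (s - 1) * Lam κ t) (Ioi 0) ∧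
      ∫ t in Ioi (0 : ℝ), t ^ (s - 1) * Lam κ t = κ ^ (2 * s + 1) * beta s * mel s := by
  obtain ⟨h2, h3⟩ := mellin_param h0 h1 (g := fun f => κ ^ 2 - f ^ 2) (by fun_prop)
    (show -κ ≤ κ by linarith) fun u hu => by nlinarith [hu.1, hu.2]
  have e : ∀ t ∈ Ioi (0 : ℝ), t ^ (s - 1) * Lam κ t =
      t ^ (s - 1) * ∫ f in (-κ)..κ, Real.log (1 + (κ ^ 2 - f ^ 2) / t) := fun t ht => by
    rw [Lam_eq hκ ht]
  refine ⟨(integrableOn_congr_fun e measurableSet_Ioi).2 h2, ?_⟩
  rw [setIntegral_congr_fun measurableSet_Ioi e, h3, integral_sq_sub_rpow hκ]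

theorem integral_beta_real (h0 : 0 < s) : ∫ x in (0 : ℝ)..1, x ^ s * (1 - x) ^ s =
    Real.Gamma (s + 1) * Real.Gamma (s + 1) / Real.Gamma (s + 1 + (s + 1)) := by
  have h := ProbabilityTheory.beta_eq_betaIntegralReal (s + 1) (s + 1) (by linarith) (by linarith)
  rw [ProbabilityTheory.beta] at h
  rw [h, Complex.betaIntegral]
  have e : ∫ x in (0 : ℝ)..1, (x : ℂ) ^ (((s + 1 : ℝ) : ℂ) - 1) *
      (1 - (x : ℂ)) ^ (((s + 1 : ℝ) : ℂ) - 1) =
      ∫ x in (0 : ℝ)..1, ((x ^ s * (1 - x) ^ s : ℝ) : ℂ) := by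
    refine intervalIntegral.integral_congr fun x hx => ?_
    rw [uIcc_of_le zero_le_one] at hx
    rw [show ((s + 1 : ℝ) : ℂ) - 1 = (s : ℂ) by push_cast; ring, Complex.ofReal_mul,
      Complex.ofReal_cpow hx.1, Complex.ofReal_cpow (by linarith [hx.2])]
    push_cast; rfl
  rw [e, intervalIntegral.integral_ofReal, Complex.ofReal_re]

theorem beta_eq (h0 : 0 < s) :
    beta s = Real.sqrt Real.pi * Real.Gamma (s + 1) / Real.Gamma (s + 3 / 2) := by
  have h := intervalIntegral.smul_integral_comp_mul_add (a := 0) (b := 1)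
    (fun u : ℝ => (1 - u ^ 2) ^ s) 2 (-1)
  rw [show (2 : ℝ) * 0 + -1 = -1 by norm_num, show (2 : ℝ) * 1 + -1 = 1 by norm_num] at h
  have e : ∫ x in (0 : ℝ)..1, (1 - (2 * x + -1) ^ 2) ^ s =
      ∫ x in (0 : ℝ)..1, 2 ^ (2 * s) * (x ^ s * (1 - x) ^ s) := by
    refine intervalIntegral.integral_congr fun x hx => ?_
    rw [uIcc_of_le zero_le_one] at hx
    have h1 : 0 ≤ 1 - x := by linarith [hx.2]
    rw [show 1 - (2 * x + -1) ^ 2 = 2 ^ 2 * (x * (1 - x)) by ring,
      Real.mul_rpow (by positivity) (mul_nonneg hx.1 h1), Real.mul_rpow hx.1 h1,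
      Real.rpow_mul zero_le_two, Real.rpow_two]
  rw [beta, ← h, e, intervalIntegral.integral_const_mul, integral_beta_real h0, smul_eq_mul]
  have hd := Real.Gamma_mul_Gamma_add_half (s + 1)
  rw [show s + 1 + 1 / 2 = s + 3 / 2 by ring, show 2 * (s + 1) = s + 1 + (s + 1) by ring] at hd
  have p1 : 0 < Real.Gamma (s + 3 / 2) := Real.Gamma_pos_of_pos (by linarith)
  have p2 : 0 < Real.Gamma (s + 1 + (s + 1)) := Real.Gamma_pos_of_pos (by linarith)
  have e2 : (2 : ℝ) ^ (2 * s) * 2 ^ (1 - (s + 1 + (s + 1))) * 2 = 1 := by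
    rw [← Real.rpow_add two_pos, ← Real.rpow_add_one two_ne_zero,
      show 2 * s + (1 - (s + 1 + (s + 1))) + 1 = 0 by ring, Real.rpow_zero]
  rw [eq_div_iff p1.ne']
  calc 2 * (2 ^ (2 * s) * (Real.Gamma (s + 1) * Real.Gamma (s + 1) / Real.Gamma (s + 1 + (s + 1))))
        * Real.Gamma (s + 3 / 2)
      = 2 * 2 ^ (2 * s) * Real.Gamma (s + 1) * (Real.Gamma (s + 1) * Real.Gamma (s + 3 / 2)) /
        Real.Gamma (s + 1 + (s + 1)) := by ring
    _ = (2 ^ (2 * s) * 2 ^ (1 - (s + 1 + (s + 1))) * 2) * (Real.sqrt Real.pi *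
        Real.Gamma (s + 1)) := by rw [hd]; field_simp
    _ = _ := by rw [e2, one_mul]

theorem cs_beta_Lone (h0 : 0 < s) (h1 : s < 1) : cs s * beta s * Lone (s + 1 / 2) = 1 := by
  rw [beta_eq h0, cs, Lone, Lcl, show s + 1 / 2 - 1 / 2 = s by ring,
    show s + 1 / 2 + 1 / 2 = 1 + s by ring, show s + 1 / 2 + 1 = s + 3 / 2 by ring,
    show s + 1 / 2 + 3 / 2 = (s + 1) + 1 by ring, Real.Gamma_add_one (s := s + 1) (by linarith),
    Real.div_rpow h0.le (by linarith), Real.rpow_add (by linarith), Real.rpow_one]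
  have p1 : 0 < Real.Gamma (s + 3 / 2) := Real.Gamma_pos_of_pos (by linarith)
  have p2 : 0 < Real.Gamma (s + 1) := Real.Gamma_pos_of_pos (by linarith)
  have p3 : 0 < s ^ s := Real.rpow_pos_of_pos h0 _
  have p4 : 0 < (1 + s) ^ s := Real.rpow_pos_of_pos (by linarith) _
  have p5 : 0 < Real.sqrt Real.pi := Real.sqrt_pos.2 Real.pi_pos
  have p6 : 0 < s + 1 := by linarith
  field_simp
  ring

theorem beta_pos (h0 : 0 < s) : 0 < beta s := by
  rw [beta_eq h0]
  have p1 : 0 < Real.Gamma (s + 3 / 2) := Real.Gamma_pos_of_pos (by linarith)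
  have p2 : 0 < Real.Gamma (s + 1) := Real.Gamma_pos_of_pos (by linarith)
  have p5 : 0 < Real.sqrt Real.pi := Real.sqrt_pos.2 Real.pi_pos
  positivity

end Vale.Agent.P371
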