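import Vale.Agent.P371.Basic

open MeasureTheory Matrix Set
open scoped Matrix.Norms.L2Operator ComplexOrder

namespace Vale.Agent.P371

variable {n : Type} [Fintype n] [DecidableEq n]

/-- `tr` as a real linear map -/
noncomputable def trL (n : Type) [Fintype n] : Matrix n n ℂ →ₗ[ℝ] ℝ where
  toFun A := (Matrix.trace A).re
  map_add' A B := by simp
  map_smul' c A := by simp

/-- `tr` as a continuous linear map -/
noncomputable def trC (n : Type) [Fintype n] [DecidableEq n] : Matrix n n ℂ →L[ℝ] ℝ :=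
  LinearMap.toContinuousLinearMap (trL n)

theorem trC_apply (A : Matrix n n ℂ) : trC n A = tr A := rfl

omit [DecidableEq n] in
theorem tr_add (A B : Matrix n n ℂ) : tr (A + B) = tr A + tr B := by simp [tr]
omit [DecidableEq n] in
theorem tr_sub (A B : Matrix n n ℂ) : tr (A - B) = tr A - tr B := by simp [tr]
omit [DecidableEq n] in
theorem tr_neg (A : Matrix n n ℂ) : tr (-A) = -tr A := by simp [tr]
omit [DecidableEq n] in
theorem tr_zero : tr (0 : Matrix n n ℂ) = 0 := by simp [tr]
omit [DecidableEq n] in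
theorem tr_smul (c : ℝ) (A : Matrix n n ℂ) : tr (c • A) = c * tr A := by simp [tr]
theorem tr_one : tr (1 : Matrix n n ℂ) = Fintype.card n := by simp [tr]

omit [DecidableEq n] in
theorem tr_comm {m : Type} [Fintype m] (A : Matrix n m ℂ) (B : Matrix m n ℂ) :
    tr (A * B) = tr (B * A) := by
  unfold tr; rw [Matrix.trace_mul_comm]

omit [DecidableEq n] in
theorem tr_conjTranspose (A : Matrix n n ℂ) : tr Aᴴ = tr A := by
  unfold tr; rw [Matrix.trace_conjTranspose]; simp

omit [DecidableEq n] in
/-- the commutator of Hermitian matrices is trace-orthogonal to Hermitian matrices -/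
theorem tr_mul_swap {A B L : Matrix n n ℂ} (hA : A.IsHermitian) (hB : B.IsHermitian)
    (hL : L.IsHermitian) : tr (A * B * L) = tr (B * A * L) := by
  rw [← tr_conjTranspose (A * B * L), conjTranspose_mul, conjTranspose_mul, hA.eq, hB.eq, hL.eq,
    tr_comm]

theorem continuous_tr : Continuous (tr : Matrix n n ℂ → ℝ) := (trC n).continuous

theorem HasDerivAt.tr' {f : ℝ → Matrix n n ℂ} {f' : Matrix n n ℂ} {x : ℝ}
    (h : HasDerivAt f f' x) : HasDerivAt (fun y => tr (f y)) (tr f') x :=
  (trC n).hasFDerivAt.comp_hasDerivAt x h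

theorem trf_eq_sum {A : Matrix n n ℂ} (hA : A.IsHermitian) (f : ℝ → ℝ) :
    trf f A = ∑ i, f (hA.eigenvalues i) := by
  unfold trf tr
  rw [hA.cfc_eq, Matrix.IsHermitian.cfc]
  simp only [Unitary.conjStarAlgAut_apply]
  rw [Matrix.trace_mul_comm, ← mul_assoc]
  simp [Matrix.trace]

theorem tr_eq_sum {A : Matrix n n ℂ} (hA : A.IsHermitian) :
    tr A = ∑ i, hA.eigenvalues i := by
  unfold tr; rw [hA.trace_eq_sum_eigenvalues]; simp

theorem mlog_herm (A : Matrix n n ℂ) : (mlog A).IsHermitian :=
  (cfc_predicate (R := ℝ) Real.log A : IsSelfAdjoint _)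

theorem contOn_spec (f : ℝ → ℝ) (A : Matrix n n ℂ) : ContinuousOn f (spectrum ℝ A) :=
  (Matrix.finite_real_spectrum (A := A)).continuousOn f

end Vale.Agent.P371
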