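import Vale.Agent.P371.GT
import Vale.Agent.P371.LogDeriv
import Vale.Agent.P371.Scalar
import Vale.Agent.P371.TrLem

open MeasureTheory Matrix Set
open scoped Matrix.Norms.L2Operator ComplexOrder

namespace Vale.Agent.P371

variable {n : Type} [Fintype n] [DecidableEq n]

/-- real diagonal matrix -/
noncomputable def dg (d : n → ℝ) : Matrix n n ℂ := diagonal fun i => (d i : ℂ)

/-- shifted thresholds -/
noncomputable def Dt (κ : n → ℝ) (t : ℝ) : Matrix n n ℂ := dg fun i => Real.sqrt (κ i ^ 2 + t)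

/-- `log (D + F) + log (D - F)` -/
noncomputable def Lt (κ : n → ℝ) (t : ℝ) (F : Matrix n n ℂ) : Matrix n n ℂ :=
  mlog (Dt κ t + F) + mlog (Dt κ t - F)

omit [Fintype n] in
theorem dg_herm (d : n → ℝ) : (dg d).IsHermitian := by
  unfold dg
  rw [Matrix.isHermitian_diagonal_iff]
  intro i
  simp [IsSelfAdjoint]

omit [Fintype n] in
theorem dg_add (d e : n → ℝ) : dg d + dg e = dg (d + e) := by
  simp [dg, diagonal_add]

omit [Fintype n] in
theorem dg_sub (d e : n → ℝ) : dg d - dg e = dg (d - e) := by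
  simp [dg, diagonal_sub]

theorem dg_mul (d e : n → ℝ) : dg d * dg e = dg (d * e) := by
  simp [dg, diagonal_mul_diagonal]

omit [Fintype n] in
theorem dg_const (c : ℝ) : dg (fun _ : n => c) = c • (1 : Matrix n n ℂ) := by
  ext i j
  by_cases h : i = j <;> simp [dg, h]

omit [Fintype n] in
theorem dg_posDef {d : n → ℝ} (h : ∀ i, 0 < d i) : (dg d).PosDef := by
  unfold dg
  rw [Matrix.posDef_diagonal_iff]
  intro i
  exact_mod_cast h i

theorem Lt_herm (κ : n → ℝ) (t : ℝ) (F : Matrix n n ℂ) : (Lt κ t F).IsHermitian :=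
  (mlog_herm _).add (mlog_herm _)

theorem Dt_sq {κ : n → ℝ} {t : ℝ} (ht : 0 < t) :
    Dt κ t * Dt κ t = dg κ * dg κ + t • (1 : Matrix n n ℂ) := by
  rw [Dt, dg_mul, dg_mul, ← dg_const, dg_add]
  congr 1
  ext i
  have : 0 ≤ κ i ^ 2 + t := by positivity
  simp only [Pi.mul_apply, Pi.add_apply]
  rw [Real.mul_self_sqrt this]; ring

theorem sqrt_gt {k t : ℝ} (ht : 0 < t) : k < Real.sqrt (k ^ 2 + t) :=
  Real.lt_sqrt_of_sq_lt (by linarith)

omit [Fintype n] in
theorem Dt_add_pos {κ : n → ℝ} {t : ℝ} (ht : 0 < t) {F : Matrix n n ℂ}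
    (h : (dg κ + F).PosSemidef) : (Dt κ t + F).PosDef := by
  have h1 : (Dt κ t - dg κ).PosDef := by
    rw [Dt, dg_sub]
    exact dg_posDef fun i => sub_pos.2 (sqrt_gt ht)
  have := h1.add_posSemidef h
  rwa [show Dt κ t - dg κ + (dg κ + F) = Dt κ t + F by abel] at this

omit [Fintype n] in
theorem Dt_sub_pos {κ : n → ℝ} {t : ℝ} (ht : 0 < t) {F : Matrix n n ℂ}
    (h : (dg κ - F).PosSemidef) : (Dt κ t - F).PosDef := by
  rw [sub_eq_add_neg] at h ⊢
  exact Dt_add_pos ht h

/-- `tr ((D+F)(D-F) L) = tr ((A + t) L)` for Hermitian `L` -/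
theorem tr_PQ {κ : n → ℝ} {t : ℝ} (ht : 0 < t) {F L : Matrix n n ℂ} (hF : F.IsHermitian)
    (hL : L.IsHermitian) :
    tr ((Dt κ t + F) * (Dt κ t - F) * L) = tr ((dg κ * dg κ - F * F) * L) + t * tr L := by
  have h1 := tr_mul_swap (dg_herm fun i => Real.sqrt (κ i ^ 2 + t)) hF hL
  have e : (Dt κ t + F) * (Dt κ t - F) * L = (dg κ * dg κ - F * F) * L + t • L
      + (F * Dt κ t * L - Dt κ t * F * L) := by
    rw [add_mul, mul_sub, mul_sub, Dt_sq ht]
    simp only [add_mul, sub_mul, smul_mul_assoc, one_mul]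
    abel
  rw [e, tr_add, tr_add, tr_sub, tr_smul]
  unfold Dt
  rw [h1]; ring

theorem hasDerivAt_dg {d : ℝ → n → ℝ} {d' : n → ℝ} {t : ℝ}
    (h : ∀ i, HasDerivAt (fun u => d u i) (d' i) t) : HasDerivAt (fun u => dg (d u)) (dg d') t := by
  let T : (n → ℝ) →ₗ[ℝ] Matrix n n ℂ :=
    { toFun := dg
      map_add' := fun a b => (dg_add a b).symm
      map_smul' := fun c a => by
        ext i j
        by_cases h : i = j <;> simp [dg, h] }
  exact (LinearMap.toContinuousLinearMap T).hasFDerivAt.comp_hasDerivAt t (hasDerivAt_pi.2 h)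

theorem hasDerivAt_Dt (κ : n → ℝ) {t : ℝ} (ht : 0 < t) :
    HasDerivAt (Dt κ) (Dt κ t + Dt κ t)⁻¹ t := by
  have hpos : ∀ i, 0 < κ i ^ 2 + t := fun i => by positivity
  have h : HasDerivAt (Dt κ) (dg fun i => 1 / (2 * Real.sqrt (κ i ^ 2 + t))) t :=
    hasDerivAt_dg (d := fun u i => Real.sqrt (κ i ^ 2 + u)) fun i =>
      ((hasDerivAt_id t).const_add (κ i ^ 2)).sqrt (hpos i).ne'
  have e : (Dt κ t + Dt κ t)⁻¹ = dg fun i => 1 / (2 * Real.sqrt (κ i ^ 2 + t)) := by
    apply Matrix.inv_eq_right_inv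
    rw [Dt, dg_add, dg_mul]
    have : ((fun i => Real.sqrt (κ i ^ 2 + t)) + fun i => Real.sqrt (κ i ^ 2 + t)) *
        (fun i => 1 / (2 * Real.sqrt (κ i ^ 2 + t))) = fun _ => (1 : ℝ) := by
      ext i
      have := Real.sqrt_pos.2 (hpos i)
      simp only [Pi.mul_apply, Pi.add_apply]
      field_simp
      ring
    rw [this, dg_const, one_smul]
  rwa [e]

/-- the function `Θ` -/
noncomputable def Th (κ : n → ℝ) (F : Matrix n n ℂ) (t : ℝ) : ℝ :=
  tr ((Dt κ t + F) * (Dt κ t - F) * Lt κ t F)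
    - Real.log t * (tr (dg κ * dg κ - F * F) + t * Fintype.card n) - tr (dg κ * dg κ - F * F)

theorem tr_PQ' {κ : n → ℝ} {t : ℝ} (ht : 0 < t) {F : Matrix n n ℂ} (hF : F.IsHermitian) :
    tr ((Dt κ t + F) * (Dt κ t - F)) = tr (dg κ * dg κ - F * F) + t * Fintype.card n := by
  have := tr_PQ (κ := κ) ht hF (isHermitian_one (n := n) (α := ℂ))
  rwa [mul_one, mul_one, tr_one] at this

section
variable {κ : n → ℝ} {F : Matrix n n ℂ}

theorem Th_nonneg (hF : F.IsHermitian) (hp : (dg κ + F).PosSemidef) (hm : (dg κ - F).PosSemidef)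
    {t : ℝ} (ht : 0 < t) : 0 ≤ Th κ F t := by
  have := theta_nonneg (Dt_add_pos ht hp) (Dt_sub_pos ht hm) ht
  rw [tr_PQ' ht hF] at this
  unfold Th Lt
  linarith

theorem Th_le (hF : F.IsHermitian) (hp : (dg κ + F).PosSemidef) (hm : (dg κ - F).PosSemidef)
    {t M : ℝ} (ht : 0 < t) (h1 : ‖Dt κ t + F‖ ≤ M) (h2 : ‖Dt κ t - F‖ ≤ M) :
    Th κ F t ≤ (M ^ 4 + M ^ 2 * |Real.log t| + t) * Fintype.card n := by
  have := theta_le (Dt_add_pos ht hp) (Dt_sub_pos ht hm) ht h1 h2
  rw [tr_PQ' ht hF] at this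
  unfold Th Lt
  linarith

theorem Th_deriv (hF : F.IsHermitian) (hp : (dg κ + F).PosSemidef) (hm : (dg κ - F).PosSemidef)
    {t : ℝ} (ht : 0 < t) : ∃ θ, HasDerivAt (Th κ F) θ t ∧
      θ ≤ tr (Lt κ t F) - tr (dg κ * dg κ - F * F) / t - Fintype.card n * Real.log t := by
  have hD := hasDerivAt_Dt κ ht
  set Wm := (Dt κ t + Dt κ t)⁻¹ with hWm
  have hP : HasDerivAt (fun u => Dt κ u + F) Wm t := hD.add_const F
  have hQ : HasDerivAt (fun u => Dt κ u - F) Wm t := hD.sub_const F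
  have hPp := Dt_add_pos ht hp
  have hQp := Dt_sub_pos ht hm
  have hL : HasDerivAt (fun u => Lt κ u F) (dlog (Dt κ t + F) Wm + dlog (Dt κ t - F) Wm) t :=
    (hasDerivAt_mlog hP (Filter.Eventually.of_forall fun u => (dg_herm _).add hF) hPp).add
      (hasDerivAt_mlog hQ (Filter.Eventually.of_forall fun u => (dg_herm _).sub hF) hQp)
  have h1 := HasDerivAt.tr' ((hP.mul hQ).mul hL)
  have h2 := (Real.hasDerivAt_log ht.ne').mul
    (((hasDerivAt_id t).mul_const (Fintype.card n : ℝ)).const_add (tr (dg κ * dg κ - F * F)))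
  refine ⟨_, (h1.sub h2).sub_const (tr (dg κ * dg κ - F * F)), ?_⟩
  have hb := dlog_bound hPp hQp
  have hs : Dt κ t + F + (Dt κ t - F) = Dt κ t + Dt κ t := by abel
  rw [hs, ← hWm] at hb
  have hWh : Wm.IsHermitian := ((dg_herm _).add (dg_herm _)).inv
  have hDD : (Dt κ t + Dt κ t).PosDef := by rw [← hs]; exact hPp.add hQp
  have hdet : IsUnit (Dt κ t + Dt κ t).det := (Matrix.isUnit_iff_isUnit_det _).1 hDD.isUnit
  have hWD : Wm * Dt κ t + Wm * Dt κ t = 1 := by
    rw [← mul_add, hWm, Matrix.nonsing_inv_mul _ hdet]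
  have hsw := tr_mul_swap (dg_herm fun i => Real.sqrt (κ i ^ 2 + t)) hWh (Lt_herm κ t F)
  have hsw2 := tr_mul_swap hF hWh (Lt_herm κ t F)
  have e1 : tr ((Wm * (Dt κ t - F) + (Dt κ t + F) * Wm) * Lt κ t F) = tr (Lt κ t F) := by
    have : tr (Lt κ t F) = tr (Wm * Dt κ t * Lt κ t F) + tr (Wm * Dt κ t * Lt κ t F) := by
      rw [← tr_add, ← add_mul, hWD, one_mul]
    rw [this]
    simp only [mul_sub, add_mul, sub_mul, tr_add, tr_sub]
    unfold Dt at *
    linarith
  simp only [Pi.mul_apply, id] 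
  rw [tr_add, e1]
  have : t⁻¹ * (tr (dg κ * dg κ - F * F) + t * Fintype.card n)
      = tr (dg κ * dg κ - F * F) / t + Fintype.card n := by field_simp
  rw [this]
  linarith

/-- the defect term -/
noncomputable def dfc (s : ℝ) (κ : n → ℝ) (F : Matrix n n ℂ) (t : ℝ) : ℝ :=
  s * Th κ F t + t * tr (Lt κ t F) - tr (dg κ * dg κ - F * F) - t * Fintype.card n * Real.log t

theorem continuousOn_Dt (κ : n → ℝ) : ContinuousOn (Dt κ) (Ioi 0) := fun _ ht =>
  (hasDerivAt_Dt κ ht).continuousAt.continuousWithinAt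

theorem continuousOn_Lt {X : Type} [TopologicalSpace X] {S : Set X} {τ : X → ℝ}
    {G : X → Matrix n n ℂ} (hτ : ContinuousOn τ S) (hG : ContinuousOn G S)
    (h0 : ∀ x ∈ S, 0 < τ x) (hp : ∀ x ∈ S, (dg κ + G x).PosSemidef ∧ (dg κ - G x).PosSemidef) :
    ContinuousOn (fun x => Lt κ (τ x) (G x)) S := by
  have hD : ContinuousOn (fun x => Dt κ (τ x)) S := (continuousOn_Dt κ).comp hτ h0
  exact (continuousOn_mlog.comp (hD.add hG) fun x hx => Dt_add_pos (h0 x hx) (hp x hx).1).add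
    (continuousOn_mlog.comp (hD.sub hG) fun x hx => Dt_sub_pos (h0 x hx) (hp x hx).2)

theorem dfc_integral (hF : F.IsHermitian) (hp : (dg κ + F).PosSemidef)
    (hm : (dg κ - F).PosSemidef) {s α β : ℝ} (hα : 0 < α) (hαβ : α ≤ β) :
    IntervalIntegrable (fun t => t ^ (s - 1) * dfc s κ F t) volume α β ∧
      -(α ^ s * Th κ F α) ≤ ∫ t in α..β, t ^ (s - 1) * dfc s κ F t := by
  choose! θ hθ using fun t (ht : 0 < t) => Th_deriv (κ := κ) hF hp hm ht
  have hpos : ∀ t ∈ Icc α β, 0 < t := fun t ht => hα.trans_le ht.1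
  have hTc : ContinuousOn (Th κ F) (Icc α β) := fun t ht =>
    (hθ t (hpos t ht)).1.continuousAt.continuousWithinAt
  have hlog : ContinuousOn Real.log (Icc α β) :=
    Real.continuousOn_log.mono fun t ht => (hpos t ht).ne'
  have hc : ContinuousOn (fun t => t ^ (s - 1) * dfc s κ F t) (Icc α β) := by
    have h1 : ContinuousOn (fun t => tr (Lt κ t F)) (Icc α β) :=
      continuous_tr.comp_continuousOn
        (continuousOn_Lt continuousOn_id continuousOn_const hpos fun _ _ => ⟨hp, hm⟩)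
    unfold dfc
    exact (continuousOn_id.rpow_const fun t ht => Or.inl (hpos t ht).ne').mul
      ((((continuousOn_const.mul hTc).add (continuousOn_id.mul h1)).sub continuousOn_const).sub
        ((continuousOn_id.mul continuousOn_const).mul hlog))
  refine ⟨hc.intervalIntegrable_of_Icc hαβ, ?_⟩
  have key := intervalIntegral.sub_le_integral_of_hasDeriv_right_of_le hαβ
    (g := fun t => t ^ s * Th κ F t) (g' := fun t => s * t ^ (s - 1) * Th κ F t + t ^ s * θ t)
    (φ := fun t => t ^ (s - 1) * dfc s κ F t)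
    ((continuousOn_id.rpow_const fun t ht => Or.inl (hpos t ht).ne').mul hTc)
    (fun t ht => ((Real.hasDerivAt_rpow_const (Or.inl (hα.trans ht.1).ne')).mul
      (hθ t (hα.trans ht.1)).1).hasDerivWithinAt)
    hc.integrableOn_Icc
    (fun t ht => by
      have h0 : 0 < t := hα.trans ht.1
      have h1 := (hθ t h0).2
      have e : t ^ s = t ^ (s - 1) * t := by
        rw [Real.rpow_sub_one h0.ne']; field_simp
      have h2 : 0 < t ^ (s - 1) := Real.rpow_pos_of_pos h0 _
      have h3 : t * θ t ≤ t * tr (Lt κ t F) - tr (dg κ * dg κ - F * F)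
          - t * Fintype.card n * Real.log t := by
        have := mul_le_mul_of_nonneg_left h1 h0.le
        have e2 : t * (tr (dg κ * dg κ - F * F) / t) = tr (dg κ * dg κ - F * F) := by field_simp
        linarith
      have := mul_le_mul_of_nonneg_left h3 h2.le
      rw [e]
      unfold dfc
      linarith)
  have h2 : 0 ≤ β ^ s * Th κ F β :=
    mul_nonneg (Real.rpow_nonneg (hα.le.trans hαβ) _) (Th_nonneg hF hp hm (hα.trans_le hαβ))
  linarith

theorem tr_shift_log {X : Matrix n n ℂ} (hX : X.PosSemidef) {t : ℝ} (ht : 0 < t) :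
    tr ((X + t • 1) * mlog (X + t • 1)) =
      trf (ent t) X + Real.log t * (tr X + t * Fintype.card n) + tr X := by
  have hh : IsSelfAdjoint X := hX.1
  have e1 : X + t • 1 = cfc (fun y : ℝ => y + t) X := by
    rw [cfc_add_const t (fun y : ℝ => y) X, cfc_id' ℝ X, Algebra.algebraMap_eq_smul_one]
  have e2 : mlog (X + t • 1) = cfc (fun y : ℝ => Real.log (y + t)) X := by
    rw [e1, mlog, ← cfc_comp' Real.log (fun y : ℝ => y + t) X
      ((Matrix.finite_real_spectrum.image _).continuousOn _)]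
  rw [e2]
  conv_lhs => rw [e1]
  rw [← cfc_mul _ _ X (contOn_spec _ _) (contOn_spec _ _)]
  change trf _ X = _
  rw [trf_eq_sum hX.1, trf_eq_sum hX.1, tr_eq_sum hX.1]
  have : ∀ i, (hX.1.eigenvalues i + t) * Real.log (hX.1.eigenvalues i + t) =
      ent t (hX.1.eigenvalues i) + Real.log t * (hX.1.eigenvalues i + t) + hX.1.eigenvalues i := by
    intro i
    have h0 := hX.eigenvalues_nonneg i
    have : 1 + hX.1.eigenvalues i / t = (hX.1.eigenvalues i + t) / t := by field_simp; ring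
    rw [ent, this, Real.log_div (by positivity) ht.ne']
    ring
  simp only [this, Finset.sum_add_distrib, ← Finset.mul_sum, Finset.sum_const, Finset.card_univ,
    nsmul_eq_mul]
  ring

/-- the pointwise Hamilton-Jacobi inequality at level `t` -/
theorem hj_pt (hF : F.IsHermitian) (hp : (dg κ + F).PosSemidef) (hm : (dg κ - F).PosSemidef)
    {X : Matrix n n ℂ} (hX : X.PosSemidef) {s t : ℝ} (hs : 0 < s) (ht : 0 < t) :
    (1 + s) * (tr (Lt κ t F * X) - Real.log t * tr X)
      - s * (tr (Lt κ t F * (dg κ * dg κ - F * F)) - Real.log t * tr (dg κ * dg κ - F * F))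
      ≤ (1 + s) * trf (ent t) X - dfc s κ F t := by
  have hXt : (X + t • (1 : Matrix n n ℂ)).PosDef := by
    rw [add_comm, ← dg_const]
    exact (dg_posDef fun _ => ht).add_posSemidef hX
  have h := gt_dual hXt (Dt_add_pos ht hp) (Dt_sub_pos ht hm)
  rw [tr_shift_log hX ht, tr_PQ' ht hF, tr_add, tr_smul, tr_one] at h
  change tr ((X + t • 1) * Lt κ t F) ≤ _ at h
  rw [add_mul, smul_mul_assoc, one_mul, tr_add, tr_smul, tr_comm X] at h
  have h2 := mul_le_mul_of_nonneg_left h (by linarith : 0 ≤ 1 + s)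
  unfold dfc Th
  rw [tr_PQ ht hF (Lt_herm κ t F), tr_comm (dg κ * dg κ - F * F)]
  linarith

end

end Vale.Agent.P371
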