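import Vale.Agent.P371.GroundA
import Vale.Agent.P371.Kfam
import Vale.Agent.P371.Cost

open MeasureTheory Matrix Set Filter Topology
open scoped Matrix.Norms.L2Operator ComplexOrder

namespace Vale.Agent.P371

variable {n : Type} [Fintype n] [DecidableEq n]

theorem hasDerivAt_trh {P : ℝ → Matrix n n ℂ} {P' : Matrix n n ℂ} {τ : ℝ} {S : Set ℝ}
    (hP : HasDerivAt P P' τ) (herm : ∀ᶠ σ in nhds τ, (P σ).IsHermitian) (pos : (P τ).PosDef) :
    HasDerivWithinAt (fun σ => tr (P σ * mlog (P σ)) - tr (P σ)) (tr (mlog (P τ) * P')) S τ := by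
  have h := (HasDerivAt.tr' (hP.mul (hasDerivAt_mlog hP herm pos))).sub (HasDerivAt.tr' hP)
  rw [tr_add, tr_mul_dlog pos, add_sub_cancel_right, tr_comm] at h
  exact h.hasDerivWithinAt

theorem trh_dg {d : n → ℝ} : tr (dg d * mlog (dg d)) - tr (dg d) = ∑ i, hfun (d i) := by
  have hh : IsSelfAdjoint (dg d) := dg_herm d
  have e : dg d * mlog (dg d) - dg d = cfc hfun (dg d) := by
    unfold hfun
    rw [cfc_sub _ _ _ (contOn_spec _ _) (contOn_spec _ _),
      cfc_mul _ _ _ (contOn_spec _ _) (contOn_spec _ _), cfc_id' ℝ (dg d)]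
    rfl
  rw [← tr_sub, e]
  exact trf_diagonal hfun d

theorem tr_dg (d : n → ℝ) : tr (dg d) = ∑ i, d i := by simp [tr, dg]

/-- the flux -/
noncomputable def flux (κ : n → ℝ) (F V : Matrix n n ℂ) (t : ℝ) : ℝ :=
  tr (Lt κ t F * (V - (dg κ * dg κ - F * F))) - Real.log t * tr (V - (dg κ * dg κ - F * F))

section
variable {κ : n → ℝ} {V F : ℝ → Matrix n n ℂ} {a b : ℝ}

theorem Ric.contOn {K : Matrix n n ℂ} (hR : Ric K V F a b) : ContinuousOn F (Icc a b) :=
  fun x hx => (hR x hx).2.continuousAt.continuousWithinAt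

theorem flux_contOn (hR : Ric (dg κ) V F a b) (hV : ContinuousOn V (Icc a b))
    (hm : ∀ x ∈ Icc a b, (dg κ + F x).PosSemidef ∧ (dg κ - F x).PosSemidef) :
    ContinuousOn (fun q : ℝ × ℝ => flux κ (F q.1) (V q.1) q.2) (Icc a b ×ˢ Ioi 0) := by
  have hF : ContinuousOn (fun q : ℝ × ℝ => F q.1) (Icc a b ×ˢ Ioi 0) :=
    hR.contOn.comp continuousOn_fst fun q hq => hq.1
  have hV' : ContinuousOn (fun q : ℝ × ℝ => V q.1) (Icc a b ×ˢ Ioi 0) :=
    hV.comp continuousOn_fst fun q hq => hq.1
  have hL : ContinuousOn (fun q : ℝ × ℝ => Lt κ q.2 (F q.1)) (Icc a b ×ˢ Ioi 0) :=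
    continuousOn_Lt continuousOn_snd hF (fun q hq => hq.2) fun q hq => hm q.1 hq.1
  have hlog : ContinuousOn (fun q : ℝ × ℝ => Real.log q.2) (Icc a b ×ˢ Ioi 0) :=
    continuousOn_snd.log fun q hq => (mem_Ioi.1 hq.2).ne'
  have hA := hV'.sub ((continuousOn_const (c := dg κ * dg κ)).sub (hF.mul hF))
  exact (continuous_tr.comp_continuousOn (hL.mul hA)).sub
    (hlog.mul (continuous_tr.comp_continuousOn hA))

theorem flux_integral (hab : a ≤ b) (hR : Ric (dg κ) V F a b) (hV : ContinuousOn V (Icc a b))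
    (hm : ∀ x ∈ Icc a b, (dg κ + F x).PosSemidef ∧ (dg κ - F x).PosSemidef)
    (Fa : F a = dg κ) (Fb : F b = -dg κ) {t : ℝ} (ht : 0 < t) :
    ∫ x in a..b, flux κ (F x) (V x) t = ∑ i, Lam (κ i) t := by
  have hFc := hR.contOn
  have hP : ∀ x ∈ Icc a b, (Dt κ t + F x).PosDef := fun x hx => Dt_add_pos ht (hm x hx).1
  have hQ : ∀ x ∈ Icc a b, (Dt κ t - F x).PosDef := fun x hx => Dt_sub_pos ht (hm x hx).2
  have hc : ∀ G : ℝ → Matrix n n ℂ, ContinuousOn G (Icc a b) → (∀ x ∈ Icc a b, (G x).PosDef) →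
      ContinuousOn (fun x => tr (G x * mlog (G x)) - tr (G x)) (Icc a b) := fun G h1 h2 =>
    (continuous_tr.comp_continuousOn (h1.mul (continuousOn_mlog.comp h1 h2))).sub
      (continuous_tr.comp_continuousOn h1)
  have key := intervalIntegral.integral_eq_sub_of_hasDeriv_right_of_le hab
    (f := fun x => (tr ((Dt κ t - F x) * mlog (Dt κ t - F x)) - tr (Dt κ t - F x))
      - (tr ((Dt κ t + F x) * mlog (Dt κ t + F x)) - tr (Dt κ t + F x)) + Real.log t * tr (F x))
    (f' := fun x => flux κ (F x) (V x) t)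
    (((hc _ (continuousOn_const.sub hFc) hQ).sub (hc _ (continuousOn_const.add hFc) hP)).add
      (continuousOn_const.mul (continuous_tr.comp_continuousOn hFc)))
    (fun x hx => by
      have hx' : x ∈ Icc a b := Ioo_subset_Icc_self hx
      have hev : ∀ᶠ σ in nhds x, (F σ).IsHermitian := by
        filter_upwards [Icc_mem_nhds hx.1 hx.2] with σ hσ using (hR σ hσ).1
      have hd := (hR x hx').2
      have h1 := hasDerivAt_trh (S := Ioi x) (hd.const_sub (Dt κ t))
        (hev.mono fun σ h => (dg_herm _).sub h) (hQ x hx')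
      have h2 := hasDerivAt_trh (S := Ioi x) (hd.const_add (Dt κ t))
        (hev.mono fun σ h => (dg_herm _).add h) (hP x hx')
      have h3 := ((HasDerivAt.tr' hd).const_mul (Real.log t)).hasDerivWithinAt (s := Ioi x)
      refine ((h1.sub h2).add h3).congr_deriv ?_
      unfold flux Lt
      rw [← neg_sub (V x), neg_neg, mul_neg, tr_neg, tr_neg, add_mul, tr_add]
      ring)
    (((flux_contOn hR hV hm).comp (f := fun x => (x, t)) (by fun_prop)
      fun x hx => ⟨hx, ht⟩).intervalIntegrable_of_Icc hab)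
  rw [key]
  simp only [Fa, Fb, sub_neg_eq_add, ← sub_eq_add_neg, tr_neg]
  unfold Dt
  rw [dg_add, dg_sub, trh_dg, trh_dg, tr_dg]
  simp only [Lam, Finset.sum_sub_distrib, ← Finset.mul_sum, ← Finset.sum_mul, Pi.add_apply,
    Pi.sub_apply]
  ring

theorem flux_bound {s : ℝ} (h0 : 0 < s) (h1 : s < 1) {G X : Matrix n n ℂ} (hG : G.IsHermitian)
    (hp : (dg κ + G).PosSemidef) (hm : (dg κ - G).PosSemidef) (hX : X.PosSemidef)
    {α β : ℝ} (hα : 0 < α) (hαβ : α ≤ β) :
    ∫ t in α..β, s * (t ^ (s - 1) * flux κ G (((1 + s) / s) • X) t) ≤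
      mel s * trf (fun y => y ^ (1 + s)) X + α ^ s * Th κ G α := by
  obtain ⟨hi, hd⟩ := dfc_integral hG hp hm (s := s) hα hαβ
  have hpos : ∀ t ∈ Icc α β, 0 < t := fun t ht => hα.trans_le ht.1
  have hI : ∀ i, IntegrableOn (fun t => t ^ (s - 1) * ent t (hX.1.eigenvalues i)) (Ioi 0) :=
    fun i => (mellin_ent h0 h1 (hX.eigenvalues_nonneg i)).1
  have hI' : ∀ i, IntervalIntegrable (fun t => t ^ (s - 1) * ent t (hX.1.eigenvalues i))
      volume α β := fun i =>
    (intervalIntegrable_iff_integrableOn_Ioc_of_le hαβ).2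
      ((hI i).mono_set fun t ht => hα.trans ht.1)
  have hle : ∀ i, ∫ t in α..β, t ^ (s - 1) * ent t (hX.1.eigenvalues i) ≤
      hX.1.eigenvalues i ^ (1 + s) / (1 + s) * mel s := fun i => by
    rw [← (mellin_ent h0 h1 (hX.eigenvalues_nonneg i)).2, intervalIntegral.integral_of_le hαβ]
    refine setIntegral_mono_set (hI i) ?_ (LE.le.eventuallyLE fun t ht => hα.trans ht.1)
    filter_upwards [ae_restrict_mem measurableSet_Ioi] with t ht
    exact mul_nonneg (Real.rpow_nonneg (le_of_lt ht) _) (ent_nonneg ht (hX.eigenvalues_nonneg i))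
  have hsum : IntervalIntegrable
      (fun t => (1 + s) * ∑ i, t ^ (s - 1) * ent t (hX.1.eigenvalues i)) volume α β := by
    refine IntervalIntegrable.const_mul ?_ _
    have := IntervalIntegrable.sum Finset.univ fun i _ => hI' i
    rwa [Finset.sum_fn] at this
  have hfc : ContinuousOn (fun t => s * (t ^ (s - 1) * flux κ G (((1 + s) / s) • X) t))
      (Icc α β) := by
    have hL := continuousOn_Lt (κ := κ) (G := fun _ => G) continuousOn_id continuousOn_const hpos
      fun _ _ => ⟨hp, hm⟩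
    unfold flux
    exact continuousOn_const.mul
      ((continuousOn_id.rpow_const fun t ht => Or.inl (hpos t ht).ne').mul
      ((continuous_tr.comp_continuousOn (hL.mul continuousOn_const)).sub
        ((continuousOn_id.log fun t ht => (hpos t ht).ne').mul continuousOn_const)))
  have h2 := intervalIntegral.integral_mono_on hαβ (hfc.intervalIntegrable_of_Icc hαβ)
    (hsum.sub hi) fun t ht => by
      have h3 := hj_pt hG hp hm hX h0 (hpos t ht)
      have h4 := mul_le_mul_of_nonneg_left h3 (Real.rpow_nonneg (hpos t ht).le (s - 1))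
      rw [← Finset.mul_sum, ← trf_eq_sum hX.1]
      unfold flux
      rw [mul_sub (Lt κ t G), tr_sub, tr_sub (_ • X), mul_smul_comm, tr_smul, tr_smul]
      have e : ∀ y : ℝ, s * ((1 + s) / s * y) = (1 + s) * y := fun y => by field_simp
      have e1 := e (tr (Lt κ t G * X))
      have e2 := e (tr X)
      set u := t ^ (s - 1)
      set c := (1 + s) / s
      calc _ = u * (s * (c * tr (Lt κ t G * X)) - Real.log t * (s * (c * tr X))
            - s * (tr (Lt κ t G * (dg κ * dg κ - G * G))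
              - Real.log t * tr (dg κ * dg κ - G * G))) := by ring
        _ ≤ _ := by rw [e1, e2]; linarith
  rw [intervalIntegral.integral_sub hsum hi, intervalIntegral.integral_const_mul (1 + s),
    intervalIntegral.integral_finsetSum fun i _ => hI' i] at h2
  have h5 := mul_le_mul_of_nonneg_left (Finset.sum_le_sum fun i (_ : i ∈ Finset.univ) => hle i)
    (by linarith : 0 ≤ 1 + s)
  have e : (1 + s) * ∑ i, hX.1.eigenvalues i ^ (1 + s) / (1 + s) * mel s =
      mel s * trf (fun y => y ^ (1 + s)) X := by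
    rw [trf_eq_sum hX.1, Finset.mul_sum, Finset.mul_sum]
    refine Finset.sum_congr rfl fun i _ => ?_
    field_simp
  linarith

end

end Vale.Agent.P371
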