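import Mathlib

open MeasureTheory Set Filter Topology

namespace Vale.Agent.P371

section
variable {E : Type*} [NormedAddCommGroup E]

theorem ii_of_memLp {h : ℝ → E} (hh : MemLp h 2) (x y : ℝ) : IntervalIntegrable h volume x y :=
  intervalIntegrable_iff.mpr <|
    ((hh.locallyIntegrable (by norm_num)).integrableOn_isCompact isCompact_uIcc).mono_set
      uIoc_subset_uIcc

theorem int_sq_of_memLp {h : ℝ → E} (hh : MemLp h 2) : Integrable fun t => ‖h t‖ ^ 2 :=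
  (memLp_two_iff_integrable_sq_norm hh.1).1 hh

variable [NormedSpace ℝ E]

theorem norm_int_le_aux {h : ℝ → E} (hh : MemLp h 2) {τ : ℝ} (hτ : 0 < τ) {x y : ℝ}
    (hxy : x ≤ y) : ‖∫ t in x..y, h t‖ ≤ τ * (y - x) + (∫ t, ‖h t‖ ^ 2) / τ := by
  have h2 := int_sq_of_memLp hh
  have a1 : ‖∫ t in x..y, h t‖ ≤ ∫ t in x..y, ‖h t‖ :=
    intervalIntegral.norm_integral_le_integral_norm hxy
  have a2 : ∫ t in x..y, ‖h t‖ ≤ ∫ t in x..y, (τ + ‖h t‖ ^ 2 / τ) := by
    refine intervalIntegral.integral_mono_on hxy (ii_of_memLp hh x y).norm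
      (intervalIntegrable_const.add (h2.intervalIntegrable.div_const τ)) fun t _ => ?_
    have : ‖h t‖ ^ 2 / τ * τ = ‖h t‖ ^ 2 := div_mul_cancel₀ _ hτ.ne'
    have h3 : 0 ≤ ‖h t‖ := norm_nonneg _
    by_contra hc
    push Not at hc
    have h4 : (τ + ‖h t‖ ^ 2 / τ) * τ < ‖h t‖ * τ := mul_lt_mul_of_pos_right hc hτ
    nlinarith [sq_nonneg (τ - ‖h t‖)]
  have a3 : ∫ t in x..y, (τ + ‖h t‖ ^ 2 / τ) = τ * (y - x) + (∫ t in x..y, ‖h t‖ ^ 2) / τ := by
    rw [intervalIntegral.integral_add intervalIntegrable_const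
      (h2.intervalIntegrable.div_const τ), intervalIntegral.integral_div,
      intervalIntegral.integral_const, smul_eq_mul, mul_comm]
  have a4 : ∫ t in x..y, ‖h t‖ ^ 2 ≤ ∫ t, ‖h t‖ ^ 2 := by
    rw [intervalIntegral.integral_of_le hxy]
    exact setIntegral_le_integral h2 (Eventually.of_forall fun t => by positivity)
  have a5 := div_le_div_of_nonneg_right a4 hτ.le
  linarith

theorem norm_int_le {h : ℝ → E} (hh : MemLp h 2) {τ : ℝ} (hτ : 0 < τ) (x y : ℝ) :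
    ‖∫ t in x..y, h t‖ ≤ τ * |y - x| + (∫ t, ‖h t‖ ^ 2) / τ := by
  rcases le_total x y with hxy | hxy
  · rw [abs_of_nonneg (sub_nonneg.2 hxy)]; exact norm_int_le_aux hh hτ hxy
  · rw [intervalIntegral.integral_symm, norm_neg, abs_sub_comm, abs_of_nonneg (sub_nonneg.2 hxy)]
    exact norm_int_le_aux hh hτ hxy

theorem bdd_of_ftc {f g : ℝ → E} (hf : MemLp f 2) (hg : MemLp g 2)
    (hftc : ∀ x y, f y - f x = ∫ t in x..y, g t) : ∃ C : ℝ, ∀ x, ‖f x‖ ≤ C := by
  refine ⟨(1 + ∫ t, ‖f t‖ ^ 2) + (1 + ∫ t, ‖g t‖ ^ 2), fun x => ?_⟩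
  have hx : x ≤ x + 1 := by linarith
  have a1 : ∀ y ∈ Icc x (x + 1), ‖f x‖ ≤ ‖f y‖ + (1 + ∫ t, ‖g t‖ ^ 2) := by
    intro y hy
    have b1 := norm_int_le hg one_pos x y
    rw [← hftc, abs_of_nonneg (sub_nonneg.2 hy.1)] at b1
    have b2 : ‖f x‖ ≤ ‖f y‖ + ‖f y - f x‖ := by
      calc ‖f x‖ = ‖f y - (f y - f x)‖ := by rw [sub_sub_cancel]
        _ ≤ _ := norm_sub_le _ _
    have := hy.2
    simp only [one_mul, div_one] at b1
    linarith
  have a2 := intervalIntegral.integral_mono_on (μ := volume) hx intervalIntegrable_const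
    ((ii_of_memLp hf x (x + 1)).norm.add intervalIntegrable_const) a1
  rw [intervalIntegral.integral_add (ii_of_memLp hf x (x + 1)).norm intervalIntegrable_const,
    intervalIntegral.integral_const, intervalIntegral.integral_const] at a2
  have a3 := norm_int_le_aux hf.norm one_pos hx
  have a4 : (∫ t in x..(x + 1), ‖f t‖) ≤ ‖∫ t in x..(x + 1), ‖f t‖‖ := le_abs_self _
  simp only [norm_norm, add_sub_cancel_left, one_mul, div_one, smul_eq_mul] at a2 a3
  linarith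

end

theorem exists_cutoff : ∃ (χ χ' : ℝ → ℝ) (K : ℝ), (∀ x, HasDerivAt χ (χ' x) x) ∧
    Continuous χ' ∧ (∀ x, 0 ≤ χ x) ∧ (∀ x, χ x ≤ 1) ∧ (∀ x, |x| ≤ 1 → χ x = 1) ∧
    (∀ x, 2 ≤ |x| → χ x = 0) ∧ (∀ x, 2 ≤ |x| → χ' x = 0) ∧ ∀ x, |χ' x| ≤ K := by
  let b : ContDiffBump (0 : ℝ) := ⟨1, 2, one_pos, one_lt_two⟩
  have hc : ContDiff ℝ 1 b := b.contDiff
  have hd : Continuous (deriv b) := hc.continuous_deriv le_rfl
  obtain ⟨K, hK⟩ := hd.bounded_above_of_compact_support b.hasCompactSupport.deriv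
  have hz : ∀ x : ℝ, 2 ≤ |x| → b x = 0 := fun x hx =>
    b.zero_of_le_dist (by simpa [b, Real.dist_eq] using hx)
  refine ⟨b, deriv b, K, fun x => (hc.differentiable one_ne_zero x).hasDerivAt, hd,
    fun x => b.nonneg, fun x => b.le_one, fun x hx => ?_, hz, fun x hx => ?_, hK⟩
  · exact b.one_of_mem_closedBall (by simpa [b, Real.dist_eq] using hx)
  · refine IsLocalMin.deriv_eq_zero (Eventually.of_forall fun y => ?_)
    rw [hz x hx]; exact b.nonneg

theorem memLp_inv_abs : MemLp (fun x : ℝ => 3 / (1 + |x|)) 2 := by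
  have hc : Continuous fun x : ℝ => 3 / (1 + |x|) :=
    continuous_const.div (by fun_prop) fun x => by positivity
  rw [memLp_two_iff_integrable_sq hc.aestronglyMeasurable]
  refine (integrable_inv_one_add_sq.const_mul 9).mono' (hc.pow 2).aestronglyMeasurable
    (Eventually.of_forall fun x => ?_)
  rw [Real.norm_of_nonneg (by positivity), div_pow, ← div_eq_mul_inv]
  have : 1 + x ^ 2 ≤ (1 + |x|) ^ 2 := by nlinarith [abs_nonneg x, sq_abs x]
  rw [show (3 : ℝ) ^ 2 = 9 by norm_num]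
  exact div_le_div_of_nonneg_left (by norm_num) (by positivity) this

theorem norm_add3_sq {E : Type*} [NormedAddCommGroup E] (a b c : E) {x y z : ℝ}
    (ha : ‖a‖ ≤ x) (hb : ‖b‖ ≤ y) (hc : ‖c‖ ≤ z) :
    ‖a + b + c‖ ^ 2 ≤ 3 * (x ^ 2 + y ^ 2 + z ^ 2) := by
  have h1 : ‖a + b + c‖ ≤ x + y + z := by
    have := norm_add₃_le (a := a) (b := b) (c := c)
    linarith
  have h2 : ‖a + b + c‖ ^ 2 ≤ (x + y + z) ^ 2 := pow_le_pow_left₀ (norm_nonneg _) h1 2
  nlinarith [sq_nonneg (x - y), sq_nonneg (y - z), sq_nonneg (x - z)]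

/-- Approximation of an `H^1` function by compactly supported `C^1` functions. -/
theorem approx {E : Type*} [NormedAddCommGroup E] [NormedSpace ℝ E] [CompleteSpace E]
    {f g : ℝ → E} (hf : MemLp f 2) (hg : MemLp g 2)
    (hftc : ∀ x y, f y - f x = ∫ t in x..y, g t) :
    ∃ (F F' : ℕ → ℝ → E) (D : ℝ → ℝ) (C : ℝ),
      (∀ n x, HasDerivAt (F n) (F' n x) x) ∧ (∀ n, Continuous (F' n)) ∧
      (∀ (n : ℕ) x, 2 * ((n : ℝ) + 1) ≤ |x| → F n x = 0) ∧
      (∀ (n : ℕ) x, 2 * ((n : ℝ) + 1) ≤ |x| → F' n x = 0) ∧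
      MemLp D 2 ∧ (∀ x, D x ≤ C) ∧ (∀ n x, ‖F n x‖ ≤ D x) ∧
      (∀ x, Tendsto (fun n => F n x) atTop (𝓝 (f x))) ∧
      Tendsto (fun n => ∫ x, ‖F' n x - g x‖ ^ 2) atTop (𝓝 0) := by
  obtain ⟨χ, χ', K, hχ, hχ'c, hχ0, hχ1, hχa, hχb, hχ'b, hK⟩ := exists_cutoff
  obtain ⟨C, hC⟩ := bdd_of_ftc hf hg hftc
  have hr : ∀ n : ℕ, (0 : ℝ) < (n : ℝ) + 1 := fun n => by positivity
  have hG : ∀ n : ℕ, ∃ G : ℝ → E, Continuous G ∧ MemLp G 2 ∧
      ∫ x, ‖G x - g x‖ ^ 2 ≤ 1 / (8 * ((n : ℝ) + 1) ^ 3) := by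
    intro n
    have hg' : MemLp g (ENNReal.ofReal 2) := by simpa using hg
    obtain ⟨G, -, h2, h3, h4⟩ := hg'.exists_hasCompactSupport_integral_rpow_sub_le two_pos
      (ε := 1 / (8 * ((n : ℝ) + 1) ^ 3)) (by positivity)
    refine ⟨G, h3, by simpa using h4, ?_⟩
    simpa [norm_sub_rev] using h2
  choose G hGc hG2 hGe using hG
  set Φ : ℕ → ℝ → E := fun n x => f 0 + ∫ t in (0 : ℝ)..x, G n t with hΦ
  have hΦd : ∀ n x, HasDerivAt (Φ n) (G n x) x := fun n x =>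
    ((hGc n).integral_hasStrictDerivAt 0 x).hasDerivAt.const_add _
  have hΦc : ∀ n, Continuous (Φ n) := fun n =>
    continuous_iff_continuousAt.2 fun x => (hΦd n x).continuousAt
  have hΦe : ∀ (n : ℕ) x, |x| ≤ 2 * ((n : ℝ) + 1) → ‖Φ n x - f x‖ ≤ 1 / ((n : ℝ) + 1) := by
    intro n x hx
    have e1 : Φ n x - f x = ∫ t in (0 : ℝ)..x, (G n t - g t) := by
      rw [intervalIntegral.integral_sub (ii_of_memLp (hG2 n) _ _) (ii_of_memLp hg _ _), ← hftc]
      simp only [hΦ]; abel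
    have hτ : (0 : ℝ) < 1 / (4 * ((n : ℝ) + 1) ^ 2) := by positivity
    have e2 := norm_int_le ((hG2 n).sub hg) hτ 0 x
    simp only [Pi.sub_apply, sub_zero] at e2
    rw [e1]
    refine e2.trans ?_
    have e3 := div_le_div_of_nonneg_right (hGe n) hτ.le
    have e4 := mul_le_mul_of_nonneg_left hx hτ.le
    have e5 : 1 / (4 * ((n : ℝ) + 1) ^ 2) * (2 * ((n : ℝ) + 1)) +
        1 / (8 * ((n : ℝ) + 1) ^ 3) / (1 / (4 * ((n : ℝ) + 1) ^ 2)) = 1 / ((n : ℝ) + 1) := by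
      have := (hr n).ne'
      field_simp
      norm_num
    linarith
  set D : ℝ → ℝ := fun x => ‖f x‖ + 3 / (1 + |x|) with hD
  have hD2 : MemLp D 2 := hf.norm.add memLp_inv_abs
  have hD0 : ∀ x, 0 ≤ D x := fun x => by positivity
  have hΦD : ∀ (n : ℕ) x, |x| ≤ 2 * ((n : ℝ) + 1) → ‖Φ n x‖ ≤ D x := by
    intro n x hx
    have e1 := hΦe n x hx
    have e2 : ‖Φ n x‖ ≤ ‖f x‖ + ‖Φ n x - f x‖ := norm_le_insert' _ _
    have e3 : 1 / ((n : ℝ) + 1) ≤ 3 / (1 + |x|) := by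
      rw [div_le_div_iff₀ (hr n) (by positivity)]
      have : (0 : ℝ) ≤ n := n.cast_nonneg
      linarith
    simp only [hD]; linarith
  have hsc : ∀ (n : ℕ) (x : ℝ), 2 * ((n : ℝ) + 1) ≤ |x| → 2 ≤ |x / ((n : ℝ) + 1)| := by
    intro n x hx
    rw [abs_div, abs_of_pos (hr n), le_div_iff₀ (hr n)]; exact hx
  have hone : ∀ x : ℝ, ∀ᶠ n : ℕ in atTop, |x| ≤ (n : ℝ) + 1 := fun x => by
    filter_upwards [tendsto_natCast_atTop_atTop.eventually_ge_atTop |x|] with n hn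
    linarith
  have hone' : ∀ (n : ℕ) (x : ℝ), |x| ≤ (n : ℝ) + 1 → χ (x / ((n : ℝ) + 1)) = 1 := by
    intro n x hx
    apply hχa
    rw [abs_div, abs_of_pos (hr n), div_le_one (hr n)]; exact hx
  have hχc : Continuous χ := continuous_iff_continuousAt.2 fun x => (hχ x).continuousAt
  refine ⟨fun n x => χ (x / ((n : ℝ) + 1)) • Φ n x,
    fun n x => χ (x / ((n : ℝ) + 1)) • G n x + (χ' (x / ((n : ℝ) + 1)) / ((n : ℝ) + 1)) • Φ n x,
    D, C + 3, fun n x => ?_, fun n => ?_, fun n x hx => ?_, fun n x hx => ?_, hD2, fun x => ?_,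
    fun n x => ?_, fun x => ?_, ?_⟩
  · have e1 : HasDerivAt (fun y : ℝ => χ (y / ((n : ℝ) + 1)))
        (χ' (x / ((n : ℝ) + 1)) / ((n : ℝ) + 1)) x := by
      have := (hχ (x / ((n : ℝ) + 1))).comp x ((hasDerivAt_id x).div_const ((n : ℝ) + 1))
      rw [mul_one_div] at this
      exact this
    exact e1.smul (hΦd n x)
  · have := hGc n
    have := hΦc n
    fun_prop
  · simp only [hχb _ (hsc n x hx), zero_smul]
  · simp only [hχb _ (hsc n x hx), hχ'b _ (hsc n x hx), zero_smul, zero_div, add_zero]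
  · have e1 : 3 / (1 + |x|) ≤ 3 := div_le_self (by norm_num) (by linarith [abs_nonneg x])
    have := hC x
    simp only [hD]; linarith
  · rcases le_total |x| (2 * ((n : ℝ) + 1)) with hx | hx
    · rw [norm_smul, Real.norm_of_nonneg (hχ0 _)]
      exact (mul_le_of_le_one_left (norm_nonneg _) (hχ1 _)).trans (hΦD n x hx)
    · simp only [hχb _ (hsc n x hx), zero_smul, norm_zero, hD0]
  · rw [tendsto_iff_norm_sub_tendsto_zero]
    refine squeeze_zero' (Eventually.of_forall fun n => norm_nonneg _) ?_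
      tendsto_one_div_add_atTop_nhds_zero_nat
    filter_upwards [hone x] with n hn
    rw [hone' n x hn, one_smul]
    exact hΦe n x (by linarith [hr n])
  · have hK0 : 0 ≤ K := (abs_nonneg _).trans (hK 0)
    have hg2 := int_sq_of_memLp hg
    have hD2' : Integrable fun x => D x ^ 2 := (memLp_two_iff_integrable_sq hD2.1).1 hD2
    have hT : ∀ n : ℕ, Integrable fun x => ((1 - χ (x / ((n : ℝ) + 1))) * ‖g x‖) ^ 2 := by
      intro n
      refine hg2.mono' ((AEStronglyMeasurable.mul (Continuous.aestronglyMeasurable (by fun_prop))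
        hg.1.norm).pow 2) (Eventually.of_forall fun x => ?_)
      rw [Real.norm_of_nonneg (sq_nonneg _)]
      refine pow_le_pow_left₀ (mul_nonneg (by linarith [hχ1 (x / ((n : ℝ) + 1))])
        (norm_nonneg _)) (mul_le_of_le_one_left (norm_nonneg _)
          (by linarith [hχ0 (x / ((n : ℝ) + 1))])) 2
    have hTl : Tendsto (fun n : ℕ => ∫ x, ((1 - χ (x / ((n : ℝ) + 1))) * ‖g x‖) ^ 2) atTop
        (𝓝 (∫ _ : ℝ, (0 : ℝ))) := by
      refine tendsto_integral_of_dominated_convergence (fun x => ‖g x‖ ^ 2)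
        (fun n => (hT n).1) hg2 (fun n => Eventually.of_forall fun x => ?_)
        (Eventually.of_forall fun x => ?_)
      · rw [Real.norm_of_nonneg (sq_nonneg _)]
        refine pow_le_pow_left₀ (mul_nonneg (by linarith [hχ1 (x / ((n : ℝ) + 1))])
          (norm_nonneg _)) (mul_le_of_le_one_left (norm_nonneg _)
            (by linarith [hχ0 (x / ((n : ℝ) + 1))])) 2
      · refine tendsto_const_nhds.congr' ?_
        filter_upwards [hone x] with n hn
        rw [hone' n x hn]; simp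
    rw [integral_zero] at hTl
    have h0 : Tendsto (fun n : ℕ => 1 / ((n : ℝ) + 1)) atTop (𝓝 0) :=
      tendsto_one_div_add_atTop_nhds_zero_nat
    have hlim : Tendsto (fun n : ℕ => 3 * ((K * (1 / ((n : ℝ) + 1))) ^ 2 * (∫ x, D x ^ 2) +
        (1 / ((n : ℝ) + 1)) ^ 3 / 8 + ∫ x, ((1 - χ (x / ((n : ℝ) + 1))) * ‖g x‖) ^ 2)) atTop
        (𝓝 (3 * ((K * 0) ^ 2 * (∫ x, D x ^ 2) + 0 ^ 3 / 8 + 0))) :=
      (((((h0.const_mul K).pow 2).mul_const _).add ((h0.pow 3).div_const 8)).add hTl).const_mul 3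
    have e0 : 3 * ((K * 0) ^ 2 * (∫ x, D x ^ 2) + 0 ^ 3 / 8 + 0) = (0 : ℝ) := by simp
    rw [e0] at hlim
    refine squeeze_zero (fun n => integral_nonneg fun x => sq_nonneg _) (fun n => ?_) hlim
    have hGg := int_sq_of_memLp ((hG2 n).sub hg)
    simp only [Pi.sub_apply] at hGg
    have i1 : Integrable fun x => (K * (1 / ((n : ℝ) + 1)) * D x) ^ 2 := by
      simp only [mul_pow _ (D _)]; exact hD2'.const_mul _
    have e1 : ∫ x, ‖χ (x / ((n : ℝ) + 1)) • G n x +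
        (χ' (x / ((n : ℝ) + 1)) / ((n : ℝ) + 1)) • Φ n x - g x‖ ^ 2 ≤
        ∫ x, 3 * ((K * (1 / ((n : ℝ) + 1)) * D x) ^ 2 + ‖G n x - g x‖ ^ 2 +
          ((1 - χ (x / ((n : ℝ) + 1))) * ‖g x‖) ^ 2) := by
      refine integral_mono_of_nonneg (Eventually.of_forall fun x => sq_nonneg _)
        (((i1.add hGg).add (hT n)).const_mul 3) (Eventually.of_forall fun x => ?_)
      have e2 : χ (x / ((n : ℝ) + 1)) • G n x +
          (χ' (x / ((n : ℝ) + 1)) / ((n : ℝ) + 1)) • Φ n x - g x =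
          (χ' (x / ((n : ℝ) + 1)) / ((n : ℝ) + 1)) • Φ n x +
            χ (x / ((n : ℝ) + 1)) • (G n x - g x) + (χ (x / ((n : ℝ) + 1)) - 1) • g x := by
        module
      simp only
      rw [e2]
      refine norm_add3_sq _ _ _ ?_ ?_ ?_
      · rcases le_total |x| (2 * ((n : ℝ) + 1)) with hx | hx
        · rw [norm_smul, Real.norm_eq_abs, abs_div, abs_of_pos (hr n), mul_one_div]
          exact mul_le_mul (div_le_div_of_nonneg_right (hK _) (hr n).le) (hΦD n x hx)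
            (norm_nonneg _) (by positivity)
        · simp only [hχ'b _ (hsc n x hx), zero_div, zero_smul, norm_zero]
          have := hD0 x
          positivity
      · rw [norm_smul, Real.norm_of_nonneg (hχ0 _)]
        exact mul_le_of_le_one_left (norm_nonneg _) (hχ1 _)
      · rw [norm_smul, Real.norm_eq_abs, abs_sub_comm,
          abs_of_nonneg (by linarith [hχ1 (x / ((n : ℝ) + 1))])]
    refine e1.trans ?_
    have i2 : Integrable fun x => (K * (1 / ((n : ℝ) + 1)) * D x) ^ 2 + ‖G n x - g x‖ ^ 2 :=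
      i1.add hGg
    rw [integral_const_mul, integral_add i2 (hT n), integral_add i1 hGg]
    simp only [mul_pow _ (D _)]
    rw [integral_const_mul]
    have e3 : 1 / (8 * ((n : ℝ) + 1) ^ 3) = (1 / ((n : ℝ) + 1)) ^ 3 / 8 := by
      have := (hr n).ne'
      field_simp
    have := hGe n
    linarith

end Vale.Agent.P371
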