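import Vale.Agent.P371.Basic
import Vale.Agent.P371.ReduceAux1

open MeasureTheory Matrix Set Filter Topology
open scoped Matrix.Norms.L2Operator ComplexOrder

namespace Vale.Agent.P371

namespace Red

variable {m : ℕ}

theorem trPow_eq_sum (p : ℝ) {A : Matrix (Fin m) (Fin m) ℂ} (hA : A.IsHermitian) :
    trPow p A = ∑ i, hA.eigenvalues i ^ p := by
  unfold trPow
  rw [hA.cfc_eq, IsHermitian.cfc, Unitary.conjStarAlgAut_apply, trace_mul_comm, ← mul_assoc]
  simp [trace_diagonal]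

theorem trPow_nonneg (p : ℝ) {A : Matrix (Fin m) (Fin m) ℂ} (hA : A.PosSemidef) :
    0 ≤ trPow p A := by
  rw [trPow_eq_sum p hA.1]
  exact Finset.sum_nonneg fun i _ => Real.rpow_nonneg (hA.eigenvalues_nonneg i) _

theorem norm_le_trPow {p : ℝ} (h1 : 1 ≤ p) {A : Matrix (Fin m) (Fin m) ℂ} (hA : A.PosSemidef) :
    ‖A‖ ≤ 1 + trPow p A := by
  have hs : IsSelfAdjoint A := hA.1
  have h0 := trPow_nonneg p hA
  conv_lhs => rw [← cfc_id ℝ A]
  refine norm_cfc_le (by linarith) fun x hx => ?_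
  rw [hA.1.spectrum_real_eq_range_eigenvalues] at hx
  obtain ⟨i, rfl⟩ := hx
  have e0 := hA.eigenvalues_nonneg i
  rw [id, Real.norm_of_nonneg e0, trPow_eq_sum p hA.1]
  have e1 : hA.1.eigenvalues i ^ p ≤ ∑ i, hA.1.eigenvalues i ^ p :=
    Finset.single_le_sum (f := fun i => hA.1.eigenvalues i ^ p)
      (fun j _ => Real.rpow_nonneg (hA.eigenvalues_nonneg j) _) (Finset.mem_univ i)
  have e2 : 0 ≤ hA.1.eigenvalues i ^ p := Real.rpow_nonneg e0 _
  rcases le_total (hA.1.eigenvalues i) 1 with h | h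
  · linarith
  · have := Real.self_le_rpow_of_one_le h h1
    linarith

theorem trPow_le {p : ℝ} (h1 : 0 ≤ p) {A : Matrix (Fin m) (Fin m) ℂ} (hA : A.PosSemidef) {M : ℝ}
    (hM : ‖A‖ ≤ M) : trPow p A ≤ m * M ^ p := by
  rw [trPow_eq_sum p hA.1]
  have hs : IsSelfAdjoint A := hA.1
  have : ∀ i, hA.1.eigenvalues i ^ p ≤ M ^ p := fun i => by
    refine Real.rpow_le_rpow (hA.eigenvalues_nonneg i) ?_ h1
    have e1 := norm_apply_le_norm_cfc (id : ℝ → ℝ) A (hA.1.eigenvalues_mem_spectrum_real i)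
    rw [cfc_id ℝ A, id] at e1
    exact ((le_abs_self _).trans e1).trans hM
  refine (Finset.sum_le_sum fun i _ => this i).trans ?_
  simp

theorem continuousOn_trPow {p : ℝ} (h1 : 0 ≤ p) :
    ContinuousOn (trPow p) {A : Matrix (Fin m) (Fin m) ℂ | A.IsHermitian} := by
  have hf : Continuous fun y : ℝ => y ^ p := Real.continuous_rpow_const h1
  have h : ContinuousOn (fun A : Matrix (Fin m) (Fin m) ℂ => cfc (fun y : ℝ => y ^ p) (id A))
      {A : Matrix (Fin m) (Fin m) ℂ | A.IsHermitian} :=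
    continuousOn_id.cfc_of_mem_nhdsSet _ (s := univ) univ_mem (fun x hx => hx) hf.continuousOn
  exact (Complex.continuous_re.comp (continuous_id.matrix_trace)).comp_continuousOn h

theorem trPow_zero {p : ℝ} (h1 : 0 < p) : trPow p (0 : Matrix (Fin m) (Fin m) ℂ) = 0 := by
  refine le_antisymm ?_ (trPow_nonneg p PosSemidef.zero)
  have := trPow_le h1.le (PosSemidef.zero (n := Fin m) (R := ℂ)) (M := 0) (by simp)
  simpa [Real.zero_rpow h1.ne'] using this

open scoped MatrixOrder in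
theorem psd_of_close {N : ℕ} {M : Matrix (Fin N) (Fin N) ℂ} (hM : M.IsHermitian) {d : Fin N → ℝ}
    {η : ℝ} (h : ‖M - diagonal fun j => (d j : ℂ)‖ ≤ η) (hd : ∀ j, η ≤ d j) : M.PosSemidef := by
  have hD : (diagonal fun j => (d j : ℂ)).IsHermitian :=
    isHermitian_diagonal_of_self_adjoint _ (funext fun j => by simp)
  have hs : IsSelfAdjoint (M - diagonal fun j => (d j : ℂ)) := hM.sub hD
  have h1 := Matrix.le_iff.1 hs.neg_algebraMap_norm_le_self
  have h2 : (diagonal fun j => ((d j - ‖M - diagonal fun j => (d j : ℂ)‖ : ℝ) : ℂ)).PosSemidef :=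
    PosSemidef.diagonal fun j => Complex.zero_le_real.2 (by linarith [hd j])
  have h3 := h1.add h2
  have e : M - (diagonal fun j => (d j : ℂ)) -
      -(algebraMap ℝ (Matrix (Fin N) (Fin N) ℂ)) ‖M - diagonal fun j => (d j : ℂ)‖ +
      (diagonal fun j => ((d j - ‖M - diagonal fun j => (d j : ℂ)‖ : ℝ) : ℂ)) = M := by
    generalize ‖M - diagonal fun j => (d j : ℂ)‖ = r
    ext i j
    by_cases hij : i = j
    · subst hij; simp [algebraMap_matrix_apply]
    · simp [algebraMap_matrix_apply, hij]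
  rwa [e] at h3

/-- entries as continuous linear maps -/
noncomputable def ent {a b : ℕ} (i : Fin a) (j : Fin b) : Matrix (Fin a) (Fin b) ℂ →L[ℝ] ℂ :=
  LinearMap.toContinuousLinearMap (Matrix.entryLinearMap ℝ ℂ i j)

theorem integral_apply' {a b : ℕ} {μ : Measure ℝ} {f : ℝ → Matrix (Fin a) (Fin b) ℂ}
    (hf : Integrable f μ) (i : Fin a) (j : Fin b) : (∫ x, f x ∂μ) i j = ∫ x, f x i j ∂μ :=
  ((ent i j).integral_comp_comm hf).symm

theorem aesm_of_entries {a b : ℕ} {μ : Measure ℝ} {f : ℝ → Matrix (Fin a) (Fin b) ℂ}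
    (hf : ∀ i j, AEStronglyMeasurable (fun x => f x i j) μ) : AEStronglyMeasurable f μ := by
  have : f = fun x => ∑ i, ∑ j, f x i j • Matrix.single i j (1 : ℂ) := by
    funext x
    conv_lhs => rw [matrix_eq_sum_single (f x)]
    simp [smul_single]
  rw [this]
  exact Finset.aestronglyMeasurable_fun_sum _ fun i _ =>
    Finset.aestronglyMeasurable_fun_sum _ fun j _ => (hf i j).smul_const _

theorem herm_integral {a : ℕ} {μ : Measure ℝ} {f : ℝ → Matrix (Fin a) (Fin a) ℂ}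
    (h : ∀ x, (f x).IsHermitian) : (∫ x, f x ∂μ).IsHermitian := by
  by_cases hf : Integrable f μ
  · ext i j
    rw [conjTranspose_apply, integral_apply' hf, integral_apply' hf, Complex.star_def,
      ← integral_conj]
    refine integral_congr_ae (Eventually.of_forall fun x => ?_)
    exact (h x).apply i j
  · rw [integral_undef hf]; exact isHermitian_zero

/-- quadratic form as a continuous linear map -/
noncomputable def qf {a : ℕ} (v : Fin a → ℂ) : Matrix (Fin a) (Fin a) ℂ →L[ℝ] ℂ :=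
  LinearMap.toContinuousLinearMap
    { toFun := fun A => star v ⬝ᵥ (A *ᵥ v)
      map_add' := fun A B => by simp [add_mulVec, dotProduct_add]
      map_smul' := fun c A => by simp [smul_mulVec, dotProduct_smul] }

theorem psd_integral {a : ℕ} {μ : Measure ℝ} {f : ℝ → Matrix (Fin a) (Fin a) ℂ}
    (h : ∀ x, (f x).PosSemidef) : (∫ x, f x ∂μ).PosSemidef := by
  by_cases hf : Integrable f μ
  · refine PosSemidef.of_dotProduct_mulVec_nonneg (herm_integral fun x => (h x).1) fun v => ?_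
    have e : star v ⬝ᵥ ((∫ x, f x ∂μ) *ᵥ v) = ∫ x, star v ⬝ᵥ (f x *ᵥ v) ∂μ :=
      ((qf v).integral_comp_comm hf).symm
    rw [e]
    exact integral_nonneg fun x => (h x).dotProduct_mulVec_nonneg v
  · rw [integral_undef hf]; exact PosSemidef.zero

theorem aesm_mul {a b c : ℕ} {μ : Measure ℝ} {f : ℝ → Matrix (Fin a) (Fin b) ℂ}
    {g : ℝ → Matrix (Fin b) (Fin c) ℂ} (hf : AEStronglyMeasurable f μ)
    (hg : AEStronglyMeasurable g μ) : AEStronglyMeasurable (fun x => f x * g x) μ :=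
  (continuous_fst.matrix_mul continuous_snd).comp_aestronglyMeasurable (hf.prodMk hg)

theorem aesm_ct {a b : ℕ} {μ : Measure ℝ} {f : ℝ → Matrix (Fin a) (Fin b) ℂ}
    (hf : AEStronglyMeasurable f μ) : AEStronglyMeasurable (fun x => (f x)ᴴ) μ :=
  continuous_id.matrix_conjTranspose.comp_aestronglyMeasurable hf

theorem norm_sandwich {a b : ℕ} (U : Matrix (Fin a) (Fin b) ℂ) (B : Matrix (Fin b) (Fin b) ℂ) :
    ‖U * B * Uᴴ‖ ≤ ‖U‖ ^ 2 * ‖B‖ := by
  have h1 := l2_opNorm_mul (U * B) Uᴴ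
  rw [l2_opNorm_conjTranspose] at h1
  have h2 := mul_le_mul_of_nonneg_right (l2_opNorm_mul U B) (norm_nonneg U)
  nlinarith

theorem smooth_pot {B : ℝ → Matrix (Fin m) (Fin m) ℂ} (hB : AEStronglyMeasurable B)
    (hp : ∀ x, (B x).PosSemidef) {M : ℝ} (hM : ∀ x, ‖B x‖ ≤ M) :
    ∃ W : ℕ → ℝ → Matrix (Fin m) (Fin m) ℂ, (∀ k, Continuous (W k)) ∧
      (∀ k x, (W k x).PosSemidef) ∧ (∀ k x, ‖W k x‖ ≤ M) ∧
      ∀ᵐ x, Tendsto (fun k => W k x) atTop (𝓝 (B x)) := by
  have hL : LocallyIntegrable B volume :=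
    (memLp_top_of_bound hB M (Eventually.of_forall hM)).locallyIntegrable le_top
  have hI : ∀ x y, IntervalIntegrable B volume x y := fun x y =>
    intervalIntegrable_iff.mpr <|
      (hL.integrableOn_isCompact isCompact_uIcc).mono_set uIoc_subset_uIcc
  have hr : ∀ n : ℕ, (0 : ℝ) < 1 / ((n : ℝ) + 1) := fun n => by positivity
  set P : ℝ → Matrix (Fin m) (Fin m) ℂ := fun y => ∫ t in (0 : ℝ)..y, B t with hP
  have hPc : Continuous P := intervalIntegral.continuous_primitive hI 0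
  have hPe : ∀ x y, P y - P x = ∫ t in x..y, B t := fun x y =>
    intervalIntegral.integral_interval_sub_left (hI _ _) (hI _ _)
  refine ⟨fun k x => (1 / ((k : ℝ) + 1))⁻¹ • (P (x + 1 / ((k : ℝ) + 1)) - P x), fun k => ?_,
    fun k x => ?_, fun k x => ?_, ?_⟩
  · fun_prop
  · simp only
    rw [hPe, intervalIntegral.integral_of_le (by linarith [hr k])]
    exact (psd_integral hp).smul (inv_nonneg.2 (hr k).le)
  · simp only
    rw [hPe, norm_smul, Real.norm_of_nonneg (inv_nonneg.2 (hr k).le)]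
    have := intervalIntegral.norm_integral_le_of_norm_le_const (a := x)
      (b := x + 1 / ((k : ℝ) + 1)) (f := B) (C := M) fun t _ => hM t
    rw [add_sub_cancel_left, abs_of_pos (hr k)] at this
    rw [inv_mul_le_iff₀ (hr k), mul_comm]
    exact this
  · filter_upwards [LocallyIntegrable.ae_hasDerivAt_integral hL] with x hx
    have h1 := (hx 0).tendsto_slope_zero_right
    have h2 : Tendsto (fun n : ℕ => 1 / ((n : ℝ) + 1)) atTop (𝓝[>] 0) :=
      tendsto_nhdsWithin_iff.2 ⟨tendsto_one_div_add_atTop_nhds_zero_nat,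
        Eventually.of_forall hr⟩
    exact h1.comp h2

theorem stage2 {p : ℝ} (h0 : 0 < p) {N : ℕ} {U : ℝ → Matrix (Fin N) (Fin m) ℂ}
    (hU : Continuous U) {C : ℝ} (hC : ∀ x, ‖U x‖ ≤ C) {B : ℝ → Matrix (Fin m) (Fin m) ℂ}
    (hB : AEStronglyMeasurable B) (hp : ∀ x, (B x).PosSemidef) {M : ℝ} (hM : ∀ x, ‖B x‖ ≤ M)
    (a b : ℝ) {η : ℝ} (hη : 0 < η) :
    ∃ W₀ : ℝ → Matrix (Fin m) (Fin m) ℂ, Continuous W₀ ∧ (∀ x, (W₀ x).PosSemidef) ∧
      ‖(∫ x in a..b, U x * W₀ x * (U x)ᴴ) - ∫ x in a..b, U x * B x * (U x)ᴴ‖ ≤ η ∧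
      ∫ x in a..b, trPow p (W₀ x) ≤ (∫ x in a..b, trPow p (B x)) + η := by
  obtain ⟨W, hWc, hWp, hWM, hWl⟩ := smooth_pot hB hp hM
  have l1 : Tendsto (fun k => ∫ x in a..b, U x * W k x * (U x)ᴴ) atTop
      (𝓝 (∫ x in a..b, U x * B x * (U x)ᴴ)) := by
    refine intervalIntegral.tendsto_integral_filter_of_dominated_convergence (fun _ => C ^ 2 * M)
      (Eventually.of_forall fun k => ?_) (Eventually.of_forall fun k =>
        Eventually.of_forall fun x _ => ?_) intervalIntegrable_const ?_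
    · exact ((hU.matrix_mul (hWc k)).matrix_mul hU.matrix_conjTranspose).aestronglyMeasurable
    · exact (norm_sandwich _ _).trans (mul_le_mul (pow_le_pow_left₀ (norm_nonneg _) (hC x) 2)
        (hWM k x) (norm_nonneg _) (sq_nonneg _))
    · filter_upwards [hWl] with x hx _
      have hc : Continuous fun A : Matrix (Fin m) (Fin m) ℂ => U x * A * (U x)ᴴ :=
        (continuous_const.matrix_mul continuous_id).matrix_mul continuous_const
      exact (hc.tendsto _).comp hx
  have l2 : Tendsto (fun k => ∫ x in a..b, trPow p (W k x)) atTop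
      (𝓝 (∫ x in a..b, trPow p (B x))) := by
    refine intervalIntegral.tendsto_integral_filter_of_dominated_convergence (fun _ => m * M ^ p)
      (Eventually.of_forall fun k => ?_) (Eventually.of_forall fun k =>
        Eventually.of_forall fun x _ => ?_) intervalIntegrable_const ?_
    · exact ((continuousOn_trPow h0.le).comp_continuous (hWc k)
        fun x => (hWp k x).1).aestronglyMeasurable
    · rw [Real.norm_of_nonneg (trPow_nonneg p (hWp k x))]
      exact trPow_le h0.le (hWp k x) (hWM k x)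
    · filter_upwards [hWl] with x hx _
      exact (continuousOn_trPow h0.le (B x) (hp x).1).tendsto.comp
        (tendsto_nhdsWithin_iff.2 ⟨hx, Eventually.of_forall fun k => (hWp k x).1⟩)
  rw [tendsto_iff_norm_sub_tendsto_zero] at l1
  obtain ⟨k, hk1, hk2⟩ := ((l1.eventually (ge_mem_nhds hη)).and
    (l2.eventually (ge_mem_nhds (lt_add_of_pos_right _ hη)))).exists
  exact ⟨W k, hWc k, hWp k, hk1, hk2⟩

/-- convergence of Gram matrices under `L^2` convergence -/
theorem gram_lim {a b : ℕ} {A : ℕ → ℝ → Matrix (Fin a) (Fin b) ℂ}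
    {V : ℝ → Matrix (Fin a) (Fin b) ℂ} (hA : ∀ n, MemLp (A n) 2) (hV : MemLp V 2)
    (hl : Tendsto (fun n => ∫ x, ‖A n x - V x‖ ^ 2) atTop (𝓝 0)) :
    Tendsto (fun n => ∫ x, A n x * (A n x)ᴴ) atTop (𝓝 (∫ x, V x * (V x)ᴴ)) := by
  have hint : ∀ {Z : ℝ → Matrix (Fin a) (Fin b) ℂ}, MemLp Z 2 →
      Integrable fun x => Z x * (Z x)ᴴ := by
    intro Z hZ
    refine (int_sq_of_memLp hZ).mono' (aesm_mul hZ.1 (aesm_ct hZ.1))
      (Eventually.of_forall fun x => ?_)
    have h1 := l2_opNorm_mul (Z x) (Z x)ᴴ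
    rw [l2_opNorm_conjTranspose] at h1
    rw [sq]; exact h1
  set K := ∫ x, ‖V x‖ ^ 2 with hK
  have hK0 : 0 ≤ K := integral_nonneg fun x => sq_nonneg _
  have key : ∀ δ : ℝ, 0 < δ → ∀ n, ‖(∫ x, A n x * (A n x)ᴴ) - ∫ x, V x * (V x)ᴴ‖ ≤
      (1 + 1 / δ) * (∫ x, ‖A n x - V x‖ ^ 2) + δ * K := by
    intro δ hδ n
    have i1 : Integrable fun x => ‖A n x - V x‖ ^ 2 := int_sq_of_memLp ((hA n).sub hV)
    have i2 := int_sq_of_memLp hV
    rw [← integral_sub (hint (hA n)) (hint hV), hK, ← integral_const_mul, ← integral_const_mul,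
      ← integral_add (i1.const_mul _) (i2.const_mul _)]
    refine norm_integral_le_of_norm_le ((i1.const_mul _).add (i2.const_mul _))
      (Eventually.of_forall fun x => ?_)
    have e : A n x * (A n x)ᴴ - V x * (V x)ᴴ = (A n x - V x) * (A n x - V x)ᴴ +
        (A n x - V x) * (V x)ᴴ + V x * (A n x - V x)ᴴ := by
      simp only [conjTranspose_sub, Matrix.sub_mul, Matrix.mul_sub]; abel
    rw [e]
    have h1 := l2_opNorm_mul (A n x - V x) (A n x - V x)ᴴ
    have h2 := l2_opNorm_mul (A n x - V x) (V x)ᴴ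
    have h3 := l2_opNorm_mul (V x) (A n x - V x)ᴴ
    rw [l2_opNorm_conjTranspose] at h1 h2 h3
    have h4 := norm_add₃_le (a := (A n x - V x) * (A n x - V x)ᴴ) (b := (A n x - V x) * (V x)ᴴ)
      (c := V x * (A n x - V x)ᴴ)
    generalize ‖A n x - V x‖ = s at *
    generalize ‖V x‖ = t at *
    have h5 : 2 * (s * t) ≤ 1 / δ * s ^ 2 + δ * t ^ 2 := by
      have e1 : 1 / δ * s ^ 2 + δ * t ^ 2 - 2 * (s * t) = (s - δ * t) ^ 2 / δ := by
        field_simp; ring
      have : 0 ≤ (s - δ * t) ^ 2 / δ := by positivity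
      linarith
    nlinarith
  rw [Metric.tendsto_atTop]
  intro ε hε
  have hδ : 0 < ε / (2 * (K + 1)) := by positivity
  have h1 : Tendsto (fun n => (1 + 1 / (ε / (2 * (K + 1)))) * ∫ x, ‖A n x - V x‖ ^ 2) atTop
      (𝓝 0) := by simpa using hl.const_mul (1 + 1 / (ε / (2 * (K + 1))))
  obtain ⟨n₀, hn₀⟩ := eventually_atTop.1 (h1.eventually (gt_mem_nhds (half_pos hε)))
  refine ⟨n₀, fun n hn => ?_⟩
  rw [dist_eq_norm]
  have h2 : ε / (2 * (K + 1)) * K ≤ ε / 2 := by
    rw [div_mul_eq_mul_div, div_le_div_iff₀ (by positivity) two_pos]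
    nlinarith
  linarith [key _ hδ n, hn₀ n hn]

end Red

end Vale.Agent.P371
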