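import Vale.Agent.P371.Basic
import Vale.Agent.P371.ReduceAux2

open MeasureTheory Matrix Set
open scoped Matrix.Norms.L2Operator ComplexOrder

namespace Vale.Agent.P371

namespace Red

open Filter Topology

/-- the matrix whose rows are the conjugates of given vectors -/
noncomputable def rows (N m : ℕ) : (Fin N → Fin m → ℂ) →L[ℝ] Matrix (Fin N) (Fin m) ℂ :=
  LinearMap.toContinuousLinearMap
    { toFun := fun w => Matrix.of fun j k => star (w j k)
      map_add' := fun A B => by ext j k; simp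
      map_smul' := fun c A => by ext j k; simp }

theorem rows_apply {N m : ℕ} (w : Fin N → Fin m → ℂ) (j : Fin N) (k : Fin m) :
    rows N m w j k = star (w j k) := rfl

theorem rows_gram {N m : ℕ} (w : Fin N → Fin m → ℂ) (j k : Fin N) :
    (rows N m w * (rows N m w)ᴴ) j k = star (w j) ⬝ᵥ w k := by
  simp [Matrix.mul_apply, rows_apply, dotProduct]

theorem rows_sand {N m : ℕ} (w : Fin N → Fin m → ℂ) (A : Matrix (Fin m) (Fin m) ℂ) (j k : Fin N) :
    (rows N m w * A * (rows N m w)ᴴ) j k = star (w j) ⬝ᵥ (A *ᵥ w k) := by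
  rw [Matrix.mul_assoc]
  simp [Matrix.mul_apply, rows_apply, dotProduct, mulVec]

theorem int_gram {a b : ℕ} {Z : ℝ → Matrix (Fin a) (Fin b) ℂ} (hZ : MemLp Z 2) :
    Integrable fun x => Z x * (Z x)ᴴ := by
  refine (int_sq_of_memLp hZ).mono' (aesm_mul hZ.1 (aesm_ct hZ.1))
    (Eventually.of_forall fun x => ?_)
  have h1 := l2_opNorm_mul (Z x) (Z x)ᴴ
  rw [l2_opNorm_conjTranspose] at h1
  rw [sq]; exact h1

theorem tendsto_sand {N m : ℕ} {Z : ℕ → Matrix (Fin N) (Fin m) ℂ} {Z₀ : Matrix (Fin N) (Fin m) ℂ}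
    {A : ℕ → Matrix (Fin m) (Fin m) ℂ} {A₀ : Matrix (Fin m) (Fin m) ℂ}
    (hZ : Tendsto Z atTop (𝓝 Z₀)) (hA : Tendsto A atTop (𝓝 A₀)) :
    Tendsto (fun n => Z n * A n * (Z n)ᴴ) atTop (𝓝 (Z₀ * A₀ * Z₀ᴴ)) := by
  have hc : Continuous fun A : Matrix (Fin N) (Fin m) ℂ × Matrix (Fin m) (Fin m) ℂ =>
      A.1 * A.2 * A.1ᴴ :=
    (continuous_fst.matrix_mul continuous_snd).matrix_mul continuous_fst.matrix_conjTranspose
  have h2 := (hc.tendsto (Z₀, A₀)).comp (hZ.prodMk_nhds hA)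
  simpa only [Function.comp_def] using h2

theorem rows_facts {N m : ℕ} {W : ℝ → Matrix (Fin m) (Fin m) ℂ} {e : Fin N → ℝ}
    (he : NegEigs W e) : ∃ U₀ V₀ : ℝ → Matrix (Fin N) (Fin m) ℂ, MemLp U₀ 2 ∧ MemLp V₀ 2 ∧
      (∀ x y, U₀ y - U₀ x = ∫ t in x..y, V₀ t) ∧ ∫ x, U₀ x * (U₀ x)ᴴ = 1 ∧
      ((Integrable fun x => U₀ x * W x * (U₀ x)ᴴ) →
        (∫ x, U₀ x * W x * (U₀ x)ᴴ) - (∫ x, V₀ x * (V₀ x)ᴴ) =
          diagonal fun j => ((|e j| : ℝ) : ℂ)) := by
  obtain ⟨u, v, he0, heig, horth⟩ := he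
  set U₀ : ℝ → Matrix (Fin N) (Fin m) ℂ := fun x => rows N m fun j => u j x with hU₀
  set V₀ : ℝ → Matrix (Fin N) (Fin m) ℂ := fun x => rows N m fun j => v j x with hV₀
  have hU2 : MemLp U₀ 2 := (rows N m).comp_memLp' (f := fun x j => u j x)
    (memLp_pi_iff.2 fun j => (heig j).h1.memLp)
  have hV2 : MemLp V₀ 2 := (rows N m).comp_memLp' (f := fun x j => v j x)
    (memLp_pi_iff.2 fun j => (heig j).h1.memLp_deriv)
  have hftc : ∀ x y, U₀ y - U₀ x = ∫ t in x..y, V₀ t := by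
    intro x y
    ext j k
    have e1 := (ent j k).intervalIntegral_comp_comm (ii_of_memLp hV2 x y)
    have e2 := ((Complex.conjCLE : ℂ →L[ℝ] ℂ).comp
      (ContinuousLinearMap.proj (R := ℝ) (φ := fun _ : Fin m => ℂ) k)).intervalIntegral_comp_comm
      (ii_of_memLp (heig j).h1.memLp_deriv x y)
    rw [← (heig j).h1.ftc] at e2
    refine Eq.trans ?_ (e2.symm.trans e1)
    simp [hU₀, rows_apply]
  refine ⟨U₀, V₀, hU2, hV2, hftc, ?_, fun i1 => ?_⟩
  · ext j k
    rw [integral_apply' (int_gram hU2), one_apply, ← horth j k]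
    simp only [hU₀, rows_gram, ip]
  · ext j k
    rw [Matrix.sub_apply, integral_apply' i1, integral_apply' (int_gram hV2)]
    have e1 := (heig k).eq (u j) (v j) (heig j).h1
    rw [horth j k] at e1
    simp only [hU₀, hV₀, rows_gram, rows_sand]
    simp only [ip] at e1
    rw [← neg_sub, e1, diagonal_apply]
    by_cases hjk : j = k
    · subst hjk; simp [abs_of_neg (he0 j)]
    · simp [hjk]

theorem pre_reduce {N m : ℕ} {p : ℝ} (h1 : 1 < p) {W : ℝ → Matrix (Fin m) (Fin m) ℂ}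
    (hW : IsPotential p W) {e : Fin N → ℝ} (he : NegEigs W e) {η : ℝ} (h0 : 0 < η) :
    ∃ (a b : ℝ) (U U' : ℝ → Matrix (Fin N) (Fin m) ℂ) (W₀ : ℝ → Matrix (Fin m) (Fin m) ℂ),
      a < b ∧ (∀ x, HasDerivAt U (U' x) x) ∧ Continuous U' ∧ U a = 0 ∧ U b = 0 ∧
      Continuous W₀ ∧ (∀ x, (W₀ x).PosSemidef) ∧
      ‖(∫ x in a..b, U x * (U x)ᴴ) - 1‖ ≤ η ∧
      ‖(∫ x in a..b, (U x * W₀ x * (U x)ᴴ - U' x * (U' x)ᴴ))
        - diagonal fun j => ((|e j| : ℝ) : ℂ)‖ ≤ 3 * η ∧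
      ∫ x in a..b, trPow p (W₀ x) ≤ (∫ x, trPow p (W x)) + η := by
  have hp0 : 0 < p := by linarith
  obtain ⟨U₀, V₀, hU2, hV2, hftc, g1, g2'⟩ := rows_facts he
  obtain ⟨F, F', D, C, hFd, hF'c, hF0, hF'0, hD2, hDC, hFD, hFl, hF'l⟩ := approx hU2 hV2 hftc
  have hFc : ∀ n, Continuous (F n) := fun n =>
    continuous_iff_continuousAt.2 fun x => (hFd n x).continuousAt
  have hUD : ∀ x, ‖U₀ x‖ ≤ D x := fun x => le_of_tendsto' (hFl x).norm fun n => hFD n x
  have hD0 : ∀ x, 0 ≤ D x := fun x => (norm_nonneg _).trans (hUD x)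
  have hD2' : Integrable fun x => D x ^ 2 := (memLp_two_iff_integrable_sq hD2.1).1 hD2
  have hWm : AEStronglyMeasurable W := aesm_of_entries fun i j => (hW.meas i j).aestronglyMeasurable
  have hT0 : ∀ x, 0 ≤ trPow p (W x) := fun x => trPow_nonneg p (hW.psd x)
  have hbd : Integrable fun x => D x ^ 2 + C ^ 2 * trPow p (W x) := hD2'.add (hW.int.const_mul _)
  have hsand : ∀ (x : ℝ) (Z : Matrix (Fin N) (Fin m) ℂ) (A : Matrix (Fin m) (Fin m) ℂ),
      ‖Z‖ ≤ D x → ‖A‖ ≤ ‖W x‖ → ‖Z * A * Zᴴ‖ ≤ D x ^ 2 + C ^ 2 * trPow p (W x) := by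
    intro x Z A hZ hA
    have e1 := hA.trans (norm_le_trPow h1.le (hW.psd x))
    have e2 : ‖Z‖ ^ 2 ≤ D x ^ 2 := pow_le_pow_left₀ (norm_nonneg _) hZ 2
    have e3 : D x ^ 2 ≤ C ^ 2 := pow_le_pow_left₀ (hD0 x) (hDC x) 2
    have e4 := mul_le_mul e2 e1 (norm_nonneg _) (sq_nonneg _)
    have e5 := mul_le_mul_of_nonneg_right e3 (hT0 x)
    have := norm_sandwich Z A
    nlinarith
  set B : ℕ → ℝ → Matrix (Fin m) (Fin m) ℂ := fun n => {x | ‖W x‖ ≤ n}.indicator W with hB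
  have hBm : ∀ n, AEStronglyMeasurable (B n) := fun n =>
    hWm.indicator₀ (hWm.norm.nullMeasurableSet_le aestronglyMeasurable_const)
  have hBc : ∀ n x, (B n x = W x ∧ ‖W x‖ ≤ n) ∨ B n x = 0 := by
    intro n x
    by_cases hx : ‖W x‖ ≤ n
    · exact Or.inl ⟨indicator_of_mem (s := {x | ‖W x‖ ≤ n}) hx _, hx⟩
    · exact Or.inr (indicator_of_notMem (s := {x | ‖W x‖ ≤ n}) hx _)
  have hBp : ∀ n x, (B n x).PosSemidef := fun n x => by
    rcases hBc n x with h | h
    · rw [h.1]; exact hW.psd x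
    · rw [h]; exact PosSemidef.zero
  have hBn : ∀ (n : ℕ) x, ‖B n x‖ ≤ n := fun n x => by
    rcases hBc n x with h | h
    · rw [h.1]; exact h.2
    · rw [h, norm_zero]; exact n.cast_nonneg
  have hBW : ∀ (n : ℕ) x, ‖B n x‖ ≤ ‖W x‖ := fun n x => norm_indicator_le_norm_self _ _
  have hBT : ∀ n x, trPow p (B n x) ≤ trPow p (W x) := fun n x => by
    rcases hBc n x with h | h
    · rw [h.1]
    · rw [h, trPow_zero hp0]; exact hT0 x
  have hBl : ∀ x, Tendsto (fun n => B n x) atTop (𝓝 (W x)) := fun x => by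
    refine tendsto_const_nhds.congr' ?_
    filter_upwards [tendsto_natCast_atTop_atTop.eventually_ge_atTop ‖W x‖] with n hn
    exact (indicator_of_mem (s := {x | ‖W x‖ ≤ n}) hn _).symm
  have hF'2 : ∀ n, MemLp (F' n) 2 := fun n => by
    refine (hF'c n).memLp_of_hasCompactSupport
      (HasCompactSupport.intro (K := Icc (-(2 * ((n : ℝ) + 1))) (2 * ((n : ℝ) + 1))) isCompact_Icc
        fun x hx => hF'0 n x ?_)
    by_contra hc
    exact hx (abs_le.1 (not_le.1 hc).le)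
  have l1 : Tendsto (fun n => ∫ x, F n x * (F n x)ᴴ) atTop (𝓝 (∫ x, U₀ x * (U₀ x)ᴴ)) := by
    refine tendsto_integral_of_dominated_convergence (fun x => D x ^ 2)
      (fun n => ((hFc n).matrix_mul (hFc n).matrix_conjTranspose).aestronglyMeasurable) hD2'
      (fun n => Eventually.of_forall fun x => ?_) (Eventually.of_forall fun x => ?_)
    · have h1 := l2_opNorm_mul (F n x) (F n x)ᴴ
      rw [l2_opNorm_conjTranspose] at h1
      have e2 : ‖F n x‖ ^ 2 ≤ D x ^ 2 := pow_le_pow_left₀ (norm_nonneg _) (hFD n x) 2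
      nlinarith
    · have hc : Continuous fun A : Matrix (Fin N) (Fin m) ℂ => A * Aᴴ :=
        continuous_id.matrix_mul continuous_id.matrix_conjTranspose
      exact (hc.tendsto _).comp (hFl x)
  have l2 := gram_lim hF'2 hV2 hF'l
  have l3 : Tendsto (fun n => ∫ x, F n x * B n x * (F n x)ᴴ) atTop
      (𝓝 (∫ x, U₀ x * W x * (U₀ x)ᴴ)) := by
    refine tendsto_integral_of_dominated_convergence _
      (fun n => aesm_mul (aesm_mul (hFc n).aestronglyMeasurable (hBm n))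
        (aesm_ct (hFc n).aestronglyMeasurable)) hbd
      (fun n => Eventually.of_forall fun x => hsand x _ _ (hFD n x) (hBW n x))
      (Eventually.of_forall fun x => ?_)
    exact tendsto_sand (hFl x) (hBl x)
  have g2 := g2' (hbd.mono' (aesm_mul (aesm_mul hU2.1 hWm) (aesm_ct hU2.1))
    (Eventually.of_forall fun x => hsand x _ _ (hUD x) le_rfl))
  rw [g1] at l1
  rw [tendsto_iff_norm_sub_tendsto_zero] at l1 l2 l3
  obtain ⟨n, ⟨k1, k2⟩, k3⟩ := (((l1.eventually (ge_mem_nhds h0)).and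
    (l2.eventually (ge_mem_nhds h0))).and (l3.eventually (ge_mem_nhds h0))).exists
  have hr : (0 : ℝ) < 2 * ((n : ℝ) + 1) := by positivity
  set r := 2 * ((n : ℝ) + 1) with hr'
  obtain ⟨W₀, hW₀c, hW₀p, k4, k5⟩ := stage2 hp0 (hFc n) (fun x => (hFD n x).trans (hDC x))
    (hBm n) (hBp n) (hBn n) (-r) r h0
  have hsupp : ∀ G : ℝ → Matrix (Fin N) (Fin N) ℂ, (∀ x, r ≤ |x| → G x = 0) →
      ∫ x in (-r)..r, G x = ∫ x, G x := by
    intro G hG
    refine intervalIntegral.integral_eq_integral_of_support_subset fun x hx => ?_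
    have : |x| < r := not_le.1 fun h => hx (hG x h)
    exact ⟨(abs_lt.1 this).1, (abs_lt.1 this).2.le⟩
  refine ⟨-r, r, F n, F' n, W₀, by linarith, hFd n, hF'c n,
    hF0 n _ (by rw [abs_neg, abs_of_pos hr]), hF0 n _ (by rw [abs_of_pos hr]), hW₀c, hW₀p,
    ?_, ?_, ?_⟩
  · rw [hsupp _ fun x hx => by rw [hF0 n x hx, Matrix.zero_mul]]
    exact k1
  · rw [intervalIntegral.integral_sub
      ((((hFc n).matrix_mul hW₀c).matrix_mul (hFc n).matrix_conjTranspose).intervalIntegrable _ _)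
      (((hF'c n).matrix_mul (hF'c n).matrix_conjTranspose).intervalIntegrable _ _),
      hsupp (fun x => F' n x * (F' n x)ᴴ) fun x hx => by rw [hF'0 n x hx, Matrix.zero_mul], ← g2]
    rw [hsupp (fun x => F n x * B n x * (F n x)ᴴ) fun x hx => by
      rw [hF0 n x hx, Matrix.zero_mul, Matrix.zero_mul]] at k4
    generalize (∫ x in (-r)..r, F n x * W₀ x * (F n x)ᴴ) = X₁ at *
    generalize (∫ x, F n x * B n x * (F n x)ᴴ) = X₂ at *
    generalize (∫ x, U₀ x * W x * (U₀ x)ᴴ) = X₃ at *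
    generalize (∫ x, F' n x * (F' n x)ᴴ) = Y₁ at *
    generalize (∫ x, V₀ x * (V₀ x)ᴴ) = Y₂ at *
    have e : X₁ - Y₁ - (X₃ - Y₂) = (X₁ - X₂) + (X₂ - X₃) + -(Y₁ - Y₂) := by abel
    have h4 := norm_add₃_le (a := X₁ - X₂) (b := X₂ - X₃) (c := -(Y₁ - Y₂))
    rw [norm_neg] at h4
    rw [e]
    linarith
  · refine k5.trans (add_le_add ?_ le_rfl)
    rw [intervalIntegral.integral_of_le (by linarith)]
    refine (integral_mono_of_nonneg (Eventually.of_forall fun x => trPow_nonneg p (hBp n x))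
      hW.int.integrableOn (Eventually.of_forall (hBT n))).trans ?_
    exact setIntegral_le_integral hW.int (Eventually.of_forall hT0)

end Red

open Red Filter Topology in
/-- Reduction to continuous potentials and `C^1` trial functions on a compact interval. -/
theorem reduce {N m : ℕ} {p : ℝ} (h1 : 1 < p) {W : ℝ → Matrix (Fin m) (Fin m) ℂ}
    (hW : IsPotential p W) {e : Fin N → ℝ} (he : NegEigs W e) {ε : ℝ} (h0 : 0 < ε) :
    ∃ (a b : ℝ) (U U' : ℝ → Matrix (Fin N) (Fin m) ℂ) (W₀ : ℝ → Matrix (Fin m) (Fin m) ℂ),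
      a < b ∧ (∀ x, HasDerivAt U (U' x) x) ∧ Continuous U' ∧ U a = 0 ∧ U b = 0 ∧
      Continuous W₀ ∧ (∀ x, (W₀ x).PosSemidef) ∧
      (1 - ∫ x in a..b, U x * (U x)ᴴ).PosSemidef ∧
      ((∫ x in a..b, (U x * W₀ x * (U x)ᴴ - U' x * (U' x)ᴴ))
        - diagonal fun j => (((1 - ε) * |e j| : ℝ) : ℂ)).PosSemidef ∧
      ∫ x in a..b, trPow p (W₀ x) ≤ (∫ x, trPow p (W x)) + ε := by
  have he0 : ∀ j, 0 < |e j| := fun j => by
    obtain ⟨u, v, h, -⟩ := he
    exact abs_pos.2 (h j).ne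
  obtain ⟨μ, hμ, hμ0⟩ : ∃ μ : ℝ, (∀ j, μ ≤ |e j|) ∧ 0 < μ := by
    have : ∀ᶠ μ in 𝓝[>] (0 : ℝ), ∀ j, μ ≤ |e j| :=
      eventually_all.2 fun j => mem_nhdsWithin_of_mem_nhds (ge_mem_nhds (he0 j))
    exact (this.and self_mem_nhdsWithin).exists
  set t := min ε 1 / 2 with ht
  have ht0 : 0 < t := half_pos (lt_min h0 one_pos)
  have ht1 : t ≤ 1 / 2 := by linarith [min_le_right ε 1]
  have ht2 : 2 * t ≤ ε := by linarith [min_le_left ε 1]
  set η := min t (t * μ / 3) with hη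
  have hη0 : 0 < η := lt_min ht0 (by positivity)
  have hη1 : η ≤ t := min_le_left _ _
  have hη2 : 3 * η ≤ t * μ := by linarith [min_le_right t (t * μ / 3)]
  obtain ⟨a, b, U, U', W₀, hab, hd, hc, ha, hb, hWc, hWp, k1, k2, k3⟩ := pre_reduce h1 hW he hη0
  set c := Real.sqrt (1 - t) with hc'
  have hcc : c * c = 1 - t := Real.mul_self_sqrt (by linarith)
  have hle := hab.le
  have hn : ∀ X : Matrix (Fin N) (Fin N) ℂ, ‖(1 - t) • X‖ ≤ ‖X‖ := fun X => by
    rw [norm_smul, Real.norm_of_nonneg (by linarith)]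
    exact mul_le_of_le_one_left (norm_nonneg _) (by linarith)
  refine ⟨a, b, fun x => c • U x, fun x => c • U' x, W₀, hab, fun x => (hd x).const_smul c,
    hc.const_smul c, by simp [ha], by simp [hb], hWc, hWp, ?_, ?_, by linarith⟩
  · have e1 : ∀ x, (c • U x) * (c • U x)ᴴ = (1 - t) • (U x * (U x)ᴴ) := fun x => by
      rw [conjTranspose_smul, star_trivial, Matrix.smul_mul, Matrix.mul_smul, smul_smul, hcc]
    simp only [e1]
    rw [intervalIntegral.integral_smul]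
    have hH : (∫ x in a..b, U x * (U x)ᴴ).IsHermitian := by
      rw [intervalIntegral.integral_of_le hle]
      exact herm_integral fun x => isHermitian_mul_conjTranspose_self _
    generalize (∫ x in a..b, U x * (U x)ᴴ) = G at *
    refine psd_of_close (isHermitian_one.sub (hH.smul (IsSelfAdjoint.all _))) (d := fun _ => t)
      (η := η) ?_ fun _ => hη1
    have e2 : (1 - (1 - t) • G - Matrix.diagonal fun _ => (t : ℂ)) = -((1 - t) • (G - 1)) := by
      ext i j
      by_cases hij : i = j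
      · subst hij; simp; ring
      · simp [hij]
    rw [e2, norm_neg]
    exact (hn _).trans k1
  · have e1 : ∀ x, (c • U x) * W₀ x * (c • U x)ᴴ - (c • U' x) * (c • U' x)ᴴ =
        (1 - t) • (U x * W₀ x * (U x)ᴴ - U' x * (U' x)ᴴ) := fun x => by
      simp only [conjTranspose_smul, star_trivial, Matrix.smul_mul, Matrix.mul_smul, smul_smul,
        hcc, smul_sub]
    simp only [e1]
    rw [intervalIntegral.integral_smul]
    have hH : (∫ x in a..b, (U x * W₀ x * (U x)ᴴ - U' x * (U' x)ᴴ)).IsHermitian := by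
      rw [intervalIntegral.integral_of_le hle]
      exact herm_integral fun x => (isHermitian_mul_mul_conjTranspose _ (hWp x).1).sub
        (isHermitian_mul_conjTranspose_self _)
    generalize (∫ x in a..b, (U x * W₀ x * (U x)ᴴ - U' x * (U' x)ᴴ)) = G at *
    have hD : (diagonal fun j => (((1 - ε) * |e j| : ℝ) : ℂ)).IsHermitian :=
      isHermitian_diagonal_of_self_adjoint _ (funext fun j => by simp)
    refine psd_of_close ((hH.smul (IsSelfAdjoint.all _)).sub hD)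
      (d := fun j => (ε - t) * |e j|) (η := 3 * η) ?_ fun j => ?_
    · have e2 : ((1 - t) • G - (diagonal fun j => (((1 - ε) * |e j| : ℝ) : ℂ)) -
          diagonal fun j => (((ε - t) * |e j| : ℝ) : ℂ)) =
          (1 - t) • (G - diagonal fun j => ((|e j| : ℝ) : ℂ)) := by
        ext i j
        by_cases hij : i = j
        · subst hij; simp; ring
        · simp [hij]
      rw [e2]
      exact (hn _).trans k2
    · have := mul_le_mul (show t ≤ ε - t by linarith) (hμ j) hμ0.le (by linarith)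
      linarith

end Vale.Agent.P371
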