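import Vale.Agent.P371.Core
import Vale.Agent.P371.Reduce
import Vale.Agent.P371.Example

open MeasureTheory Matrix Set Filter Topology

namespace Vale.Agent.P371

theorem sum_le {N m : ℕ} {s : ℝ} (h0 : 0 < s) (h1 : s < 1) {W : ℝ → Matrix (Fin m) (Fin m) ℂ}
    (hW : IsPotential (1 + s) W) {e : Fin N → ℝ} (he : NegEigs W e) :
    cs s * beta s * ∑ j, |e j| ^ (s + 1 / 2) ≤ ∫ x, trPow (1 + s) (W x) := by
  have hneg : ∀ j, 0 < |e j| := fun j => by
    obtain ⟨u, v, h, -⟩ := he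
    exact abs_pos.2 (h j).ne
  have main : ∀ ε : ℝ, 0 < ε → ε < 1 →
      cs s * beta s * ((1 - ε) ^ (s + 1 / 2) * ∑ j, |e j| ^ (s + 1 / 2)) ≤
        (∫ x, trPow (1 + s) (W x)) + ε := fun ε e0 e1 => by
    obtain ⟨a, b, U, U', W₀, hab, hU, hU', Ua, Ub, hW₀, hWp, hG, hE, hI⟩ :=
      reduce (by linarith) hW he e0
    have hp : ∀ j, 0 < (1 - ε) * |e j| := fun j => mul_pos (by linarith) (hneg j)
    have h2 := core (κ := fun j => √((1 - ε) * |e j|)) (fun j => Real.sqrt_pos.2 (hp j)) h0 h1 hab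
      hU hU' Ua Ub hW₀ hWp hG (by simpa only [Real.sq_sqrt (hp _).le] using hE)
    have h3 : ∀ j, √((1 - ε) * |e j|) ^ (2 * s + 1) =
        (1 - ε) ^ (s + 1 / 2) * |e j| ^ (s + 1 / 2) := fun j => by
      rw [Real.sqrt_eq_rpow, ← Real.rpow_mul (hp j).le,
        Real.mul_rpow (by linarith) (hneg j).le]
      congr 2 <;> ring
    simp only [h3, ← Finset.mul_sum] at h2
    exact h2.trans hI
  have c1 : Continuous fun ε : ℝ =>
      cs s * beta s * ((1 - ε) ^ (s + 1 / 2) * ∑ j, |e j| ^ (s + 1 / 2)) :=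
    continuous_const.mul (((Real.continuous_rpow_const (by linarith)).comp
      (continuous_const.sub continuous_id)).mul continuous_const)
  have c2 : Continuous fun ε : ℝ => (∫ x, trPow (1 + s) (W x)) + ε :=
    continuous_const.add continuous_id
  have l1 := (c1.tendsto 0).mono_left (nhdsWithin_le_nhds (s := Ioi 0))
  have l2 := (c2.tendsto 0).mono_left (nhdsWithin_le_nhds (s := Ioi 0))
  simp only [sub_zero, Real.one_rpow, one_mul, add_zero] at l1 l2
  refine le_of_tendsto_of_tendsto l1 l2 ?_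
  filter_upwards [Ioo_mem_nhdsGT (zero_lt_one' ℝ)] with ε hε using main ε hε.1 hε.2

theorem LT_eq {γ : ℝ} (h1 : 1 / 2 < γ) (h2 : γ < 3 / 2) {m : ℕ} (hm : 1 ≤ m) :
    LT γ m = ENNReal.ofReal (Lone γ) := by
  obtain ⟨s, rfl⟩ : ∃ s, γ = s + 1 / 2 := ⟨γ - 1 / 2, by ring⟩
  have h0 : 0 < s := by linarith
  have h1 : s < 1 := by linarith
  have hp : s + 1 / 2 + 1 / 2 = 1 + s := by ring
  have hc : 0 < cs s * beta s := mul_pos (by unfold cs; positivity) (beta_pos h0)
  have hL := cs_beta_Lone h0 h1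
  have hL0 : 0 < Lone (s + 1 / 2) := (mul_pos_iff_of_pos_left hc).1 (by rw [hL]; exact one_pos)
  unfold LT
  rw [hp]
  apply le_antisymm
  · refine iSup_le fun W => iSup_le fun hW => iSup_le fun _ => ENNReal.div_le_of_le_mul ?_
    refine iSup_le fun N => iSup_le fun e => iSup_le fun he => ?_
    rw [← ENNReal.ofReal_mul hL0.le]
    refine ENNReal.ofReal_le_ofReal ?_
    have h3 := mul_le_mul_of_nonneg_left (sum_le h0 h1 hW he) hL0.le
    rwa [← mul_assoc, mul_comm (Lone _), hL, one_mul] at h3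
  · obtain ⟨W, hW, hW0, he, hI⟩ := exists_example hm h0 h1
    refine le_iSup_of_le W (le_iSup_of_le hW (le_iSup_of_le hW0 ?_))
    have hs : 0 < s ^ (2 * s + 1) := Real.rpow_pos_of_pos h0 _
    have h3 : ENNReal.ofReal (s ^ (2 * s + 1)) ≤ rieszMean (s + 1 / 2) W := by
      refine le_iSup_of_le 1 (le_iSup_of_le _ (le_iSup_of_le he (le_of_eq ?_)))
      congr 1
      rw [Fin.sum_univ_one, abs_neg, abs_of_nonneg (sq_nonneg s), ← Real.rpow_natCast,
        ← Real.rpow_mul h0.le]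
      congr 1
      push_cast
      ring
    refine le_trans (le_of_eq ?_) (ENNReal.div_le_div_right h3 _)
    rw [hI, ← ENNReal.ofReal_div_of_pos (mul_pos hc hs)]
    congr 1
    rw [eq_div_iff (mul_pos hc hs).ne', ← mul_assoc, mul_comm (Lone _), hL, one_mul]

end Vale.Agent.P371
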